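import Vale.Agent.P254.S.Defs

/-! # P254 S/Alg

TASK, helper names start with alg_.
E_tau: E_D, D_x.  L_tau: L_eq_ds, D_τ_symm (D a (τ k b) = D k (τ a b)), D_ds_comm with f = τ a b summed over a, ∑ a, ds a (τ a b) = x b (stein), D_sum, D_x.
b_ineq: multiply L_tau by τ k b, sum, E_mul_L (Γ (τ k b) (τ k b) summed is tG τ N N); the last term is trace (τ * τ * V'' * τ) = trace ((τ τ τ) V'') ≥ 0 at each point (trace_mul_nonneg, psd_sandwich).
sc_eq: ds k (τ k m * f) summed over k is Ds m f (d_mul, stein).  E_sc: E_Ds, D a (Ds m f) = Ds m (D a f) + τ a m * f (D_comm, D_mul, D_x), E_Ds again.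
tau_posDef: h is PSD with inverse τ, so τ = τ h τ is PSD and invertible (PosSemidef.posDef_iff_isUnit or posDef_iff_det_ne_zero).
-/

set_option linter.unusedSectionVars false
set_option linter.unusedVariables false

namespace Vale.Agent.P254.S

open Vale.Agent.P227
open scoped ContDiff
open MeasureTheory Set Filter Topology Matrix

variable {n : ℕ}
variable {A : Type} [CommRing A] [Algebra ℝ A] (S : Setup n A)

open scoped MatrixOrder in
theorem alg_pair {P Q : Mat n} (hP : P.PosSemidef) (hQ : Q.PosSemidef) :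
    0 ≤ ∑ k, ∑ b, P k b * Q k b := by
  obtain ⟨C, hC⟩ := CStarAlgebra.nonneg_iff_eq_star_mul_self.mp hP.nonneg
  have h1 : ∑ k, ∑ b, P k b * Q k b = (P * Q).trace := by
    simp only [Matrix.trace, Matrix.diag, Matrix.mul_apply]
    refine Finset.sum_congr rfl fun k _ => Finset.sum_congr rfl fun b _ => ?_
    rw [← hQ.isHermitian.apply k b, star_trivial]
  rw [h1, hC, Matrix.mul_assoc, Matrix.trace_mul_comm]
  exact (hQ.mul_mul_conjTranspose_same C).trace_nonneg

theorem alg_symm (p : X n) : (S.τ.map (S.ev p))ᴴ = S.τ.map (S.ev p) := by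
  ext i j
  simp [S.τ_symm i j]

theorem alg_ds (b : Fin n) : ∑ a, S.ds a (S.τ a b) = S.x b := by
  rw [← neg_neg (S.x b), ← S.stein b, ← Finset.sum_neg_distrib]
  exact Finset.sum_congr rfl fun a _ => by rw [Setup.ds]; ring

theorem alg_D_Ds (a m : Fin n) (f : A) : S.D a (S.Ds m f) = S.Ds m (S.D a f) + S.τ a m * f := by
  rw [Setup.Ds, Setup.Ds, S.D_add, S.D_neg, S.D_mul, S.D_x, S.D_comm]
  ring

theorem E_tau (a b : Fin n) : S.E (S.τ a b) = S.E (S.x a * S.x b) := by
  rw [← S.D_x, S.E_D]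

theorem tau_posDef (p : X n) : (S.τ.map (S.ev p)).PosDef := by
  have h1 : S.τ.map (S.ev p) * S.h.map (S.ev p) = 1 := by
    have := congrArg (S.ev p).mapMatrix S.τ_mul
    rwa [map_mul, map_one] at this
  have h2 := (S.h_pos p).mul_mul_conjTranspose_same (S.τ.map (S.ev p))
  rw [h1, Matrix.one_mul, alg_symm] at h2
  exact h2.posDef_iff_isUnit.2 (IsUnit.of_mul_eq_one _ h1)

theorem L_tau (k b : Fin n) : S.L (S.τ k b) = -S.τ k b + ∑ a, ∑ c, S.d a (S.τ k c) * S.d c (S.τ a b)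
    + ∑ a, (∑ c, S.τ k c * S.d c (S.g a)) * S.τ a b := by
  have h1 : S.τ k b = ∑ a, S.D k (S.ds a (S.τ a b)) := by rw [← S.D_sum, alg_ds, S.D_x]
  simp only [S.D_ds_comm, Finset.sum_add_distrib] at h1
  rw [S.L_eq_ds, Finset.sum_congr rfl fun a _ => congrArg (S.ds a) (S.D_τ_symm k b a)]
  linear_combination h1

theorem b_ineq (hg : Cvx S) :
    S.E (tB S.τ (dM S S.τ) + tG S.τ (dM S S.τ) (dM S S.τ) - t2 S.τ S.τ) ≤ 0 := by
  have h1 : S.E (∑ k, ∑ b, S.τ k b * S.L (S.τ k b)) = -S.E (tG S.τ (dM S S.τ) (dM S S.τ)) := by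
    simp only [map_sum (S.E), S.E_mul_L, Finset.sum_neg_distrib]
    simp only [← map_sum (S.E)]
    rfl
  have h2 : ∑ k, ∑ b, S.τ k b * S.L (S.τ k b) = tB S.τ (dM S S.τ) - t2 S.τ S.τ +
      ∑ k, ∑ b, S.τ k b * ∑ a, (∑ c, S.τ k c * S.d c (S.g a)) * S.τ a b := by
    simp only [tB, t2, dM, ← Finset.sum_sub_distrib, ← Finset.sum_add_distrib]
    refine Finset.sum_congr rfl fun k _ => Finset.sum_congr rfl fun b _ => ?_
    rw [L_tau]
    simp only [mul_assoc (S.τ k b), ← Finset.mul_sum]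
    ring
  have h3 : 0 ≤ S.E (∑ k, ∑ b, S.τ k b * ∑ a, (∑ c, S.τ k c * S.d c (S.g a)) * S.τ a b) := by
    refine S.E_nonneg _ fun p => ?_
    have h4 := (hg p).mul_mul_conjTranspose_same (S.τ.map (S.ev p))
    rw [alg_symm] at h4
    have h5 := alg_pair (tau_posDef S p).posSemidef h4
    simpa only [Matrix.mul_apply, Matrix.map_apply, Matrix.of_apply, map_sum, map_mul] using h5
  rw [h2, map_add, map_sub] at h1
  rw [map_sub, map_add]
  linarith

theorem sc_eq (G : Matrix (Fin n) (Fin n) A) (l : Fin n) : sc S G l = ∑ m, S.Ds m (G m l) := by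
  have h1 : ∀ m, S.Ds m (G m l) = ∑ k, S.ds k (S.τ k m * G m l) := fun m => by
    rw [Setup.Ds, Setup.D, ← alg_ds, Finset.sum_mul, ← Finset.sum_neg_distrib,
      ← Finset.sum_add_distrib]
    refine Finset.sum_congr rfl fun k _ => ?_
    rw [Setup.ds, Setup.ds, S.d_mul, S.τ_symm m k]
    ring
  simp only [h1]
  rw [Finset.sum_comm, sc]
  refine Finset.sum_congr rfl fun k _ => ?_
  simp only [Setup.ds, map_sum, Finset.mul_sum, Finset.sum_add_distrib, Finset.sum_neg_distrib]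

theorem E_sc (G : Matrix (Fin n) (Fin n) A) :
    S.E (∑ l, sc S G l * sc S G l) = S.E (t3 S.τ G + tS S.τ (dM S G)) := by
  have h1 : ∀ a m l, S.E (S.Ds m (G m l) * S.Ds a (G a l)) =
      S.E (S.τ a m * G m l * G a l + S.D a (G m l) * S.D m (G a l)) := fun a m l => by
    rw [S.E_Ds, alg_D_Ds, add_mul, map_add, mul_comm (S.Ds m _), S.E_Ds, map_add, add_comm,
      mul_comm (S.D m _)]
  have h2 : t3 S.τ G + tS S.τ (dM S G) =
      ∑ a, ∑ m, ∑ l, (S.τ a m * G m l * G a l + S.D a (G m l) * S.D m (G a l)) := by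
    simp only [Finset.sum_add_distrib]
    rfl
  rw [h2]
  simp only [sc_eq, Finset.sum_mul_sum, map_sum S.E, h1]
  rw [Finset.sum_comm]
  refine (Finset.sum_congr rfl fun m _ => Finset.sum_comm).trans Finset.sum_comm

end Vale.Agent.P254.S
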