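import Vale.Agent.P254.S.Defs

/-! # P254 S/Sep

TASK, helper names start with sep_.
For y ∉ K, geometric_hahn_banach_closed_point gives f, c with f x < c < f y on K; 0 ∈ K (midpoint of x and -x) so 0 < c; a = fun i => f (Pi.single i 1) / c, dot a x = f x / c, |dot a x| ≤ 1 on K by symmetry, 1 < dot a y.
The open sets {x | 1 < |dot a x|}, a ∈ {a | ∀ x ∈ K, |dot a x| ≤ 1} (nonempty: a = 0), cover the complement; TopologicalSpace.isOpen_iUnion_countable (or isOpen_biUnion_countable) gives a countable subfamily; add 0 and enumerate (Set.Countable.exists_eq_range).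
-/

set_option linter.unusedSectionVars false
set_option linter.unusedVariables false

namespace Vale.Agent.P254.S

open Vale.Agent.P227
open scoped ContDiff
open MeasureTheory Set Filter Topology Matrix

variable {n : ℕ}

theorem sep_one {K : Set (X n)} (hc : IsClosed K) (hv : Convex ℝ K) (hn : K.Nonempty)
    (hs : ∀ x ∈ K, -x ∈ K) {y : X n} (hy : y ∉ K) :
    ∃ a : X n, (∀ x ∈ K, |dot a x| ≤ 1) ∧ 1 < |dot a y| := by
  obtain ⟨f, c, h1, h2⟩ := geometric_hahn_banach_closed_point hv hc hy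
  obtain ⟨z, hz⟩ := hn
  have c0 : 0 < c := by
    have a1 := h1 z hz
    have a2 := h1 _ (hs z hz)
    rw [map_neg] at a2
    linarith
  have e : ∀ x, dot (fun i => f (Pi.single i 1) / c) x = f x / c := fun x => by
    conv_rhs => rw [← Finset.univ_sum_single x, map_sum, Finset.sum_div]
    refine Finset.sum_congr rfl fun i _ => ?_
    rw [← mul_one (x i), ← smul_eq_mul, ← smul_eq_mul (x i) 1, Pi.single_smul', map_smul]
    simp only [smul_eq_mul, mul_one]
    ring
  refine ⟨fun i => f (Pi.single i 1) / c, fun x hx => ?_, ?_⟩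
  · have a1 := h1 x hx
    have a2 := h1 _ (hs x hx)
    rw [map_neg] at a2
    rw [e, abs_div, abs_of_pos c0, div_le_one c0, abs_le]
    exact ⟨by linarith, a1.le⟩
  · rw [e]
    exact ((one_lt_div c0).2 h2).trans_le (le_abs_self _)

theorem exists_slabs {K : Set (X n)} (hc : IsClosed K) (hv : Convex ℝ K) (hn : K.Nonempty)
    (hs : ∀ x ∈ K, -x ∈ K) : ∃ a : ℕ → X n, ∀ x, x ∈ K ↔ ∀ j, |dot (a j) x| ≤ 1 := by
  obtain ⟨T, h1, h2, h3⟩ := TopologicalSpace.isOpen_biUnion_countable
    {a : X n | ∀ x ∈ K, |dot a x| ≤ 1} (fun a => {x | 1 < |dot a x|}) fun a _ =>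
      isOpen_lt continuous_const (by unfold dot; fun_prop)
  obtain ⟨a, ha⟩ := (h2.insert 0).exists_eq_range (insert_nonempty _ _)
  refine ⟨a, fun x => ⟨fun hx j => ?_, fun h => by_contra fun hx => ?_⟩⟩
  · rcases (ha ▸ mem_range_self j : a j ∈ insert 0 T) with e | e
    · simp [e, dot]
    · exact h1 e x hx
  · obtain ⟨b, b1, b2⟩ := sep_one hc hv hn hs hx
    obtain ⟨b', c1, c2⟩ := mem_iUnion₂.1 (h3.ge (mem_iUnion₂.2 ⟨b, b1, b2⟩))
    obtain ⟨j, rfl⟩ : b' ∈ range a := ha ▸ mem_insert_of_mem _ c1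
    exact (h j).not_gt c2

end Vale.Agent.P254.S
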