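import Vale.Agent.P254.S.Gen
import Vale.Agent.P254.S.Sep
import Vale.Agent.P227.Bump

/-! # P254 S/Apx

TASK, helper names start with apx_.
φ from exists_prof (φ ≥ 0), a from exists_slabs.  V m x = ε/2 nsq x + m ∑ j : Fin m, φ (dot (a j) x) is Pot: pot_ridge_sum over Fin n ⊕ Fin m with prof_sq.const_mul and Prof.const_mul (see P227 Poly.lean for the idiom),
or V2.add / hess additivity.  On K, V m x = ε/2 nsq x; off K, V m x → ∞.  Dominated convergence with e^{-V m} ≤ e^{-ε/2 nsq}, V e^{-V} ≤ 2 e^{-V/2} ≤ 2 e^{-ε/4 nsq}, integrable_gauss_poly;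
the limits are integrals of indicators (integral_indicator).  Z₀ > 0 because K has interior.  gen_ent, EntIneq.lim.
-/

set_option linter.unusedSectionVars false
set_option linter.unusedVariables false

namespace Vale.Agent.P254.S

open Vale.Agent.P227
open scoped ContDiff
open MeasureTheory Set Filter Topology Matrix

variable {n : ℕ}

theorem apx_pot {φ : ℝ → ℝ} (hφ : Prof φ) {ε : ℝ} (hε : 0 < ε) (a : ℕ → X n) (m : ℕ) :
    Pot fun x => ε / 2 * nsq x + ∑ j : Fin m, (m : ℝ) * φ (dot (a j) x) := by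
  have hd : ∀ (i : Fin n) (y : X n), dot (Pi.single i 1) y = y i := fun i y => by
    simp [dot, Pi.single_apply]
  have h2 : ∀ t, deriv (deriv fun s : ℝ => ε * (s ^ 2 / 2)) t = ε := fun t => by
    have h1 : (deriv fun s : ℝ => ε * (s ^ 2 / 2)) = fun s => ε * s := by
      funext s
      simp
    rw [h1]
    simp
  have h := pot_ridge_sum (J := Fin n ⊕ Fin m)
    (ψ := Sum.elim (fun _ s => ε * (s ^ 2 / 2)) fun _ s => (m : ℝ) * φ s)
    (by
      rintro (i | j)
      exacts [prof_sq.const_mul hε.le, hφ.const_mul (Nat.cast_nonneg m)])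
    (Sum.elim (fun i => Pi.single i 1) fun j => a j) ⟨ε, hε, fun x ξ => by
      simp only [Fintype.sum_sum_type, Sum.elim_inl, Sum.elim_inr, hd, h2]
      rw [← Finset.mul_sum]
      exact le_add_of_nonneg_right (Finset.sum_nonneg fun j _ =>
        mul_nonneg ((hφ.const_mul (Nat.cast_nonneg m)).conv _) (sq_nonneg _))⟩
  simp only [Fintype.sum_sum_type, Sum.elim_inl, Sum.elim_inr, hd] at h
  have e : ∀ y : X n, ∑ i, ε * (y i ^ 2 / 2) = ε / 2 * nsq y := fun y => by
    rw [nsq, Finset.mul_sum]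
    exact Finset.sum_congr rfl fun i _ => by ring
  simpa only [e] using h

theorem apx_lim {K : Set (X n)} (hK : MeasurableSet K) {V : ℕ → X n → ℝ} {W B : X n → ℝ}
    (hV : ∀ m, Continuous (V m)) (h1 : ∀ m x, W x ≤ V m x) (h2 : ∀ m, ∀ x ∈ K, V m x = W x)
    (h3 : ∀ x, x ∉ K → Tendsto (fun m => V m x) atTop atTop) (G : X n → ℝ → ℝ)
    (hG : Continuous fun p : X n × ℝ => G p.1 p.2) (hB : Integrable B)
    (hb : ∀ x v, W x ≤ v → |G x v| ≤ B x) (h0 : ∀ x, Tendsto (G x) atTop (𝓝 0)) :
    Tendsto (fun m => ∫ x, G x (V m x)) atTop (𝓝 (∫ x in K, G x (W x))) := by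
  rw [← integral_indicator hK]
  refine tendsto_integral_of_dominated_convergence B
    (fun m => (hG.comp (continuous_id.prodMk (hV m))).aestronglyMeasurable) hB
    (fun m => Eventually.of_forall fun x => hb x _ (h1 m x)) (Eventually.of_forall fun x => ?_)
  by_cases hx : x ∈ K
  · rw [indicator_of_mem hx]
    exact tendsto_const_nhds.congr fun m => by rw [h2 m x hx]
  · rw [indicator_of_notMem hx]
    exact (h0 x).comp (h3 x hx)

theorem apx_gauss {K : Set (X n)} (hc : IsCompact K) (hv : Convex ℝ K) (hn : (interior K).Nonempty)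
    (hs : ∀ x ∈ K, -x ∈ K) {ε : ℝ} (hε : 0 < ε) :
    EntIneq (∫ x in K, Real.exp (-(ε / 2 * nsq x)))
      (Matrix.of fun a b => ∫ x in K, x a * x b * Real.exp (-(ε / 2 * nsq x)))
      (∫ x in K, ε / 2 * nsq x * Real.exp (-(ε / 2 * nsq x))) := by
  obtain ⟨φ, hφ, p1, p2⟩ := exists_prof
  have p0 : ∀ s, 0 ≤ φ s := fun s => by
    rcases le_or_gt |s| 1 with h | h
    exacts [(p1 s h).ge, (p2 s h).le]
  obtain ⟨a, ha⟩ := exists_slabs hc.isClosed hv (hn.mono interior_subset) hs
  have p3 : ∀ (m : ℕ) (x : X n) (j : Fin m), 0 ≤ (m : ℝ) * φ (dot (a j) x) := fun m x j =>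
    mul_nonneg (Nat.cast_nonneg m) (p0 _)
  have q0 : ∀ x : X n, 0 ≤ ε / 2 * nsq x := fun x => mul_nonneg (half_pos hε).le (nsq_nonneg x)
  have L := fun B => apx_lim (B := B) (W := fun x => ε / 2 * nsq x)
    (V := fun m x => ε / 2 * nsq x + ∑ j : Fin m, (m : ℝ) * φ (dot (a j) x))
    hc.isClosed.measurableSet (fun m => (apx_pot hφ hε a m).v2.1.continuous)
    (fun m x => le_add_of_nonneg_right (Finset.sum_nonneg fun j _ => p3 m x j))
    (fun m x hx => by
      rw [Finset.sum_eq_zero fun j _ => by rw [p1 _ ((ha x).1 hx j), mul_zero], add_zero])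
    fun x hx => by
      obtain ⟨j, hj⟩ := not_forall.1 (mt (ha x).2 hx)
      refine tendsto_atTop_mono' _ ((eventually_gt_atTop j).mono fun m hm => ?_)
        (tendsto_natCast_atTop_atTop.atTop_mul_const (p2 _ (not_le.1 hj)))
      exact le_add_of_nonneg_of_le (q0 x)
        (Finset.single_le_sum (fun j _ => p3 m x j) (Finset.mem_univ (⟨j, hm⟩ : Fin m)))
  have i0 : Integrable fun x : X n => Real.exp (-(ε / 2 * nsq x)) := by
    simpa using integrable_gauss_poly (n := n) (half_pos hε) 0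
  have : NeZero ((volume : Measure (X n)).restrict K) :=
    ⟨mt Measure.restrict_eq_zero.1 (Measure.measure_pos_of_nonempty_interior _ hn).ne'⟩
  refine EntIneq.lim (fun m => gen_ent (apx_pot hφ hε a m))
    (L _ (fun _ v => Real.exp (-v)) (by fun_prop) i0 (fun x v h => ?_)
      fun _ => Real.tendsto_exp_neg_atTop_nhds_zero)
    (integral_exp_pos i0.integrableOn).ne'
    (fun i j => L _ (fun x v => x i * x j * Real.exp (-v)) (by fun_prop)
      (integrable_gauss_poly (half_pos hε) 2) (fun x v h => ?_) fun x => by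
        simpa using Real.tendsto_exp_neg_atTop_nhds_zero.const_mul (x i * x j))
    (L (fun x => 2 * Real.exp (-(ε / 2 / 2 * nsq x))) (fun _ v => v * Real.exp (-v)) (by fun_prop)
      (Integrable.const_mul (by
        simpa using integrable_gauss_poly (n := n) (half_pos (half_pos hε)) 0) 2)
      (fun x v h => ?_) fun _ => by simpa using Real.tendsto_pow_mul_exp_neg_atTop_nhds_zero 1)
  · rw [abs_of_pos (Real.exp_pos _)]
    exact Real.exp_le_exp.2 (neg_le_neg h)
  · rw [abs_mul, abs_mul, abs_of_pos (Real.exp_pos _), sq]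
    have k : ∀ i, |x i| ≤ 1 + ‖x‖ := fun i => le_add_of_nonneg_of_le zero_le_one (norm_le_pi_norm x i)
    exact mul_le_mul (mul_le_mul (k i) (k j) (abs_nonneg _) (by positivity))
      (Real.exp_le_exp.2 (neg_le_neg h)) (Real.exp_pos _).le (by positivity)
  · have k1 := Real.add_one_le_exp (v / 2)
    have k2 : Real.exp (v / 2) * Real.exp (-v) ≤ Real.exp (-(ε / 2 / 2 * nsq x)) := by
      rw [← Real.exp_add]
      exact Real.exp_le_exp.2 (by linarith)
    rw [abs_of_nonneg (mul_nonneg ((q0 x).trans h) (Real.exp_pos _).le)]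
    nlinarith [Real.exp_pos (-v)]

end Vale.Agent.P254.S
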