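import Vale.Agent.P254.S.Defs

/-! # P254 S/Boch

TASK, helper names start with bo_.  Improved Bochner inequality.
G = L w + w.  Matrices a k b = P G k b, b k b = d k (D b G), a' k b = P w k b, pairing ⟨M, M'⟩ = ∑ k b, M k b * M' b k.  All three are h * (symmetric) (see the proof of P227 Setup.cs_point), so
⟨M, M⟩ ≥ 0 at each point for every real combination M (bk_trace_nonneg).  D_d_comm: (b - a) b a = Θ a b := ∑ c, d b (τ a c) * d c G.
(i) bochner1 and Cvx: E ⟨b,b⟩ ≤ E (LG)².  (ii) bochner2: E ⟨a,a⟩ = E (LG)² - E Γ(G,G).  (iii) double_comm, R2_nonneg, the step h4 in the proof of Setup.key, and the middle term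
= trace (V'' * (τ w'' τ w'' τ)) ≥ 0: 2 E ⟨a',b⟩ + E ⟨a',a'⟩ ≤ 0.  (iv) polarise bochner2 (apply it to w + G, w, G; L and P are additive) and use E_mul_L, L w = G - w: E ⟨a',a⟩ = - E Γ(G,G).
With s = 2/5: s(1-s) ⟨b-a,b-a⟩ + ⟨M,M⟩ = (1-s)⟨a,a⟩ + s⟨b,b⟩ + s²(2⟨a',b⟩ + ⟨a',a'⟩) + 2s(1-s)⟨a',a⟩ for M = s a' + s b + (1-s) a.
-/

set_option linter.unusedSectionVars false
set_option linter.unusedVariables false

namespace Vale.Agent.P254.S

open Vale.Agent.P227
open scoped ContDiff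
open MeasureTheory Set Filter Topology Matrix

variable {n : ℕ}
variable {A : Type} [CommRing A] [Algebra ℝ A] (S : Setup n A)

/-- The matrix `P`. -/
def bo_P (w : A) : Matrix (Fin n) (Fin n) A := Matrix.of fun k b => S.P w k b

/-- The matrix `∂ D G`. -/
def bo_B (G : A) : Matrix (Fin n) (Fin n) A := Matrix.of fun k b => S.d k (S.D b G)

/-- The pairing. -/
def bo_ip (M N : Matrix (Fin n) (Fin n) A) : ℝ := S.E (M * N).trace

theorem bo_ip_comm (M N : Matrix (Fin n) (Fin n) A) : bo_ip S M N = bo_ip S N M := by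
  rw [bo_ip, bo_ip, Matrix.trace_mul_comm]

theorem bo_ip_eq (M N : Matrix (Fin n) (Fin n) A) :
    bo_ip S M N = S.E (∑ k, ∑ b, M k b * N b k) := by
  simp only [bo_ip, Matrix.trace, Matrix.diag, Matrix.mul_apply]

theorem bo_ip_eq' (M N : Matrix (Fin n) (Fin n) A) :
    bo_ip S M N = S.E (∑ b, ∑ k, M k b * N b k) := by
  rw [bo_ip_eq, Finset.sum_comm]

theorem bo_ev (p : X n) (M : Matrix (Fin n) (Fin n) A) :
    S.ev p M.trace = (M.map (S.ev p)).trace := by
  simp only [Matrix.trace, Matrix.diag, map_sum, Matrix.map_apply]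

theorem bo_map (p : X n) (M N : Matrix (Fin n) (Fin n) A) :
    (M * N).map (S.ev p) = M.map (S.ev p) * N.map (S.ev p) := by
  ext i j
  simp only [Matrix.mul_apply, map_sum, map_mul, Matrix.map_apply]

theorem bo_h (M : Matrix (Fin n) (Fin n) A) : S.h * (S.τ * M) = M := by
  rw [← Matrix.mul_assoc, S.h_mul, Matrix.one_mul]

theorem bo_nonneg {M : Matrix (Fin n) (Fin n) A} (hM : (S.τ * M)ᵀ = S.τ * M) :
    0 ≤ bo_ip S M M := by
  refine S.E_nonneg _ fun p => ?_
  rw [← bo_h S M, bo_ev, bo_map, bo_map]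
  refine Setup.bk_trace_nonneg (S.h_pos p) ?_
  rw [← Matrix.transpose_map, hM]

theorem bo_P_symm (w : A) : (S.τ * bo_P S w)ᵀ = S.τ * bo_P S w := by
  ext b m
  simp only [Matrix.transpose_apply, Matrix.mul_apply, bo_P, Matrix.of_apply, Setup.P, Setup.D,
    Finset.mul_sum]
  rw [Finset.sum_comm]
  refine Finset.sum_congr rfl fun j _ => Finset.sum_congr rfl fun r _ => ?_
  rw [S.d_comm j r]
  ring

theorem bo_B_symm (G : A) : (S.τ * bo_B S G)ᵀ = S.τ * bo_B S G := by
  ext b m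
  exact S.D_comm m b G

open scoped MatrixOrder in
theorem bo_trace {V W : Mat n} (hV : V.PosSemidef) (hW : W.PosSemidef) : 0 ≤ (V * W).trace := by
  obtain ⟨C, rfl⟩ := CStarAlgebra.nonneg_iff_eq_star_mul_self.mp hV.nonneg
  rw [Matrix.mul_assoc, Matrix.trace_mul_comm, Matrix.star_eq_conjTranspose]
  exact (hW.mul_mul_conjTranspose_same C).trace_nonneg

theorem bo_mid (hg : Cvx S) (w : A) :
    0 ≤ S.E (∑ a, ∑ b, ∑ k, (∑ c, S.τ a c * S.d c (S.g b)) * S.P w k b * S.P w a k) := by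
  have e : (∑ a, ∑ b, ∑ k, (∑ c, S.τ a c * S.d c (S.g b)) * S.P w k b * S.P w a k) =
      ((Matrix.of fun a b => S.d a (S.g b)) *
        ((S.τ * bo_P S w)ᵀ * S.h * (S.τ * bo_P S w))).trace := by
    rw [bo_P_symm, Matrix.mul_assoc _ S.h, bo_h, Matrix.mul_assoc S.τ, ← Matrix.mul_assoc]
    simp only [Matrix.trace, Matrix.diag, Matrix.mul_apply, bo_P, Matrix.of_apply]
    rw [Finset.sum_comm]
    refine Finset.sum_congr rfl fun b _ => Finset.sum_congr rfl fun a _ => ?_
    rw [Finset.mul_sum]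
    refine Finset.sum_congr rfl fun k _ => ?_
    rw [mul_assoc, mul_comm (S.P w k b)]
    congr 1
    exact Finset.sum_congr rfl fun c _ => by rw [S.τ_symm a c, S.g_symm c b, mul_comm]
  refine S.E_nonneg _ fun p => ?_
  rw [e, bo_ev, bo_map, bo_map, bo_map, Matrix.transpose_map,
    ← Matrix.conjTranspose_eq_transpose_of_trivial]
  exact bo_trace (hg p) ((S.h_pos p).conjTranspose_mul_mul_same _)

theorem bo_one (hg : Cvx S) (G : A) :
    bo_ip S (bo_B S G) (bo_B S G) ≤ S.E (S.L G * S.L G) := by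
  rw [S.bochner1, bo_ip_eq']
  refine le_add_of_nonneg_right (S.E_nonneg _ fun p => ?_)
  have h := (hg p).dotProduct_mulVec_nonneg fun a => S.ev p (S.D a G)
  simp only [dotProduct, Matrix.mulVec, Matrix.of_apply, star_trivial, Finset.mul_sum] at h
  simp only [map_sum, map_mul]
  refine h.trans (le_of_eq ?_)
  exact Finset.sum_congr rfl fun _ _ => Finset.sum_congr rfl fun _ _ => by ring

theorem bo_two (G : A) :
    bo_ip S (bo_P S G) (bo_P S G) = S.E (S.L G * S.L G) + S.E (G * S.L G) := by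
  rw [S.bochner2, bo_ip_eq', S.E_mul_L G, add_neg_cancel_right]
  rfl

theorem bo_three (hg : Cvx S) (w : A) :
    2 * bo_ip S (bo_P S w) (bo_B S (S.L w + w)) + bo_ip S (bo_P S w) (bo_P S w) ≤ 0 := by
  have h1 := S.double_comm w
  have h2 := bo_mid S hg w
  have h3 := S.E_nonneg _ (S.R2_nonneg w)
  have h4 : -bo_ip S (bo_P S w) (bo_B S (S.L w + w))
      = S.E ((∑ k, (∑ b, S.ds b (S.P w k b)) * ∑ a, S.Ds a (S.P w a k))) := by
    simp only [bo_ip_eq, bo_P, bo_B, Matrix.of_apply, map_sum, ← Finset.sum_neg_distrib]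
    refine Finset.sum_congr rfl fun k _ => ?_
    rw [Finset.sum_mul, map_sum]
    refine Finset.sum_congr rfl fun b _ => ?_
    rw [mul_comm (S.P w k b), ← S.E_ds, S.D_L, neg_mul, map_neg, neg_neg, mul_comm]
  have h5 : bo_ip S (bo_P S w) (bo_P S w) = S.E (∑ a, ∑ k, S.P w k a * S.P w a k) :=
    bo_ip_eq' S _ _
  linarith

theorem bo_ip_add (M N K : Matrix (Fin n) (Fin n) A) :
    bo_ip S (M + N) K = bo_ip S M K + bo_ip S N K := by
  rw [bo_ip, Matrix.add_mul, Matrix.trace_add, map_add, bo_ip, bo_ip]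

theorem bo_ip_add' (M N K : Matrix (Fin n) (Fin n) A) :
    bo_ip S K (M + N) = bo_ip S K M + bo_ip S K N := by
  rw [bo_ip, Matrix.mul_add, Matrix.trace_add, map_add, bo_ip, bo_ip]

theorem bo_four (w G : A) (hG : G = S.L w + w) :
    bo_ip S (bo_P S w) (bo_P S G) = S.E (G * S.L G) := by
  have h1 := bo_two S (w + G)
  have h2 := bo_two S w
  have h3 := bo_two S G
  have h4 : S.L (w + G) = S.L w + S.L G := by
    simp only [S.L_eq_ds, S.D_add, Setup.ds, map_add, mul_add, neg_add, Finset.sum_add_distrib]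
    ring
  have h5 : bo_P S (w + G) = bo_P S w + bo_P S G := by
    ext k b
    simp only [bo_P, Matrix.of_apply, Matrix.add_apply, Setup.P, map_add, S.D_add]
  have h6 : S.E (G * S.L w) = S.E (w * S.L G) := by
    rw [S.E_mul_L, S.E_mul_L, Setup.Γ, Setup.Γ, Finset.sum_comm]
    congr 2
    exact Finset.sum_congr rfl fun _ _ => Finset.sum_congr rfl fun _ _ => by
      rw [S.τ_symm]
      ring
  have h7 : S.E (G * S.L G) = S.E (S.L w * S.L G) + S.E (w * S.L G) := by
    rw [← map_add, ← add_mul, ← hG]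
  simp only [h4, h5, bo_ip_add, bo_ip_add', add_mul, mul_add, map_add] at h1
  rw [bo_ip_comm S (bo_P S G) (bo_P S w), mul_comm (S.L G) (S.L w)] at h1
  linarith

theorem boch (hg : Cvx S) (w G : A) (hG : G = S.L w + w) :
    27 / 25 * S.E (S.Γ G G) + 6 / 25 * S.E (∑ a, ∑ b,
        (∑ c, S.d b (S.τ a c) * S.d c G) * ∑ c, S.d a (S.τ b c) * S.d c G)
      ≤ S.E (S.L G * S.L G) := by
  have h1 := bo_one S hg G
  have h2 := bo_two S G
  have h3 := bo_three S hg w
  have h4 := bo_four S w G hG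
  have h5 := S.E_mul_L G G
  rw [← hG] at h3
  obtain ⟨T, hT⟩ : ∃ T : Matrix (Fin n) (Fin n) A,
    T = Matrix.of fun b a => ∑ c, S.d b (S.τ a c) * S.d c G := ⟨_, rfl⟩
  have h6 : S.E (∑ a, ∑ b, (∑ c, S.d b (S.τ a c) * S.d c G) * ∑ c, S.d a (S.τ b c) * S.d c G) =
      bo_ip S T T := by
    rw [bo_ip_eq', hT]
    rfl
  have h7 : bo_B S G = bo_P S G + T := by
    ext b a
    rw [hT]
    exact S.D_d_comm a b G
  have h8 := bo_nonneg S (M := bo_P S w + bo_P S w + bo_B S G + bo_B S G + bo_P S G + bo_P S G +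
    bo_P S G) (by simp only [Matrix.mul_add, Matrix.transpose_add, bo_P_symm, bo_B_symm])
  rw [h7] at h1 h3 h8
  simp only [bo_ip_add, bo_ip_add'] at h1 h3 h8
  have c1 := bo_ip_comm S (bo_P S G) (bo_P S w)
  have c2 := bo_ip_comm S T (bo_P S w)
  have c3 := bo_ip_comm S T (bo_P S G)
  rw [h6]
  linarith

end Vale.Agent.P254.S
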