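import Vale.Agent.P254.S.Apx
import Vale.Agent.P254.Aff

/-! # P254 S/Body

TASK, helper names start with bd_.
body0: ε = 1/(m+1) → 0 in apx_gauss; the three integrals are continuous in ε (dominated convergence on the compact set K, or continuous_parametric_integral_of_continuous); EntIneq.lim gives EntIneq (vol K) (∫ x a x b) 0, vol K > 0 (vol_eq).
cen K = 0 by symmetry (∫ x in K, x i = - itself: integral_neg_eq_self on the indicator, or aff_int with M = -1), so cov K = (vol K)⁻¹ • M and Phi K = det / vol² ≤ rC ^ n.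
body: translate, K' = aff 1 (-c) '' K, Phi_aff, aff_convex; the interior stays nonempty (Homeomorph.addRight, image_interior).
-/

set_option linter.unusedSectionVars false
set_option linter.unusedVariables false

namespace Vale.Agent.P254.S

open Vale.Agent.P227
open scoped ContDiff
open MeasureTheory Set Filter Topology Matrix

variable {n : ℕ}

theorem bd_lim {K : Set (Fin n → ℝ)} (hK : IsCompact K) {f : ℝ → X n → ℝ}
    (hf : Continuous f.uncurry) :
    Tendsto (fun m : ℕ => ∫ x in K, f (1 / ((m : ℝ) + 1)) x) atTop (𝓝 (∫ x in K, f 0 x)) :=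
  ((continuous_parametric_integral_of_continuous hf hK).tendsto 0).comp
    tendsto_one_div_add_atTop_nhds_zero_nat

theorem bd_nsq : Continuous (nsq : X n → ℝ) := by
  unfold nsq
  fun_prop

theorem bd_vol {K : Set (Fin n → ℝ)} (hK : IsBody K) : 0 < vol K :=
  ENNReal.toReal_pos (Measure.measure_pos_of_nonempty_interior _ hK.2.2).ne' hK.1.measure_lt_top.ne

theorem bd_cen {K : Set (Fin n → ℝ)} (hK : IsCompact K) (hs : ∀ x ∈ K, -x ∈ K) (i : Fin n) :
    cen K i = 0 := by
  have h1 := integral_neg_eq_self (K.indicator fun x : Fin n → ℝ => x i) volume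
  have h2 : (fun x : Fin n → ℝ => K.indicator (fun x : Fin n → ℝ => x i) (-x)) =
      fun x => -K.indicator (fun x : Fin n → ℝ => x i) x := funext fun x => by
    by_cases hx : x ∈ K
    · rw [indicator_of_mem hx, indicator_of_mem (hs x hx), Pi.neg_apply]
    · rw [indicator_of_notMem hx, indicator_of_notMem fun h => hx (neg_neg x ▸ hs _ h), neg_zero]
  rw [h2, integral_neg, integral_indicator hK.measurableSet] at h1
  have h3 : ∫ x in K, x i = 0 := by linarith
  rw [cen, h3, mul_zero]

theorem body0 {K : Set (Fin n → ℝ)} (hK : IsBody K) (hs : ∀ x ∈ K, -x ∈ K) : Phi K ≤ rC ^ n := by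
  have q := bd_nsq (n := n)
  have e : Continuous fun p : ℝ × X n => p.1 / 2 * nsq p.2 :=
    (continuous_fst.div_const 2).mul (q.comp continuous_snd)
  have e' : Continuous fun p : ℝ × X n => Real.exp (-(p.1 / 2 * nsq p.2)) :=
    Real.continuous_exp.comp e.neg
  have hZ := bd_lim hK.1 (f := fun ε x => Real.exp (-(ε / 2 * nsq x))) e'
  have hH := bd_lim hK.1 (f := fun ε x => ε / 2 * nsq x * Real.exp (-(ε / 2 * nsq x))) (e.mul e')
  have hM := fun a b : Fin n => bd_lim hK.1
    (f := fun ε x => x a * x b * Real.exp (-(ε / 2 * nsq x)))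
    ((((continuous_apply a).comp continuous_snd).mul
      ((continuous_apply b).comp continuous_snd)).mul e')
  simp only [zero_div, zero_mul, neg_zero, Real.exp_zero, mul_one, integral_zero] at hZ hH hM
  rw [← vol_eq] at hZ
  have v0 := bd_vol hK
  have h1 : EntIneq (vol K) (Matrix.of fun a b => ∫ x in K, x a * x b) 0 :=
    EntIneq.lim (fun m : ℕ => apx_gauss hK.1 hK.2.1 hK.2.2 hs (ε := 1 / ((m : ℝ) + 1))
      (by positivity)) hZ v0.ne' hM hH
  have h2 : cov K = (vol K)⁻¹ • Matrix.of fun a b => ∫ x in K, x a * x b := by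
    ext a b
    simp only [cov, bd_cen hK.1 hs, sub_zero, Matrix.of_apply, Matrix.smul_apply, smul_eq_mul]
  rw [EntIneq, mul_zero, zero_div, Real.exp_zero, mul_one, ← h2] at h1
  exact (div_le_iff₀ (by positivity)).2 h1

theorem body {K : Set (Fin n → ℝ)} (hK : IsBody K) {c : Fin n → ℝ} (hs : ∀ x ∈ K, c + c - x ∈ K) :
    Phi K ≤ rC ^ n := by
  have h1 : (1 : Matrix (Fin n) (Fin n) ℝ).det ≠ 0 := by simp
  have h2 : aff (1 : Matrix (Fin n) (Fin n) ℝ) (-c) = Homeomorph.addRight (-c) := funext fun x => by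
    rw [aff, one_mulVec]
    rfl
  rw [← Phi_aff h1 (-c) hK.1]
  refine body0 ⟨hK.1.image (continuous_aff _ _), aff_convex _ _ hK.2.1, ?_⟩ ?_
  · rw [h2, ← Homeomorph.image_interior]
    exact hK.2.2.image _
  · rintro _ ⟨x, hx, rfl⟩
    refine ⟨_, hs x hx, ?_⟩
    rw [aff, aff, one_mulVec, one_mulVec]
    abel

end Vale.Agent.P254.S
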