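import Vale.Agent.P227.BochKey
import Vale.Agent.P227.MatDiff

/-! # P254 S/Defs

Definitions (FROZEN, owner helper53).  Goal: the isotropic constant of a centrally symmetric convex body is at most 0.3592.
`τ` is the Stein kernel of the moment map.  Three-tensors `Y c a b` carry the derivative index `c` first (`N c a b = ∂_c τ_ab`).
`gap` is the quantity which is nonnegative at every point and whose expectation gives the entropy bound.
-/

set_option linter.unusedSectionVars false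
set_option linter.unusedVariables false

namespace Vale.Agent.P254.S

open Vale.Agent.P227
open scoped ContDiff
open MeasureTheory Set Filter Topology Matrix

variable {n : ℕ}

/-- An orthonormal eigenframe of a positive matrix. -/
structure Frame (τ : Mat n) where
  U : Mat n
  lam : Fin n → ℝ
  orth : U * Uᵀ = 1
  diag : Uᵀ * τ * U = diagonal lam
  pos : ∀ i, 0 < lam i

/-- A three-tensor in a rotated frame. -/
def rot (U : Mat n) (Y : T3 n ℝ) : T3 n ℝ :=
  fun i k l => ∑ c, ∑ a, ∑ b, U c i * U a k * U b l * Y c a b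

/-- At one point: `F = f(τ)`, and the derivative `dF` is given by the divided difference `f2`. -/
def MFp {τ : Mat n} (Φ : Frame τ) (N : T3 n ℝ) (F : Mat n) (dF : T3 n ℝ) (f : ℝ → ℝ)
    (f2 : ℝ → ℝ → ℝ) : Prop :=
  Φ.Uᵀ * F * Φ.U = diagonal (fun i => f (Φ.lam i)) ∧
    ∀ i k l, rot Φ.U dF i k l = f2 (Φ.lam k) (Φ.lam l) * rot Φ.U N i k l

/-- Matrix functions of a matrix field. -/
def MF (τ F : X n → Mat n) (f : ℝ → ℝ) (f2 : ℝ → ℝ → ℝ) : Prop :=
  ∀ (p : X n) (Φ : Frame (τ p)), MFp Φ (fun c a b => pd c (fun y => τ y a b) p) (F p)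
    (fun c a b => pd c (fun y => F y a b) p) f f2

/-- Bounded smooth uniformly positive symmetric matrix fields. -/
structure Fld (τ : X n → Mat n) : Prop where
  bs : ∀ i j, BS fun x => τ x i j
  symm : ∀ x, (τ x).IsSymm
  lb : ∃ c > 0, ∀ x, LB c (τ x)

section ring
variable {R : Type} [CommRing R] [Algebra ℝ R]

def t2 (P Q : Matrix (Fin n) (Fin n) R) : R := ∑ k, ∑ l, P k l * Q k l
def t3 (τ G : Matrix (Fin n) (Fin n) R) : R := ∑ a, ∑ m, ∑ l, τ a m * G m l * G a l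
def tG (τ : Matrix (Fin n) (Fin n) R) (Y Z : T3 n R) : R :=
  ∑ k, ∑ l, ∑ i, ∑ j, τ i j * Y i k l * Z j k l
def tS (τ : Matrix (Fin n) (Fin n) R) (Y : T3 n R) : R :=
  ∑ a, ∑ m, ∑ l, (∑ c, τ a c * Y c m l) * ∑ c, τ m c * Y c a l
def tB (τ : Matrix (Fin n) (Fin n) R) (N : T3 n R) : R :=
  ∑ k, ∑ b, ∑ a, ∑ c, τ k b * N a k c * N c a b
def tT (N u : T3 n R) : R :=
  ∑ k, ∑ l, ∑ a, ∑ b, (∑ c, N b a c * u c k l) * ∑ c, N a b c * u c k l

/-- The pointwise gap. -/
noncomputable def gap (τ : Matrix (Fin n) (Fin n) R) (N : T3 n R) (F : Matrix (Fin n) (Fin n) R)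
    (dF : T3 n R) (G : Matrix (Fin n) (Fin n) R) (dG : T3 n R) (ℓ : R) (u : T3 n R) : R :=
  (2 : ℝ) • t2 (τ - 1) F - t2 (τ - 1) (τ - 1)
    + ((2 : ℝ) • tG τ dF u + (27 / 25 : ℝ) • tG τ u u + (6 / 25 : ℝ) • tT N u)
    + (23 / 100 : ℝ) • (tB τ N + tG τ N N - t2 τ τ)
    - (39 / 50 : ℝ) • (ℓ + (1 / 2 : ℝ) • (t3 τ G + tS τ dG) - ((n : ℝ) * (179 / 200)) • (1 : R))
    - (129 / 50 : ℝ) • (τ - 1).trace

end ring

/-- The test function `F = fF(τ)`. -/
noncomputable def fF (a : ℝ) : ℝ := 123 / 200 * a + 39 / 100 * Real.log a + 19 / 10 * (a + 2)⁻¹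
noncomputable def qq (a b : ℝ) : ℝ := 123 / 200 - 19 / 10 * ((a + 2)⁻¹ * (b + 2)⁻¹)
noncomputable def fF2 (lg : ℝ → ℝ → ℝ) (a b : ℝ) : ℝ := qq a b + 39 / 100 * lg a b
/-- The bounds on the divided difference of the logarithm. -/
def LgB (lg : ℝ → ℝ → ℝ) : Prop := ∀ a b, 0 < a → 0 < b → 0 ≤ lg a b ∧ a * b * lg a b ^ 2 ≤ 1
/-- `G = gG(τ) = (16/25 + 8/25 τ)⁻¹`. -/
noncomputable def gG (a : ℝ) : ℝ := 25 / 8 * (a + 2)⁻¹
noncomputable def gG2 (a b : ℝ) : ℝ := -(25 / 8) * ((a + 2)⁻¹ * (b + 2)⁻¹)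
noncomputable def ell (a : ℝ) : ℝ := Real.log (16 / 25 + 8 / 25 * a) - Real.log a
noncomputable def dl (a : ℝ) : ℝ := 47 / 100 * (1 - 4 * (a + 2)⁻¹ ^ 2)
noncomputable def kap (a : ℝ) : ℝ := a * qq a a
noncomputable def xx (a : ℝ) : ℝ := a * (a + 2)⁻¹

section setup
variable {A : Type} [CommRing A] [Algebra ℝ A] (S : Setup n A)

/-- Entrywise derivative of a matrix. -/
def dM (F : Matrix (Fin n) (Fin n) A) : T3 n A := fun c a b => S.d c (F a b)

/-- The potential is convex. -/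
def Cvx : Prop := ∀ p, (Matrix.of fun a b => S.ev p (S.d a (S.g b))).PosSemidef

/-- Matrix functions in the abstract setting. -/
def SMF (F : Matrix (Fin n) (Fin n) A) (f : ℝ → ℝ) (f2 : ℝ → ℝ → ℝ) : Prop :=
  ∀ (p : X n) (Φ : Frame (S.τ.map (S.ev p))), MFp Φ (fun c a b => S.ev p (S.d c (S.τ a b)))
    (F.map (S.ev p)) (fun c a b => S.ev p (S.d c (F a b))) f f2

/-- The score. -/
def sc (G : Matrix (Fin n) (Fin n) A) (l : Fin n) : A := ∑ k, S.ds k (∑ m, S.τ k m * G m l)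

end setup

/-- The gradient map. -/
noncomputable def grad (u : X n → ℝ) (x : X n) : X n := fun i => pd i u x

/-- The score of the image of `e^{-V}` under `∇ u`, pulled back. -/
noncomputable def scr (V u : X n → ℝ) (l : Fin n) (x : X n) : ℝ :=
  ∑ k, (-pd k (fun y => tau u y k l) x + pd k V x * tau u x k l)

/-- The interpolated potential. -/
noncomputable def u1 (u : X n → ℝ) : X n → ℝ := fun x => 16 / 25 * u x + 8 / 25 * q0 n x

/-- The square of the bound. -/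
noncomputable def rC : ℝ := Real.exp (-(21 / 100)) / (2 * Real.pi)

/-- The entropy inequality in terms of mass `Z`, second moments `M` and `H = ∫ V e^{-V}`. -/
def EntIneq (Z : ℝ) (M : Mat n) (H : ℝ) : Prop :=
  (Z⁻¹ • M).det ≤ rC ^ n * Z ^ 2 * Real.exp (2 * H / Z)

end Vale.Agent.P254.S
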