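import Vale.Agent.P254.S.Defs

/-! # P254 S/One

OWNER helper53 (generated certificate).
-/

set_option linter.unusedSectionVars false
set_option linter.unusedVariables false

namespace Vale.Agent.P254.S

open Vale.Agent.P227
open scoped ContDiff
open MeasureTheory Set Filter Topology Matrix

variable {n : ℕ}

noncomputable def onP (z : ℝ) : ℝ := 3 * (z ^ 2 - 1) / (z ^ 2 + 4 * z + 1)

noncomputable def onR (a : ℝ) : ℝ :=
  2 * (a - 1) * (123 / 200 * a + 19 / 10 * (a + 2)⁻¹) - (a - 1) ^ 2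
    - (39 / 100 - 47 / 100 * (1 - 4 * (a + 2)⁻¹ ^ 2)) ^ 2 / (6 / 25) - 23 / 100 * a ^ 2
    - 39 / 50 * (1 / 2 * (a * (25 / 8 * (a + 2)⁻¹) ^ 2) - 179 / 200) - 129 / 50 * (a - 1)

noncomputable def onE (a : ℝ) : ℝ :=
  onR a + 39 / 50 * (a * Real.log a - Real.log (16 / 25 + 8 / 25 * a))

theorem on_l2 : 693147 / 1000000 ≤ Real.log 2 ∧ Real.log 2 ≤ 693148 / 1000000 :=
  ⟨by linarith [Real.log_two_gt_d9], by linarith [Real.log_two_lt_d9]⟩

theorem on_pade {z : ℝ} (hz : 1 ≤ z) : onP z ≤ Real.log z := by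
  have hd : ∀ x : ℝ, 0 < x → HasDerivAt (fun x => Real.log x - onP x)
      ((x - 1) ^ 4 / (x * (x ^ 2 + 4 * x + 1) ^ 2)) x := by
    intro x hx
    have h1 : HasDerivAt (fun x : ℝ => 3 * (x ^ 2 - 1)) (3 * (2 * x)) x := by
      simpa using ((hasDerivAt_pow 2 x).sub_const 1).const_mul 3
    have h2 : HasDerivAt (fun x : ℝ => x ^ 2 + 4 * x + 1) (2 * x + 4) x := by
      simpa using (((hasDerivAt_pow 2 x).add ((hasDerivAt_id x).const_mul 4)).add_const 1)
    have h3 : x ^ 2 + 4 * x + 1 ≠ 0 := by positivity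
    refine ((Real.hasDerivAt_log hx.ne').sub (h1.div h2 h3)).congr_deriv ?_
    field_simp
    ring
  have hm : MonotoneOn (fun x => Real.log x - onP x) (Ici 1) := by
    refine monotoneOn_of_deriv_nonneg (convex_Ici 1)
      (fun x hx => (hd x (by linarith [mem_Ici.1 hx])).continuousAt.continuousWithinAt)
      (fun x hx => (hd x (by linarith [mem_Ici.1 (interior_subset hx)])).differentiableAt.differentiableWithinAt)
      fun x hx => ?_
    have hx' : 0 < x := by linarith [mem_Ici.1 (interior_subset hx)]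
    rw [(hd x hx').deriv]
    positivity
  have := hm (mem_Ici.2 le_rfl) (mem_Ici.2 hz) hz
  simp only [onP, Real.log_one] at this ⊢
  norm_num at this ⊢
  linarith

theorem on_up {z : ℝ} (h0 : 0 < z) (h1 : z ≤ 1) : Real.log z ≤ onP z := by
  have h := on_pade (z := z⁻¹) (one_le_inv_iff₀.2 ⟨h0, h1⟩)
  have e : onP z⁻¹ = -onP z := by
    unfold onP
    field_simp
    ring
  rw [Real.log_inv, e] at h
  linarith

theorem on_up2 {z : ℝ} (h0 : 0 < z) (h1 : z ≤ 2) :
    Real.log z ≤ 693148 / 1000000 + onP (z / 2) := by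
  have h := on_up (z := z / 2) (by positivity) (by linarith)
  rw [Real.log_div h0.ne' (by norm_num)] at h
  linarith [on_l2.2]

theorem on_up3 {z : ℝ} (h0 : 0 < z) : Real.log z ≤ 693148 / 1000000 + (z / 2 - 1) := by
  have h := Real.log_le_sub_one_of_pos (x := z / 2) (by positivity)
  rw [Real.log_div h0.ne' (by norm_num)] at h
  linarith [on_l2.2]

theorem on_lo {a : ℝ} (ha : 0 < a) (j : ℤ) {c : ℝ} (hc : c = 2 ^ j) (h : c ≤ a) :
    j * Real.log 2 + onP (a / c) ≤ Real.log a := by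
  have h0 : 0 < c := hc ▸ zpow_pos (by norm_num) j
  have h1 := on_pade (z := a / c) ((one_le_div h0).2 h)
  rw [Real.log_div ha.ne' h0.ne', hc, Real.log_zpow, ← hc] at h1
  linarith

theorem on_tan {a : ℝ} (ha : 0 < a) (j : ℤ) {c : ℝ} (hc : c = 2 ^ j) :
    j * Real.log 2 + (1 - c / a) ≤ Real.log a := by
  have h0 : 0 < c := hc ▸ zpow_pos (by norm_num) j
  have h1 := Real.log_le_sub_one_of_pos (x := c / a) (by positivity)
  rw [Real.log_div h0.ne' ha.ne', hc, Real.log_zpow, ← hc] at h1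
  linarith

theorem on_0 {a : ℝ} (ha : 0 < a) (h0 : 0 ≤ a) (h1 : a ≤ (1 / 16)) : 0 ≤ onE a := by
  have l1 := on_tan ha (-5) (c := (1 / 32)) (by norm_num)
  have l2 := on_up (z := 16 / 25 + 8 / 25 * a) (by positivity) (by linarith)
  have l3 : (-173287 / 50000) ≤ ((-5 : ℤ) : ℝ) * Real.log 2 := by push_cast; linarith [on_l2.1, on_l2.2]
  have l4 : a * ((-173287 / 50000) + (1 - (1 / 32) / a)) ≤ a * Real.log a := mul_le_mul_of_nonneg_left (by linarith) ha.le
  obtain ⟨u, hu, eu⟩ : ∃ u, 0 ≤ u ∧ u = a - 0 := ⟨_, sub_nonneg.2 h0, rfl⟩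
  obtain ⟨w, hw, ew⟩ : ∃ w, 0 ≤ w ∧ w = (1 / 16) - a := ⟨_, sub_nonneg.2 h1, rfl⟩
  have e : onR a + 39 / 50 * (a * ((-173287 / 50000) + (1 - (1 / 32) / a)) - onP (16 / 25 + 8 / 25 * a)) =
      ((452898865545216 / 390625) * u ^ 0 * w ^ 7
        + (368577384144961536 / 48828125) * u ^ 1 * w ^ 6
        + (1009686080044744704 / 48828125) * u ^ 2 * w ^ 5
        + (300021348473669888 / 9765625) * u ^ 3 * w ^ 4
        + (776183812107978688 / 29296875) * u ^ 4 * w ^ 3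
        + (382402421731293704 / 29296875) * u ^ 5 * w ^ 2
        + (482790114928619152 / 146484375) * u ^ 6 * w ^ 1
        + (44540001929802098 / 146484375) * u ^ 7 * w ^ 0) / ((a + 2) ^ 4 * ((16 / 25 + 8 / 25 * a) ^ 2 + 4 * (16 / 25 + 8 / 25 * a) + 1)) := by
    rw [eu, ew, eq_div_iff (by positivity)]
    unfold onR onP
    field_simp
    ring
  have h : 0 ≤ onR a + 39 / 50 * (a * ((-173287 / 50000) + (1 - (1 / 32) / a)) - onP (16 / 25 + 8 / 25 * a)) := by
    rw [e]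
    positivity
  unfold onE
  linarith

theorem on_1 {a : ℝ} (ha : 0 < a) (h0 : (1 / 16) ≤ a) (h1 : a ≤ (1 / 8)) : 0 ≤ onE a := by
  have l1 := on_lo ha (-4) (c := (1 / 16)) (by norm_num) (by linarith)
  have l2 := on_up (z := 16 / 25 + 8 / 25 * a) (by positivity) (by linarith)
  have l3 : (-173287 / 62500) ≤ ((-4 : ℤ) : ℝ) * Real.log 2 := by push_cast; linarith [on_l2.1, on_l2.2]
  have l4 : a * ((-173287 / 62500) + onP (a / (1 / 16))) ≤ a * Real.log a := mul_le_mul_of_nonneg_left (by linarith) ha.le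
  obtain ⟨u, hu, eu⟩ : ∃ u, 0 ≤ u ∧ u = a - (1 / 16) := ⟨_, sub_nonneg.2 h0, rfl⟩
  obtain ⟨w, hw, ew⟩ : ∃ w, 0 ≤ w ∧ w = (1 / 8) - a := ⟨_, sub_nonneg.2 h1, rfl⟩
  have e : onR a + 39 / 50 * (a * ((-173287 / 62500) + onP (a / (1 / 16))) - onP (16 / 25 + 8 / 25 * a)) =
      ((183926620133782728704 / 244140625) * u ^ 0 * w ^ 9
        + (1662642991131815964672 / 244140625) * u ^ 1 * w ^ 8
        + (19877737934135798069248 / 732421875) * u ^ 2 * w ^ 7
        + (15298683475404687716352 / 244140625) * u ^ 3 * w ^ 6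
        + (67733758025726601691136 / 732421875) * u ^ 4 * w ^ 5
        + (66316780528657440014336 / 732421875) * u ^ 5 * w ^ 4
        + (14368059243642758332416 / 244140625) * u ^ 6 * w ^ 3
        + (17943232966241736392704 / 732421875) * u ^ 7 * w ^ 2
        + (1447271591948604932096 / 244140625) * u ^ 8 * w ^ 1
        + (155091810832601317376 / 244140625) * u ^ 9 * w ^ 0) / ((a + 2) ^ 4 * ((a / (1 / 16)) ^ 2 + 4 * (a / (1 / 16)) + 1) * ((16 / 25 + 8 / 25 * a) ^ 2 + 4 * (16 / 25 + 8 / 25 * a) + 1)) := by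
    rw [eu, ew, eq_div_iff (by positivity)]
    unfold onR onP
    field_simp
    ring
  have h : 0 ≤ onR a + 39 / 50 * (a * ((-173287 / 62500) + onP (a / (1 / 16))) - onP (16 / 25 + 8 / 25 * a)) := by
    rw [e]
    positivity
  unfold onE
  linarith

theorem on_2 {a : ℝ} (ha : 0 < a) (h0 : (1 / 8) ≤ a) (h1 : a ≤ (1 / 4)) : 0 ≤ onE a := by
  have l1 := on_lo ha (-3) (c := (1 / 8)) (by norm_num) (by linarith)
  have l2 := on_up (z := 16 / 25 + 8 / 25 * a) (by positivity) (by linarith)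
  have l3 : (-519861 / 250000) ≤ ((-3 : ℤ) : ℝ) * Real.log 2 := by push_cast; linarith [on_l2.1, on_l2.2]
  have l4 : a * ((-519861 / 250000) + onP (a / (1 / 8))) ≤ a * Real.log a := mul_le_mul_of_nonneg_left (by linarith) ha.le
  obtain ⟨u, hu, eu⟩ : ∃ u, 0 ≤ u ∧ u = a - (1 / 8) := ⟨_, sub_nonneg.2 h0, rfl⟩
  obtain ⟨w, hw, ew⟩ : ∃ w, 0 ≤ w ∧ w = (1 / 4) - a := ⟨_, sub_nonneg.2 h1, rfl⟩
  have e : onR a + 39 / 50 * (a * ((-519861 / 250000) + onP (a / (1 / 8))) - onP (16 / 25 + 8 / 25 * a)) =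
      ((141180062706719232 / 244140625) * u ^ 0 * w ^ 9
        + (1158422206183600128 / 244140625) * u ^ 1 * w ^ 8
        + (4223073794358837248 / 244140625) * u ^ 2 * w ^ 7
        + (9074306647015535104 / 244140625) * u ^ 3 * w ^ 6
        + (38491273467375526784 / 732421875) * u ^ 4 * w ^ 5
        + (12539833062751004928 / 244140625) * u ^ 5 * w ^ 4
        + (25637232033777227776 / 732421875) * u ^ 6 * w ^ 3
        + (11757213773033046016 / 732421875) * u ^ 7 * w ^ 2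
        + (1089200361022765056 / 244140625) * u ^ 8 * w ^ 1
        + (413968629292814336 / 732421875) * u ^ 9 * w ^ 0) / ((a + 2) ^ 4 * ((a / (1 / 8)) ^ 2 + 4 * (a / (1 / 8)) + 1) * ((16 / 25 + 8 / 25 * a) ^ 2 + 4 * (16 / 25 + 8 / 25 * a) + 1)) := by
    rw [eu, ew, eq_div_iff (by positivity)]
    unfold onR onP
    field_simp
    ring
  have h : 0 ≤ onR a + 39 / 50 * (a * ((-519861 / 250000) + onP (a / (1 / 8))) - onP (16 / 25 + 8 / 25 * a)) := by
    rw [e]
    positivity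
  unfold onE
  linarith

theorem on_3 {a : ℝ} (ha : 0 < a) (h0 : (1 / 4) ≤ a) (h1 : a ≤ (1 / 2)) : 0 ≤ onE a := by
  have l1 := on_lo ha (-2) (c := (1 / 4)) (by norm_num) (by linarith)
  have l2 := on_up (z := 16 / 25 + 8 / 25 * a) (by positivity) (by linarith)
  have l3 : (-173287 / 125000) ≤ ((-2 : ℤ) : ℝ) * Real.log 2 := by push_cast; linarith [on_l2.1, on_l2.2]
  have l4 : a * ((-173287 / 125000) + onP (a / (1 / 4))) ≤ a * Real.log a := mul_le_mul_of_nonneg_left (by linarith) ha.le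
  obtain ⟨u, hu, eu⟩ : ∃ u, 0 ≤ u ∧ u = a - (1 / 4) := ⟨_, sub_nonneg.2 h0, rfl⟩
  obtain ⟨w, hw, ew⟩ : ∃ w, 0 ≤ w ∧ w = (1 / 2) - a := ⟨_, sub_nonneg.2 h1, rfl⟩
  have e : onR a + 39 / 50 * (a * ((-173287 / 125000) + onP (a / (1 / 4))) - onP (16 / 25 + 8 / 25 * a)) =
      ((131482595998208 / 244140625) * u ^ 0 * w ^ 9
        + (299587020833472 / 48828125) * u ^ 1 * w ^ 8
        + (24257086200236896 / 732421875) * u ^ 2 * w ^ 7
        + (25925231428158848 / 244140625) * u ^ 3 * w ^ 6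
        + (31787656916025232 / 146484375) * u ^ 4 * w ^ 5
        + (1696477626423808 / 5859375) * u ^ 5 * w ^ 4
        + (98063479337104 / 390625) * u ^ 6 * w ^ 3
        + (6385076003104 / 46875) * u ^ 7 * w ^ 2
        + (3277744213184 / 78125) * u ^ 8 * w ^ 1
        + (87289135232 / 15625) * u ^ 9 * w ^ 0) / ((a + 2) ^ 4 * ((a / (1 / 4)) ^ 2 + 4 * (a / (1 / 4)) + 1) * ((16 / 25 + 8 / 25 * a) ^ 2 + 4 * (16 / 25 + 8 / 25 * a) + 1)) := by
    rw [eu, ew, eq_div_iff (by positivity)]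
    unfold onR onP
    field_simp
    ring
  have h : 0 ≤ onR a + 39 / 50 * (a * ((-173287 / 125000) + onP (a / (1 / 4))) - onP (16 / 25 + 8 / 25 * a)) := by
    rw [e]
    positivity
  unfold onE
  linarith

theorem on_4 {a : ℝ} (ha : 0 < a) (h0 : (1 / 2) ≤ a) (h1 : a ≤ 1) : 0 ≤ onE a := by
  have l1 := on_lo ha (-1) (c := (1 / 2)) (by norm_num) (by linarith)
  have l2 := on_up (z := 16 / 25 + 8 / 25 * a) (by positivity) (by linarith)
  have l3 : (-173287 / 250000) ≤ ((-1 : ℤ) : ℝ) * Real.log 2 := by push_cast; linarith [on_l2.1, on_l2.2]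
  have l4 : a * ((-173287 / 250000) + onP (a / (1 / 2))) ≤ a * Real.log a := mul_le_mul_of_nonneg_left (by linarith) ha.le
  obtain ⟨u, hu, eu⟩ : ∃ u, 0 ≤ u ∧ u = a - (1 / 2) := ⟨_, sub_nonneg.2 h0, rfl⟩
  obtain ⟨w, hw, ew⟩ : ∃ w, 0 ≤ w ∧ w = 1 - a := ⟨_, sub_nonneg.2 h1, rfl⟩
  have e : onR a + 39 / 50 * (a * ((-173287 / 250000) + onP (a / (1 / 2))) - onP (16 / 25 + 8 / 25 * a)) =
      ((163320357 / 31250) * u ^ 0 * w ^ 9
        + (9810747417 / 156250) * u ^ 1 * w ^ 8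
        + (101632420027 / 312500) * u ^ 2 * w ^ 7
        + (743620338433 / 781250) * u ^ 3 * w ^ 6
        + (20332418329493 / 11718750) * u ^ 4 * w ^ 5
        + (199501519224617 / 97656250) * u ^ 5 * w ^ 4
        + (4547242157092267 / 2929687500) * u ^ 6 * w ^ 3
        + (8572991407297 / 11718750) * u ^ 7 * w ^ 2
        + (47088843494719 / 244140625) * u ^ 8 * w ^ 1
        + (15676714520558 / 732421875) * u ^ 9 * w ^ 0) / ((a + 2) ^ 4 * ((a / (1 / 2)) ^ 2 + 4 * (a / (1 / 2)) + 1) * ((16 / 25 + 8 / 25 * a) ^ 2 + 4 * (16 / 25 + 8 / 25 * a) + 1)) := by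
    rw [eu, ew, eq_div_iff (by positivity)]
    unfold onR onP
    field_simp
    ring
  have h : 0 ≤ onR a + 39 / 50 * (a * ((-173287 / 250000) + onP (a / (1 / 2))) - onP (16 / 25 + 8 / 25 * a)) := by
    rw [e]
    positivity
  unfold onE
  linarith

theorem on_5 {a : ℝ} (ha : 0 < a) (h0 : 1 ≤ a) (h1 : a ≤ (9 / 8)) : 0 ≤ onE a := by
  have l1 := on_lo ha (0) (c := 1) (by norm_num) (by linarith)
  have l2 := on_up (z := 16 / 25 + 8 / 25 * a) (by positivity) (by linarith)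
  have l3 : 0 ≤ ((0 : ℤ) : ℝ) * Real.log 2 := by push_cast; linarith [on_l2.1, on_l2.2]
  have l4 : a * (0 + onP (a / 1)) ≤ a * Real.log a := mul_le_mul_of_nonneg_left (by linarith) ha.le
  obtain ⟨u, hu, eu⟩ : ∃ u, 0 ≤ u ∧ u = a - 1 := ⟨_, sub_nonneg.2 h0, rfl⟩
  obtain ⟨w, hw, ew⟩ : ∃ w, 0 ≤ w ∧ w = (9 / 8) - a := ⟨_, sub_nonneg.2 h1, rfl⟩
  have e : onR a + 39 / 50 * (a * (0 + onP (a / 1)) - onP (16 / 25 + 8 / 25 * a)) =
      ((1107806915657728 / 390625) * u ^ 0 * w ^ 9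
        + (402679438245888 / 15625) * u ^ 1 * w ^ 8
        + (121822784020865024 / 1171875) * u ^ 2 * w ^ 7
        + (286297824528913408 / 1171875) * u ^ 3 * w ^ 6
        + (138245389141376 / 375) * u ^ 4 * w ^ 5
        + (3472791739478128 / 9375) * u ^ 5 * w ^ 4
        + (3872971274048032 / 15625) * u ^ 6 * w ^ 3
        + (1664274224609376 / 15625) * u ^ 7 * w ^ 2
        + (16671251574144 / 625) * u ^ 8 * w ^ 1
        + (74158323456 / 25) * u ^ 9 * w ^ 0) / ((a + 2) ^ 4 * ((a / 1) ^ 2 + 4 * (a / 1) + 1) * ((16 / 25 + 8 / 25 * a) ^ 2 + 4 * (16 / 25 + 8 / 25 * a) + 1)) := by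
    rw [eu, ew, eq_div_iff (by positivity)]
    unfold onR onP
    field_simp
    ring
  have h : 0 ≤ onR a + 39 / 50 * (a * (0 + onP (a / 1)) - onP (16 / 25 + 8 / 25 * a)) := by
    rw [e]
    positivity
  unfold onE
  linarith

theorem on_6 {a : ℝ} (ha : 0 < a) (h0 : (9 / 8) ≤ a) (h1 : a ≤ 2) : 0 ≤ onE a := by
  have l1 := on_lo ha (0) (c := 1) (by norm_num) (by linarith)
  have l2 := on_up2 (z := 16 / 25 + 8 / 25 * a) (by positivity) (by linarith)
  have l3 : 0 ≤ ((0 : ℤ) : ℝ) * Real.log 2 := by push_cast; linarith [on_l2.1, on_l2.2]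
  have l4 : a * (0 + onP (a / 1)) ≤ a * Real.log a := mul_le_mul_of_nonneg_left (by linarith) ha.le
  obtain ⟨u, hu, eu⟩ : ∃ u, 0 ≤ u ∧ u = a - (9 / 8) := ⟨_, sub_nonneg.2 h0, rfl⟩
  obtain ⟨w, hw, ew⟩ : ∃ w, 0 ≤ w ∧ w = 2 - a := ⟨_, sub_nonneg.2 h1, rfl⟩
  have e : onR a + 39 / 50 * (a * (0 + onP (a / 1)) - ((173287 / 250000) + onP ((16 / 25 + 8 / 25 * a) / 2))) =
      ((35557252172 / 1008840175) * u ^ 0 * w ^ 9
        + (1594029829836 / 5044200875) * u ^ 1 * w ^ 8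
        + (2274392614487468 / 1891575328125) * u ^ 2 * w ^ 7
        + (715018479823216 / 270225046875) * u ^ 3 * w ^ 6
        + (28021809262035664 / 6755626171875) * u ^ 4 * w ^ 5
        + (950067404610660608 / 168890654296875) * u ^ 5 * w ^ 4
        + (9356865294788922368 / 1407422119140625) * u ^ 6 * w ^ 3
        + (55767462899712278528 / 9851954833984375) * u ^ 7 * w ^ 2
        + (27674778091080646656 / 9851954833984375) * u ^ 8 * w ^ 1
        + (5861357900638715904 / 9851954833984375) * u ^ 9 * w ^ 0) / ((a + 2) ^ 4 * ((a / 1) ^ 2 + 4 * (a / 1) + 1) * (((16 / 25 + 8 / 25 * a) / 2) ^ 2 + 4 * ((16 / 25 + 8 / 25 * a) / 2) + 1)) := by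
    rw [eu, ew, eq_div_iff (by positivity)]
    unfold onR onP
    field_simp
    ring
  have h : 0 ≤ onR a + 39 / 50 * (a * (0 + onP (a / 1)) - ((173287 / 250000) + onP ((16 / 25 + 8 / 25 * a) / 2))) := by
    rw [e]
    positivity
  unfold onE
  linarith

theorem on_7 {a : ℝ} (ha : 0 < a) (h0 : 2 ≤ a) (h1 : a ≤ (17 / 4)) : 0 ≤ onE a := by
  have l1 := on_lo ha (1) (c := 2) (by norm_num) (by linarith)
  have l2 := on_up2 (z := 16 / 25 + 8 / 25 * a) (by positivity) (by linarith)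
  have l3 : (693147 / 1000000) ≤ ((1 : ℤ) : ℝ) * Real.log 2 := by push_cast; linarith [on_l2.1, on_l2.2]
  have l4 : a * ((693147 / 1000000) + onP (a / 2)) ≤ a * Real.log a := mul_le_mul_of_nonneg_left (by linarith) ha.le
  obtain ⟨u, hu, eu⟩ : ∃ u, 0 ≤ u ∧ u = a - 2 := ⟨_, sub_nonneg.2 h0, rfl⟩
  obtain ⟨w, hw, ew⟩ : ∃ w, 0 ≤ w ∧ w = (17 / 4) - a := ⟨_, sub_nonneg.2 h1, rfl⟩
  have e : onR a + 39 / 50 * (a * ((693147 / 1000000) + onP (a / 2)) - ((173287 / 250000) + onP ((16 / 25 + 8 / 25 * a) / 2))) =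
      ((643845415436288 / 10509453369140625) * u ^ 0 * w ^ 9
        + (1425991917019136 / 1167717041015625) * u ^ 1 * w ^ 8
        + (12441118746726656 / 1167717041015625) * u ^ 2 * w ^ 7
        + (185276970978323264 / 3503151123046875) * u ^ 3 * w ^ 6
        + (1534132852487246 / 9341736328125) * u ^ 4 * w ^ 5
        + (2473335742398337 / 7473389062500) * u ^ 5 * w ^ 4
        + (388822224370199 / 896806687500) * u ^ 6 * w ^ 3
        + (853044128637949 / 2391484500000) * u ^ 7 * w ^ 2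
        + (8012533459367 / 47829690000) * u ^ 8 * w ^ 1
        + (590053298783 / 17218688400) * u ^ 9 * w ^ 0) / ((a + 2) ^ 4 * ((a / 2) ^ 2 + 4 * (a / 2) + 1) * (((16 / 25 + 8 / 25 * a) / 2) ^ 2 + 4 * ((16 / 25 + 8 / 25 * a) / 2) + 1)) := by
    rw [eu, ew, eq_div_iff (by positivity)]
    unfold onR onP
    field_simp
    ring
  have h : 0 ≤ onR a + 39 / 50 * (a * ((693147 / 1000000) + onP (a / 2)) - ((173287 / 250000) + onP ((16 / 25 + 8 / 25 * a) / 2))) := by
    rw [e]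
    positivity
  unfold onE
  linarith

theorem on_8 {a : ℝ} (ha : 0 < a) (h0 : (17 / 4) ≤ a) : 0 ≤ onE a := by
  have l1 := on_lo ha (2) (c := 4) (by norm_num) (by linarith)
  have l2 := on_up3 (z := 16 / 25 + 8 / 25 * a) (by positivity)
  have l3 : (693147 / 500000) ≤ ((2 : ℤ) : ℝ) * Real.log 2 := by push_cast; linarith [on_l2.1, on_l2.2]
  have l4 : a * ((693147 / 500000) + onP (a / 4)) ≤ a * Real.log a := mul_le_mul_of_nonneg_left (by linarith) ha.le
  obtain ⟨u, hu, eu⟩ : ∃ u, 0 ≤ u ∧ u = a - (17 / 4) := ⟨_, sub_nonneg.2 h0, rfl⟩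
  have e : onR a + 39 / 50 * (a * ((693147 / 500000) + onP (a / 4)) - ((173287 / 250000) + ((16 / 25 + 8 / 25 * a) / 2 - 1))) =
      ((1628395652993 / 419430400) * u ^ 0
        + (661031039527 / 104857600) * u ^ 1
        + (8266189175923 / 1966080000) * u ^ 2
        + (6248416763719 / 4096000000) * u ^ 3
        + (25256514622633 / 76800000000) * u ^ 4
        + (54243083841 / 1280000000) * u ^ 5
        + (14550316153 / 4800000000) * u ^ 6
        + (37162733 / 400000000) * u ^ 7) / ((a + 2) ^ 4 * ((a / 4) ^ 2 + 4 * (a / 4) + 1)) := by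
    rw [eu, eq_div_iff (by positivity)]
    unfold onR onP
    field_simp
    ring
  have h : 0 ≤ onR a + 39 / 50 * (a * ((693147 / 500000) + onP (a / 4)) - ((173287 / 250000) + ((16 / 25 + 8 / 25 * a) / 2 - 1))) := by
    rw [e]
    positivity
  unfold onE
  linarith

theorem on_all {a : ℝ} (ha : 0 < a) : 0 ≤ onE a := by
  rcases le_total a (1 / 16) with g0 | g0
  · exact on_0 ha ha.le g0
  rcases le_total a (1 / 8) with g1 | g1
  · exact on_1 ha g0 g1
  rcases le_total a (1 / 4) with g2 | g2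
  · exact on_2 ha g1 g2
  rcases le_total a (1 / 2) with g3 | g3
  · exact on_3 ha g2 g3
  rcases le_total a 1 with g4 | g4
  · exact on_4 ha g3 g4
  rcases le_total a (9 / 8) with g5 | g5
  · exact on_5 ha g4 g5
  rcases le_total a 2 with g6 | g6
  · exact on_6 ha g5 g6
  rcases le_total a (17 / 4) with g7 | g7
  · exact on_7 ha g6 g7
  exact on_8 ha g7

theorem one {a : ℝ} (ha : 0 < a) :
    39 / 50 * (ell a + 1 / 2 * (a * gG a ^ 2) - 179 / 200) + 129 / 50 * (a - 1)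
      ≤ 2 * (a - 1) * fF a - (a - 1) ^ 2 - (39 / 100 - dl a) ^ 2 / (6 / 25) - 23 / 100 * a ^ 2 := by
  have h := on_all ha
  unfold onE onR at h
  unfold ell gG fF dl
  linarith

end Vale.Agent.P254.S
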