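import Vale.Agent.P254.S.Pair

/-! # P254 S/Tri

TASK, helper names start with tri_.
W is a nonnegative totally symmetric weight.  With a = lam k, b = lam l, c = lam i, p = √(ab) qq a b: p² = a b qq², 2 p ≤ (a+b) qq ≤ kap a + kap b (qq_le, qq_nonneg), so
(p + dl c)² ≤ a b qq² + (kap a + kap b) dl c + dl c²; xx c * xx a * g(b) ≤ (xx c² + xx a²)/2 * g(b) with g(b) = xx b (1 - xx b) ≥ 0.
Every term is now a function of two of the three indices; by the symmetry of W (Finset.sum_comm) ∑ W i k l * φ (lam i) (lam k) = ∑ W i k l * φ (lam k) (lam l) = ∑ W i k l * φ (lam l) (lam k) etc.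
(prove this once for all φ and all pairs).  Symmetrise and apply pair; (a² + b²)/2 + a b = (a+b)²/2.
-/

set_option linter.unusedSectionVars false
set_option linter.unusedVariables false

namespace Vale.Agent.P254.S

open Vale.Agent.P227
open scoped ContDiff
open MeasureTheory Set Filter Topology Matrix

variable {n : ℕ}

/-- The weighted sum. -/
def tri_T (W φ : T3 n ℝ) : ℝ := ∑ i, ∑ k, ∑ l, W i k l * φ i k l

theorem tri_add (W φ ψ : T3 n ℝ) :
    tri_T W (fun i k l => φ i k l + ψ i k l) = tri_T W φ + tri_T W ψ := by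
  simp only [tri_T, mul_add, Finset.sum_add_distrib]

theorem tri_mul (W φ : T3 n ℝ) (c : ℝ) : tri_T W (fun i k l => c * φ i k l) = c * tri_T W φ := by
  simp only [tri_T, Finset.mul_sum, mul_left_comm]

theorem tri_mono {W φ ψ : T3 n ℝ} (h0 : ∀ i k l, 0 ≤ W i k l) (h : ∀ i k l, φ i k l ≤ ψ i k l) :
    tri_T W φ ≤ tri_T W ψ :=
  Finset.sum_le_sum fun i _ => Finset.sum_le_sum fun k _ => Finset.sum_le_sum fun l _ =>
    mul_le_mul_of_nonneg_left (h i k l) (h0 i k l)

theorem tri_g {b : ℝ} (hb : 0 < b) : 0 ≤ xx b * (1 - xx b) := by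
  have h : 0 < b + 2 := by linarith
  refine mul_nonneg (mul_nonneg hb.le (inv_nonneg.2 h.le)) (sub_nonneg.2 ?_)
  rw [xx, ← div_eq_mul_inv, div_le_one h]
  linarith

theorem tri_sq {a b c : ℝ} (ha : 0 < a) (hb : 0 < b) (hc : 0 < c) :
    (Real.sqrt (a * b) * qq a b + dl c) ^ 2 ≤
      a * b * qq a b ^ 2 + kap a * dl c + kap b * dl c + dl c ^ 2 := by
  have h1 : Real.sqrt (a * b) ^ 2 = a * b := Real.sq_sqrt (mul_pos ha hb).le
  have h2 : Real.sqrt (a * b) ≤ (a + b) / 2 :=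
    Real.sqrt_le_iff.2 ⟨by linarith, by nlinarith [sq_nonneg (a - b)]⟩
  have h3 := mul_le_mul_of_nonneg_right h2 (qq_nonneg ha hb)
  have h4 : 2 * (Real.sqrt (a * b) * qq a b) ≤ kap a + kap b := by linarith [qq_le ha hb]
  have h5 := mul_le_mul_of_nonneg_right h4 (dl_nonneg hc)
  rw [add_sq, mul_pow, h1]
  linarith

theorem tri {lam : Fin n → ℝ} (hl : ∀ i, 0 < lam i) {W : T3 n ℝ} (h0 : ∀ i k l, 0 ≤ W i k l)
    (h1 : ∀ i k l, W i k l = W i l k) (h2 : ∀ i k l, W i k l = W k i l) :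
    (∑ i, ∑ k, ∑ l, W i k l *
        (Real.sqrt (lam k * lam l) * qq (lam k) (lam l) + dl (lam i)) ^ 2) / (27 / 25)
      + 975 / 512 * ∑ i, ∑ k, ∑ l, W i k l *
        (xx (lam i) * xx (lam k) * (xx (lam l) * (1 - xx (lam l))))
      ≤ 23 / 100 * ∑ i, ∑ k, ∑ l, W i k l * (lam k ^ 2 + lam k * lam l) := by
  have s1 : ∀ φ : T3 n ℝ, tri_T W φ = tri_T W fun i k l => φ i l k := fun φ =>
    Finset.sum_congr rfl fun i _ => Finset.sum_comm.trans
      (Finset.sum_congr rfl fun k _ => Finset.sum_congr rfl fun l _ => by rw [h1 i l k])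
  have s2 : ∀ φ : T3 n ℝ, tri_T W φ = tri_T W fun i k l => φ k i l := fun φ =>
    Finset.sum_comm.trans (Finset.sum_congr rfl fun i _ => Finset.sum_congr rfl fun k _ =>
      Finset.sum_congr rfl fun l _ => by rw [h2 k i l])
  have s3 : ∀ φ : T3 n ℝ, tri_T W φ = tri_T W fun i k l => φ l k i := fun φ =>
    (s1 φ).trans ((s2 _).trans (s1 _))
  have u1 := s3 fun i k _ => kap (lam k) * dl (lam i)
  have u2 := s2 fun i _ l => kap (lam l) * dl (lam i)
  have u3 := s2 fun i _ _ => dl (lam i) ^ 2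
  have u4 := s3 fun i _ _ => dl (lam i) ^ 2
  have u5 := s2 fun i _ l => xx (lam i) ^ 2 * (xx (lam l) * (1 - xx (lam l)))
  have u6 := s1 fun _ k l => xx (lam k) ^ 2 * (xx (lam l) * (1 - xx (lam l)))
  have u7 := s1 fun _ k _ => lam k ^ 2
  have hA := tri_mono h0
    (φ := fun i k l => (Real.sqrt (lam k * lam l) * qq (lam k) (lam l) + dl (lam i)) ^ 2)
    (ψ := fun i k l => lam k * lam l * qq (lam k) (lam l) ^ 2 + kap (lam k) * dl (lam i) +
      kap (lam l) * dl (lam i) + dl (lam i) ^ 2) fun i k l => tri_sq (hl k) (hl l) (hl i)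
  have hB := tri_mono h0
    (φ := fun i k l => xx (lam i) * xx (lam k) * (xx (lam l) * (1 - xx (lam l))))
    (ψ := fun i k l => 1 / 2 * (xx (lam i) ^ 2 * (xx (lam l) * (1 - xx (lam l)))) +
      1 / 2 * (xx (lam k) ^ 2 * (xx (lam l) * (1 - xx (lam l))))) fun i k l => by
      have b1 := mul_nonneg (sq_nonneg (xx (lam i) - xx (lam k))) (tri_g (hl l))
      linarith
  have hC := tri_mono h0
    (φ := fun _ k l => 25 / 27 * (lam k * lam l * qq (lam k) (lam l) ^ 2) +
      25 / 27 * (kap (lam k) * dl (lam l)) + 25 / 27 * (kap (lam l) * dl (lam k)) +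
      25 / 54 * dl (lam k) ^ 2 + 25 / 54 * dl (lam l) ^ 2 +
      975 / 1024 * (xx (lam k) ^ 2 * (xx (lam l) * (1 - xx (lam l)))) +
      975 / 1024 * (xx (lam l) ^ 2 * (xx (lam k) * (1 - xx (lam k)))))
    (ψ := fun _ k l => 23 / 200 * lam k ^ 2 + 23 / 100 * (lam k * lam l) + 23 / 200 * lam l ^ 2)
    fun _ k l => by
      have b1 := pair (hl k) (hl l)
      linarith
  have hD := tri_add W (fun _ k _ => lam k ^ 2) fun _ k l => lam k * lam l
  simp only [tri_add, tri_mul] at hA hB hC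
  unfold tri_T at u1 u2 u3 u4 u5 u6 u7 hA hB hC hD
  linarith

end Vale.Agent.P254.S
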