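import Vale.Agent.P254.S.VL
import Vale.Agent.P254.S.Tri
import Vale.Agent.P254.S.One

/-! # P254 S/Diag

TASK, helper names start with dg_.
Let r i = √(lam i), T i k l = lam i * N i k l / (r i * r k * r l) (totally symmetric by h1, h2), so N i k l = T i k l * r k * r l / r i; v i k l = r i * u i k l; W = T².  With D = diagonal lam:
tG D dF u = ∑ f2(k,l) r k r l T i k l v i k l, tG D u u = ∑ v², tT N u = ∑ k l a b (∑ c T c a b v c k l)², tB D N = ∑ W i k l * lam k², tG D N N = ∑ W i k l * lam k * lam l,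
tS D dG = ∑ gG2(k,l) gG2(i,l) lam i lam k lam l W i k l and gG2(k,l) gG2(i,l) lam i lam k lam l = 625/128 xx i xx k xx l (1 - xx l); 39/50 * 1/2 * 625/128 = 975/512.
Apply vl with κ = Fin n × Fin n, t (k,l) i = T i k l, w (k,l) = - r k r l fF2, wb = 39/100 + √(ab) qq (from LgB, qq_nonneg), σ i = 39/100 - dl (lam i), α = 27/25, β = 6/25; then tri and the sum of one.
-/

set_option linter.unusedSectionVars false
set_option linter.unusedVariables false

namespace Vale.Agent.P254.S

open Vale.Agent.P227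
open scoped ContDiff
open MeasureTheory Set Filter Topology Matrix

variable {n : ℕ}

theorem dg_t2 (a b : Fin n → ℝ) : t2 (diagonal a) (diagonal b) = ∑ i, a i * b i := by
  simp [t2, diagonal_apply]

theorem dg_t3 (a b : Fin n → ℝ) : t3 (diagonal a) (diagonal b) = ∑ i, a i * b i ^ 2 := by
  simp [t3, diagonal_apply, sq, mul_assoc]

theorem dg_tG (a : Fin n → ℝ) (Y Z : T3 n ℝ) :
    tG (diagonal a) Y Z = ∑ k, ∑ l, ∑ i, a i * Y i k l * Z i k l := by
  simp [tG, diagonal_apply]

theorem dg_tS (a : Fin n → ℝ) (Y : T3 n ℝ) :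
    tS (diagonal a) Y = ∑ i, ∑ k, ∑ l, a i * Y i k l * (a k * Y k i l) := by
  simp [tS, diagonal_apply]

theorem dg_tB (a : Fin n → ℝ) (N : T3 n ℝ) :
    tB (diagonal a) N = ∑ i, ∑ k, ∑ l, a k * N i k l * N l i k := by
  rw [Finset.sum_comm]
  refine Finset.sum_congr rfl fun k _ => ?_
  rw [Finset.sum_eq_single k (fun b _ hb => by simp [diagonal_apply_ne _ hb.symm]) (by simp)]
  simp only [diagonal_apply_eq]

theorem dg_rot (f : Fin n → Fin n → Fin n → ℝ) :
    ∑ k, ∑ l, ∑ i, f i k l = ∑ i, ∑ k, ∑ l, f i k l :=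
  (Finset.sum_congr rfl fun _ _ => Finset.sum_comm).trans Finset.sum_comm

theorem dg_w {lg : ℝ → ℝ → ℝ} (hlg : LgB lg) {a b : ℝ} (ha : 0 < a) (hb : 0 < b) :
    |-(√a * √b * fF2 lg a b)| ≤ 39 / 100 + √(a * b) * qq a b := by
  obtain ⟨h1, h2⟩ := hlg a b ha hb
  have h3 := qq_nonneg ha hb
  have h4 : 0 ≤ √(a * b) := Real.sqrt_nonneg _
  have h5 : √(a * b) * lg a b ≤ 1 := by
    refine (sq_le_one_iff₀ (mul_nonneg h4 h1)).1 ?_
    rwa [mul_pow, Real.sq_sqrt (mul_pos ha hb).le]
  rw [abs_neg, ← Real.sqrt_mul ha.le, fF2, abs_of_nonneg (by positivity)]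
  linarith

theorem diag {lam : Fin n → ℝ} (hl : ∀ i, 0 < lam i) {N : T3 n ℝ} (h1 : ∀ i k l, N i k l = N i l k)
    (h2 : ∀ i k l, lam i * N i k l = lam k * N k i l) {lg : ℝ → ℝ → ℝ} (hlg : LgB lg) (u : T3 n ℝ) :
    0 ≤ gap (diagonal lam) N (diagonal fun i => fF (lam i))
      (fun i k l => fF2 lg (lam k) (lam l) * N i k l) (diagonal fun i => gG (lam i))
      (fun i k l => gG2 (lam k) (lam l) * N i k l) (∑ i, ell (lam i)) u := by
  obtain ⟨r, hr⟩ : ∃ r : Fin n → ℝ, r = fun i => √(lam i) := ⟨_, rfl⟩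
  have r0 : ∀ i, r i ≠ 0 := fun i => by
    rw [hr]
    exact (Real.sqrt_pos.2 (hl i)).ne'
  have r2 : ∀ i, lam i = r i ^ 2 := fun i => by
    rw [hr]
    exact (Real.sq_sqrt (hl i).le).symm
  obtain ⟨T, hT⟩ : ∃ T : T3 n ℝ, T = fun i k l => lam i * N i k l / (r i * r k * r l) := ⟨_, rfl⟩
  have s1 : ∀ i k l, T i k l = T i l k := fun i k l => by
    simp only [hT]
    rw [h1 i k l, mul_right_comm]
  have s2 : ∀ i k l, T i k l = T k i l := fun i k l => by
    simp only [hT]
    rw [h2 i k l, mul_comm (r i)]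
  have hN : ∀ i k l, N i k l = T i k l * r k * r l / r i := fun i k l => by
    have := r0 i
    have := r0 k
    have := r0 l
    simp only [hT]
    rw [r2 i]
    field_simp
  have e0 : diagonal lam - 1 = diagonal fun i => lam i - 1 := by
    rw [← diagonal_one, diagonal_sub]
  have e1 : tG (diagonal lam) (fun i k l => fF2 lg (lam k) (lam l) * N i k l) u =
      ∑ k, ∑ l, r k * r l * fF2 lg (lam k) (lam l) * ∑ i, T i k l * (r i * u i k l) := by
    rw [dg_tG]
    refine Finset.sum_congr rfl fun k _ => Finset.sum_congr rfl fun l _ => ?_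
    rw [Finset.mul_sum]
    refine Finset.sum_congr rfl fun i _ => ?_
    have := r0 i
    generalize fF2 lg (lam k) (lam l) = z
    rw [hN, r2 i]
    field_simp
  have e2 : tG (diagonal lam) u u = ∑ k, ∑ l, ∑ i, (r i * u i k l) ^ 2 := by
    rw [dg_tG]
    refine Finset.sum_congr rfl fun k _ => Finset.sum_congr rfl fun l _ =>
      Finset.sum_congr rfl fun i _ => ?_
    rw [r2 i]
    ring
  have e3 : tT N u = ∑ k, ∑ l, ∑ a, ∑ b, (∑ i, T i a b * (r i * u i k l)) ^ 2 := by
    refine Finset.sum_congr rfl fun k _ => Finset.sum_congr rfl fun l _ =>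
      Finset.sum_congr rfl fun a _ => Finset.sum_congr rfl fun b _ => ?_
    have key : ∀ a b, ∑ c, N a b c * u c k l = r b / r a * ∑ i, T i a b * (r i * u i k l) :=
      fun a b => by
        rw [Finset.mul_sum]
        refine Finset.sum_congr rfl fun c _ => ?_
        rw [hN, s1 a b c, s2 a c b]
        ring
    have := r0 a
    have := r0 b
    rw [key, key]
    simp only [s1 _ b a]
    field_simp
  have e4 : tB (diagonal lam) N + tG (diagonal lam) N N =
      ∑ i, ∑ k, ∑ l, T i k l ^ 2 * (lam k ^ 2 + lam k * lam l) := by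
    rw [dg_tB, dg_tG, dg_rot fun i k l => lam i * N i k l * N i k l]
    simp only [← Finset.sum_add_distrib]
    refine Finset.sum_congr rfl fun i _ => Finset.sum_congr rfl fun k _ =>
      Finset.sum_congr rfl fun l _ => ?_
    have := r0 i
    have := r0 l
    rw [hN i k l, hN l i k, s2 l i k, s1 i l k, r2 i, r2 k, r2 l]
    field_simp
  have e5 : tS (diagonal lam) (fun i k l => gG2 (lam k) (lam l) * N i k l) =
      625 / 128 * ∑ i, ∑ k, ∑ l,
        T i k l ^ 2 * (xx (lam i) * xx (lam k) * (xx (lam l) * (1 - xx (lam l)))) := by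
    rw [dg_tS]
    simp only [Finset.mul_sum]
    refine Finset.sum_congr rfl fun i _ => Finset.sum_congr rfl fun k _ =>
      Finset.sum_congr rfl fun l _ => ?_
    have k1 : lam i * N i k l * (lam k * N k i l) = lam i * lam k * lam l * T i k l ^ 2 := by
      have := r0 i
      rw [← h2 i k l, hN i k l, r2 i, r2 k, r2 l]
      field_simp
    have k2 : 1 - xx (lam l) = 2 * (lam l + 2)⁻¹ := by
      have := hl l
      unfold xx
      field_simp
      ring
    rw [k2]
    unfold xx gG2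
    linear_combination (625 / 64 * (lam i + 2)⁻¹ * (lam k + 2)⁻¹ * (lam l + 2)⁻¹ ^ 2) * k1
  have hv := vl (κ := Fin n × Fin n) (fun m i => T i m.1 m.2) (fun m i => r i * u i m.1 m.2)
    (fun m => -(r m.1 * r m.2 * fF2 lg (lam m.1) (lam m.2)))
    (fun m => 39 / 100 + √(lam m.1 * lam m.2) * qq (lam m.1) (lam m.2))
    (fun m => by rw [hr]; exact dg_w hlg (hl _) (hl _)) (fun i => 39 / 100 - dl (lam i))
    (α := 27 / 25) (β := 6 / 25) (by norm_num) (by norm_num)
  have ht := tri hl (W := fun i k l => T i k l ^ 2) (fun _ _ _ => sq_nonneg _)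
    (fun i k l => by rw [s1]) fun i k l => by rw [s2]
  have ho := Finset.sum_le_sum fun i (_ : i ∈ Finset.univ) => one (hl i)
  have e6 : ∑ k, ∑ l, ∑ i, (39 / 100 + √(lam k * lam l) * qq (lam k) (lam l) -
      (39 / 100 - dl (lam i))) ^ 2 * T i k l ^ 2 =
      ∑ i, ∑ k, ∑ l, T i k l ^ 2 * (√(lam k * lam l) * qq (lam k) (lam l) + dl (lam i)) ^ 2 := by
    refine (dg_rot fun i k l => (39 / 100 + √(lam k * lam l) * qq (lam k) (lam l) -
      (39 / 100 - dl (lam i))) ^ 2 * T i k l ^ 2).trans ?_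
    refine Finset.sum_congr rfl fun i _ => Finset.sum_congr rfl fun k _ =>
      Finset.sum_congr rfl fun l _ => ?_
    ring
  simp only [Fintype.sum_prod_type, Finset.sum_sub_distrib, ← Finset.mul_sum, mul_neg, neg_mul,
    mul_assoc (2 : ℝ), Finset.sum_neg_distrib] at hv
  rw [e6] at hv
  simp only [Finset.sum_sub_distrib, Finset.sum_add_distrib, ← Finset.mul_sum, mul_assoc (2 : ℝ),
    ← Finset.sum_div, Finset.sum_const, Finset.card_univ, Fintype.card_fin, nsmul_eq_mul] at ho
  unfold gap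
  rw [e0, e1, e2, e3, e4, e5, dg_t2, dg_t2, dg_t2, dg_t3, trace_diagonal]
  simp only [smul_eq_mul, ← sq, Finset.sum_sub_distrib, Finset.sum_const, Finset.card_univ,
    Fintype.card_fin, nsmul_eq_mul]
  linarith

end Vale.Agent.P254.S
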