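import Vale.Agent.P254.S.GDefs
import Vale.Agent.P245.PL

/-! # P254 S/DifA

TASK, helper names start with da_.
pl_set: P245.pl_pi with indicator functions, lintegral_indicator_one, ENNReal.toReal_rpow.
lc_cg: evenness by translation invariance (measure_preimage_add / sub); support inside the compact set K - K; continuity: |cg z - cg z'| ≤ vol of the differences of the translates, which tends to 0
(MeasureTheory.tendsto_measure_vadd_sdiff_isCompact_isClosed or eventually_nhds_zero_measure_vadd_sdiff_lt, the additive versions of the lemmas in Mathlib.MeasureTheory.Group.Measure); log-concavity by pl_set and convexity of K.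
cg_scale: pl_set for A' = (lam / (1-t)) • (K ∩ ..), B' = (1/2) • K, Measure.addHaar_smul, finrank = n; lam • a + (t/2) • k ∈ K and minus lam • z it is lam • (a - z) + (t/2) • k ∈ K.
-/

set_option linter.unusedSectionVars false
set_option linter.unusedVariables false

namespace Vale.Agent.P254.S

open Vale.Agent.P227
open scoped ContDiff
open MeasureTheory Set Filter Topology Matrix

variable {n : ℕ}

theorem pl_set {A B C : Set (X n)} (hA : IsCompact A) (hB : IsCompact B) (hC : IsCompact C) {t : ℝ}
    (h0 : 0 < t) (h1 : t < 1) (h : ∀ x ∈ A, ∀ y ∈ B, (1 - t) • x + t • y ∈ C) :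
    vol A ^ (1 - t) * vol B ^ t ≤ vol C := by
  have H := P245.pl_pi h0 h1 n (A.indicator 1) (B.indicator 1) (C.indicator 1)
    (measurable_one.indicator hA.measurableSet) (measurable_one.indicator hB.measurableSet)
    (measurable_one.indicator hC.measurableSet) (by
      intro x y
      by_cases hx : x ∈ A
      · by_cases hy : y ∈ B
        · rw [indicator_of_mem hx, indicator_of_mem hy, indicator_of_mem (h x hx y hy)]
          simp
        · rw [indicator_of_notMem hy, ENNReal.zero_rpow_of_pos h0, mul_zero]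
          exact zero_le
      · rw [indicator_of_notMem hx, ENNReal.zero_rpow_of_pos (by linarith), zero_mul]
        exact zero_le)
  rw [lintegral_indicator_one hA.measurableSet, lintegral_indicator_one hB.measurableSet,
    lintegral_indicator_one hC.measurableSet] at H
  unfold vol
  rw [ENNReal.toReal_rpow, ENNReal.toReal_rpow, ← ENNReal.toReal_mul]
  exact ENNReal.toReal_mono hC.measure_lt_top.ne H

theorem da_cpt {K : Set (X n)} (hK : IsCompact K) (z : X n) : IsCompact (K ∩ {x | x - z ∈ K}) :=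
  hK.inter_right (hK.isClosed.preimage (continuous_id.sub continuous_const))

open Pointwise in
theorem da_smul {r : ℝ} (hr : 0 ≤ r) (A : Set (X n)) : vol (r • A) = r ^ n * vol A := by
  unfold vol
  rw [Measure.addHaar_smul_of_nonneg volume hr, ENNReal.toReal_mul, Module.finrank_fin_fun,
    ENNReal.toReal_ofReal (pow_nonneg hr n)]

open Pointwise in
theorem da_step {K : Set (X n)} (hK : IsCompact K) (z z' : X n) :
    cg K z' ≤ cg K z + (volume (((z' - z) +ᵥ K) \ K)).toReal := by
  have h1 : K ∩ {x | x - z' ∈ K} ⊆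
      (K ∩ {x | x - z ∈ K}) ∪ (fun x => x + -z) ⁻¹' (((z' - z) +ᵥ K) \ K) := by
    rintro x ⟨hx, hx'⟩
    by_cases h : x - z ∈ K
    · exact Or.inl ⟨hx, h⟩
    · refine Or.inr ⟨⟨x - z', hx', ?_⟩, ?_⟩
      · change (z' - z) + (x - z') = x + -z
        abel
      · change ¬ (x + -z ∈ K)
        rwa [← sub_eq_add_neg]
  have h2 := (measure_mono (μ := volume) h1).trans (measure_union_le _ _)
  rw [measure_preimage_add_right] at h2
  have f1 : volume (K ∩ {x | x - z ∈ K}) ≠ ⊤ := (da_cpt hK z).measure_lt_top.ne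
  have f2 : volume (((z' - z) +ᵥ K) \ K) ≠ ⊤ :=
    ((measure_mono diff_subset).trans_lt (hK.vadd (z' - z)).measure_lt_top).ne
  unfold cg vol
  rw [← ENNReal.toReal_add f1 f2]
  exact ENNReal.toReal_mono (ENNReal.add_ne_top.2 ⟨f1, f2⟩) h2

open Pointwise in
theorem da_cont {K : Set (X n)} (hK : IsCompact K) : Continuous (cg K) := by
  have h0 : Tendsto (fun g : X n => (volume ((g +ᵥ K) \ K)).toReal) (𝓝 0) (𝓝 0) := by
    have h1 := tendsto_measure_vadd_sdiff_isCompact_isClosed (μ := (volume : Measure (X n))) hK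
      hK.isClosed
    have h2 := (ENNReal.tendsto_toReal ENNReal.zero_ne_top).comp h1
    rwa [ENNReal.toReal_zero] at h2
  refine continuous_iff_continuousAt.2 fun z => ?_
  have a1 : Tendsto (fun z' : X n => z' - z) (𝓝 z) (𝓝 0) := by
    have h3 : Continuous fun z' : X n => z' - z := continuous_id.sub continuous_const
    have h4 := h3.tendsto z
    rwa [sub_self] at h4
  have a2 : Tendsto (fun z' : X n => z - z') (𝓝 z) (𝓝 0) := by
    have h3 : Continuous fun z' : X n => z - z' := continuous_const.sub continuous_id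
    have h4 := h3.tendsto z
    rwa [sub_self] at h4
  have a3 := (h0.comp a1).add (h0.comp a2)
  rw [add_zero] at a3
  refine tendsto_iff_dist_tendsto_zero.2 (squeeze_zero (fun _ => dist_nonneg) (fun z' => ?_) a3)
  have b1 := da_step hK z z'
  have b2 := da_step hK z' z
  have b3 : 0 ≤ (volume (((z' - z) +ᵥ K) \ K)).toReal := ENNReal.toReal_nonneg
  have b4 : 0 ≤ (volume (((z - z') +ᵥ K) \ K)).toReal := ENNReal.toReal_nonneg
  rw [Real.dist_eq, abs_le]
  simp only [Function.comp_apply]
  constructor <;> linarith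

theorem cg_zero (K : Set (X n)) : cg K 0 = vol K := by
  unfold cg
  simp only [sub_zero, setOf_mem_eq, inter_self]

theorem vol_pos {K : Set (X n)} (hK : IsBody K) : 0 < vol K := by
  exact ENNReal.toReal_pos (Measure.measure_pos_of_nonempty_interior _ hK.2.2).ne'
    hK.1.measure_lt_top.ne

theorem lc_cg {K : Set (X n)} (hK : IsBody K) : LC (cg K) := by
  refine ⟨da_cont hK.1, ?_, fun x => ENNReal.toReal_nonneg, fun z => ?_, fun x y t h0 h1 => ?_⟩
  · refine HasCompactSupport.intro
      ((hK.1.prod hK.1).image (f := fun p : X n × X n => p.1 - p.2)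
        (continuous_fst.sub continuous_snd)) fun z hz => ?_
    have h1 : K ∩ {x | x - z ∈ K} = ∅ := by
      refine eq_empty_of_forall_notMem fun x hx => hz ⟨(x, x - z), ⟨hx.1, hx.2⟩, ?_⟩
      exact sub_sub_cancel x z
    unfold cg vol
    rw [h1, measure_empty, ENNReal.toReal_zero]
  · have h1 : K ∩ {x | x - -z ∈ K} = (fun x => x + z) ⁻¹' (K ∩ {x | x - z ∈ K}) := by
      ext x
      simp only [mem_inter_iff, mem_setOf_eq, mem_preimage, sub_neg_eq_add, add_sub_cancel_right]
      exact and_comm
    unfold cg vol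
    rw [h1, measure_preimage_add_right]
  · refine pl_set (da_cpt hK.1 x) (da_cpt hK.1 y) (da_cpt hK.1 _) h0 h1 fun a ha b hb => ?_
    refine ⟨hK.2.1 ha.1 hb.1 (by linarith) h0.le (by ring), ?_⟩
    have h2 := hK.2.1 ha.2 hb.2 (show 0 ≤ 1 - t by linarith) h0.le (by ring)
    have h3 : (1 - t) • a + t • b - ((1 - t) • x + t • y) =
        (1 - t) • (a - x) + t • (b - y) := by
      rw [smul_sub, smul_sub]
      abel
    change (1 - t) • a + t • b - ((1 - t) • x + t • y) ∈ K
    rw [h3]
    exact h2

theorem cg_scale {K : Set (X n)} (hK : IsBody K) {t : ℝ} (h0 : 0 < t) (h1 : t < 1) (z : X n) :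
    (((1 - t / 2) / (1 - t)) ^ n * cg K z) ^ (1 - t) * ((1 / 2) ^ n * vol K) ^ t
      ≤ cg K ((1 - t / 2) • z) := by
  have ht : 0 < 1 - t := by linarith
  have hr : 0 ≤ (1 - t / 2) / (1 - t) := div_nonneg (by linarith) ht.le
  unfold cg
  rw [← da_smul hr, ← da_smul (by norm_num : (0 : ℝ) ≤ 1 / 2)]
  refine pl_set ((da_cpt hK.1 z).smul _) (hK.1.smul _) (da_cpt hK.1 _) h0 h1 ?_
  rintro _ ⟨a, ha, rfl⟩ _ ⟨k, hk, rfl⟩
  have e1 : (1 - t) * ((1 - t / 2) / (1 - t)) = 1 - t / 2 := by field_simp
  have e2 : t * (1 / 2) = t / 2 := by ring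
  change (1 - t) • ((1 - t / 2) / (1 - t)) • a + t • (1 / 2 : ℝ) • k ∈
    K ∩ {x | x - (1 - t / 2) • z ∈ K}
  rw [smul_smul, smul_smul, e1, e2]
  refine ⟨hK.2.1 ha.1 hk (by linarith) (by linarith) (by ring), ?_⟩
  have h2 := hK.2.1 ha.2 hk (show 0 ≤ 1 - t / 2 by linarith) (show 0 ≤ t / 2 by linarith)
    (by ring)
  have h3 : (1 - t / 2) • a + (t / 2) • k - (1 - t / 2) • z =
      (1 - t / 2) • (a - z) + (t / 2) • k := by
    rw [smul_sub]
    abel
  change (1 - t / 2) • a + (t / 2) • k - (1 - t / 2) • z ∈ K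
  rw [h3]
  exact h2

end Vale.Agent.P254.S
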