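import Vale.Agent.P254.S.GDefs

/-! # P254 S/DifB

TASK, helper names start with db_.
cg K z = ∫ x, 1_K x * 1_K (x - z).  cg_int: Fubini (integral_integral_swap; the integrand is bounded, measurable and supported in a compact subset of the product), then z ↦ x - z (integral_sub_left_eq_self).
cg_mom: x - y = (x - c) - (y - c) with c = cen K, expand, ∫ x in K, (x i - cen K i) = 0 (also true when vol K = 0), vol_eq.
-/

set_option linter.unusedSectionVars false
set_option linter.unusedVariables false

namespace Vale.Agent.P254.S

open Vale.Agent.P227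
open scoped ContDiff
open MeasureTheory Set Filter Topology Matrix

variable {n : ℕ}

theorem db_cen {K : Set (X n)} (hK : IsCompact K) (i : Fin n) : ∫ x in K, (x i - cen K i) = 0 := by
  by_cases h : vol K = 0
  · have h1 : volume K = 0 := ((ENNReal.toReal_eq_zero_iff _).1 h).resolve_right hK.measure_ne_top
    rw [Measure.restrict_eq_zero.2 h1, integral_zero_measure]
  · rw [integral_sub ((continuous_apply i).continuousOn.integrableOn_compact hK)
      (continuousOn_const.integrableOn_compact hK), setIntegral_const, smul_eq_mul, cen]
    change _ - vol K * _ = 0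
    rw [mul_inv_cancel_left₀ h, sub_self]

theorem cg_int {K : Set (X n)} (hK : IsCompact K) {F : X n → ℝ} (hF : Continuous F) :
    ∫ z, F z * cg K z = ∫ x in K, ∫ y in K, F (x - y) := by
  obtain ⟨D, hD⟩ : ∃ D : Set (X n × X n), D = {p | p.2 ∈ K ∧ p.2 - p.1 ∈ K} := ⟨_, rfl⟩
  have h1 : IsCompact D := by
    have h2 : D = (fun p : X n × X n => (p.1 - p.2, p.1)) '' K ×ˢ K := by
      rw [hD]
      ext p
      constructor
      · exact fun h => ⟨(p.2, p.2 - p.1), h, by simp⟩
      · rintro ⟨q, h, rfl⟩
        exact ⟨h.1, by simpa using h.2⟩
    rw [h2]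
    exact (hK.prod hK).image (by fun_prop)
  have h2 : Integrable (Function.uncurry fun z x => D.indicator (fun p => F p.1) (z, x))
      (Measure.prod volume volume) :=
    (integrable_indicator_iff h1.measurableSet).2
      ((hF.comp continuous_fst).continuousOn.integrableOn_compact h1)
  have h3 : ∀ z, F z * cg K z = ∫ x, D.indicator (fun p => F p.1) (z, x) := fun z => by
    have h4 : MeasurableSet (K ∩ {x | x - z ∈ K}) :=
      hK.measurableSet.inter (hK.measurableSet.preimage (measurable_sub_const z))
    have h5 := integral_indicator_const (μ := volume) (F z) h4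
    rw [smul_eq_mul, mul_comm] at h5
    rw [hD]
    exact h5.symm
  simp only [h3]
  rw [integral_integral_swap h2, ← integral_indicator hK.measurableSet]
  refine integral_congr_ae (Eventually.of_forall fun x => ?_)
  by_cases hx : x ∈ K
  · rw [indicator_of_mem hx, ← integral_indicator hK.measurableSet,
      ← integral_sub_left_eq_self _ volume x]
    refine integral_congr_ae (Eventually.of_forall fun z => ?_)
    by_cases hz : x - z ∈ K
    · simp only
      rw [indicator_of_mem hz, indicator_of_mem (by rw [hD]; exact ⟨hx, hz⟩), sub_sub_cancel]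
    · simp only
      rw [indicator_of_notMem hz, indicator_of_notMem (by rw [hD]; exact fun h => hz h.2)]
  · subst hD
    simp [indicator, hx]

theorem cg_mass {K : Set (X n)} (hK : IsCompact K) : ∫ z, cg K z = vol K ^ 2 := by
  have h1 := cg_int hK (F := fun _ => 1) continuous_const
  simp only [one_mul, ← vol_eq] at h1
  rw [h1, setIntegral_const, smul_eq_mul, sq]
  rfl

theorem cg_mom {K : Set (X n)} (hK : IsCompact K) (a b : Fin n) :
    ∫ z, z a * z b * cg K z = 2 * vol K ^ 2 * cov K a b := by
  have hi : ∀ {f : X n → ℝ}, Continuous f → IntegrableOn f K := fun hf =>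
    hf.continuousOn.integrableOn_compact hK
  obtain ⟨M, hM⟩ : ∃ M, M = ∫ x in K, (x a - cen K a) * (x b - cen K b) := ⟨_, rfl⟩
  have h1 : ∀ x : X n, ∫ y in K, (x - y) a * (x - y) b =
      vol K * ((x a - cen K a) * (x b - cen K b)) + M := fun x => by
    have h2 : ∀ y : X n, (x - y) a * (x - y) b = (x a - cen K a) * (x b - cen K b) +
        (y a - cen K a) * (y b - cen K b) - ((x a - cen K a) * (y b - cen K b) +
          (x b - cen K b) * (y a - cen K a)) := fun y => by
      simp only [Pi.sub_apply]
      ring
    simp only [h2]
    rw [integral_sub (hi (by fun_prop)) (hi (by fun_prop)),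
      integral_add (hi (by fun_prop)) (hi (by fun_prop)),
      integral_add (hi (by fun_prop)) (hi (by fun_prop)), integral_const_mul (x a - cen K a)
        fun y : X n => y b - cen K b, integral_const_mul (x b - cen K b), db_cen hK, db_cen hK,
      setIntegral_const, ← hM, smul_eq_mul]
    simp only [mul_zero, add_zero, sub_zero]
    rfl
  rw [cg_int hK (F := fun z => z a * z b) (by fun_prop)]
  simp only [h1]
  rw [integral_add (hi (by fun_prop)) (hi (by fun_prop)), integral_const_mul, setIntegral_const,
    cov, of_apply, ← hM, smul_eq_mul]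
  change vol K * M + vol K * M = _
  by_cases h : vol K = 0
  · simp [h]
  · field_simp
    ring

end Vale.Agent.P254.S
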