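import Vale.Agent.P254.S.GDefs

/-! # P254 S/InfC

TASK, helper names start with ic_.
g ≤ M (compact support), S = {y | 0 < g y} is nonempty, symmetric and convex, -log g is convex on S (take logs in lc), B = -log M.  W m x = ⨅ y : S, (-log (g y) + m * ‖x - y‖) (bounded below by B; ciInf_le, le_ciInf, exists_lt_of_ciInf_lt).
Limit at x: W m x ≤ -log (g x) if g x > 0, so g x ≤ exp (-W m x) always.  Given η > 0 choose δ with g y ≤ g x + η for ‖x - y‖ < δ; then W m x ≥ min (-log (g x + η)) (B + m δ), which is -log (g x + η) for large m, so exp (-W m x) ≤ g x + η.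
-/

set_option linter.unusedSectionVars false
set_option linter.unusedVariables false

namespace Vale.Agent.P254.S

open Vale.Agent.P227
open scoped ContDiff
open MeasureTheory Set Filter Topology Matrix

variable {n : ℕ}

theorem exists_infc {g : X n → ℝ} (hg : LC g) (h0 : ∃ x, 0 < g x) :
    ∃ (W : ℕ → X n → ℝ) (B : ℝ), (∀ m, ConvexOn ℝ univ (W m) ∧ Ev (W m) ∧
      (∀ x y, |W m x - W m y| ≤ m * ‖x - y‖) ∧ ∀ x, B ≤ W m x) ∧
      ∀ x, Tendsto (fun m => Real.exp (-W m x)) atTop (𝓝 (g x)) := by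
  obtain ⟨C, hC⟩ := hg.cont.bounded_above_of_compact_support hg.supp
  have hB : ∀ y, 0 < g y → -Real.log C ≤ -Real.log (g y) := fun y hy =>
    neg_le_neg (Real.log_le_log hy ((le_abs_self _).trans (hC y)))
  have hne : Nonempty {y // 0 < g y} := h0.elim fun y hy => ⟨⟨y, hy⟩⟩
  obtain ⟨W, hW⟩ : ∃ W : ℕ → X n → ℝ, ∀ m x,
    W m x = ⨅ y : {y // 0 < g y}, (-Real.log (g y) + m * ‖x - y‖) := ⟨_, fun _ _ => rfl⟩
  have lo : ∀ (m : ℕ) (x y : X n), 0 < g y → -Real.log C ≤ -Real.log (g y) + m * ‖x - y‖ :=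
    fun m x y hy => le_add_of_le_of_nonneg (hB y hy) (by positivity)
  have h1 : ∀ m x y, 0 < g y → W m x ≤ -Real.log (g y) + m * ‖x - y‖ := fun m x y hy => by
    rw [hW]
    exact ciInf_le ⟨-Real.log C, by rintro _ ⟨z, rfl⟩; exact lo m x z z.2⟩ (⟨y, hy⟩ : {y // 0 < g y})
  have h2 : ∀ (m : ℕ) x a, (∀ y, 0 < g y → a ≤ -Real.log (g y) + m * ‖x - y‖) → a ≤ W m x :=
    fun m x a h => by
      rw [hW]
      exact le_ciInf fun y => h y y.2
  have h3 : ∀ (m : ℕ) x x', W m x - W m x' ≤ m * ‖x - x'‖ := fun m x x' => by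
    refine sub_le_comm.1 (h2 m x' _ fun y hy => ?_)
    have := mul_le_mul_of_nonneg_left (norm_sub_le_norm_sub_add_norm_sub x x' y)
      (Nat.cast_nonneg (α := ℝ) m)
    linarith [h1 m x y hy]
  have h4 : ∀ m x, W m (-x) ≤ W m x := fun m x => h2 m x _ fun y hy => by
    have := h1 m (-x) (-y) (by rwa [hg.ev])
    rwa [hg.ev, neg_sub_neg, norm_sub_rev] at this
  refine ⟨W, -Real.log C, fun m => ⟨convexOn_iff_forall_pos.2 ⟨convex_univ,
    fun x _ x' _ a b ha hb hab => ?_⟩, fun x => le_antisymm (h4 m x) (by simpa using h4 m (-x)),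
    fun x y => abs_sub_le_iff.2 ⟨h3 m x y, norm_sub_rev x y ▸ h3 m y x⟩,
    fun x => h2 m x _ (lo m x)⟩, fun x => tendsto_order.2 ⟨fun a ha => ?_, fun a ha => ?_⟩⟩
  · obtain rfl : a = 1 - b := by linarith
    have k1 : ∀ y y', 0 < g y → 0 < g y' → W m ((1 - b) • x + b • x') ≤
        (1 - b) * (-Real.log (g y) + m * ‖x - y‖) + b * (-Real.log (g y') + m * ‖x' - y'‖) := by
      intro y y' hy hy'
      have a1 := hg.lc y y' b hb (by linarith)
      have a2 : 0 < g y ^ (1 - b) * g y' ^ b := by positivity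
      have a3 := Real.log_le_log a2 a1
      rw [Real.log_mul (by positivity) (by positivity), Real.log_rpow hy, Real.log_rpow hy'] at a3
      have a4 := h1 m ((1 - b) • x + b • x') _ (a2.trans_le a1)
      have a5 := norm_add_le ((1 - b) • (x - y)) (b • (x' - y'))
      rw [norm_smul, norm_smul, Real.norm_of_nonneg ha.le, Real.norm_of_nonneg hb.le, smul_sub,
        smul_sub, ← add_sub_add_comm] at a5
      have a6 := mul_le_mul_of_nonneg_left a5 (Nat.cast_nonneg (α := ℝ) m)
      linarith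
    have k2 : ∀ y', 0 < g y' → W m ((1 - b) • x + b • x') ≤
        (1 - b) * W m x + b * (-Real.log (g y') + m * ‖x' - y'‖) := fun y' hy' => by
      rw [← sub_le_iff_le_add, ← div_le_iff₀' ha]
      refine h2 m x _ fun y hy => ?_
      rw [div_le_iff₀' ha, sub_le_iff_le_add]
      exact k1 y y' hy hy'
    rw [smul_eq_mul, smul_eq_mul, ← sub_le_iff_le_add', ← div_le_iff₀' hb]
    refine h2 m x' _ fun y hy => ?_
    rw [div_le_iff₀' hb, sub_le_iff_le_add']
    exact k2 y hy
  · refine Eventually.of_forall fun m => ha.trans_le ?_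
    rcases (hg.nonneg x).eq_or_lt with h | h
    · exact h ▸ (Real.exp_pos _).le
    · have := h1 m x x h
      rw [sub_self, norm_zero, mul_zero, add_zero] at this
      exact (Real.log_le_iff_le_exp h).1 (by linarith)
  · obtain ⟨c, c1, c2⟩ := exists_between ha
    have c0 : 0 < c := (hg.nonneg x).trans_lt c1
    obtain ⟨δ, hδ, hd⟩ := Metric.eventually_nhds_iff.1
      (hg.cont.continuousAt.eventually (gt_mem_nhds c1))
    filter_upwards [(tendsto_natCast_atTop_atTop (R := ℝ)).eventually_ge_atTop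
      ((Real.log C - Real.log c) / δ)] with m hm
    refine lt_of_le_of_lt ((Real.le_log_iff_exp_le c0).1 (neg_le.1 (h2 m x _ fun y hy => ?_))) c2
    by_cases hxy : dist y x < δ
    · exact le_add_of_le_of_nonneg (neg_le_neg (Real.log_le_log hy (hd hxy).le)) (by positivity)
    · rw [dist_comm, dist_eq_norm, not_lt] at hxy
      rw [div_le_iff₀ hδ] at hm
      linarith [hB y hy, mul_le_mul_of_nonneg_left hxy (Nat.cast_nonneg (α := ℝ) m)]

end Vale.Agent.P254.S
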