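import Vale.Agent.P254.S.Defs
import Vale.Agent.P227.Gauss

/-! # P254 S/Moll

TASK, helper names start with mo_.
lb_of_convex: r ↦ W (x + r • ξ) is convex and smooth, its derivative r ↦ ∑ i, ξ i * pd i W (x + r • ξ) is monotone (ConvexOn.monotoneOn_deriv), so the second derivative qf (hess W x) ξ is nonnegative (Monotone.deriv_nonneg / HasDerivAt.nonneg_of_monotone).
exists_moll: WLOG L > 0 (replace L by |L| + 1).  φ : ContDiffBump (0 : X n) with rOut = δ / L, ρ = φ.normed volume (contDiff_normed, hasCompactSupport_normed, normed_neg, integral_normed, nonneg_normed), W' x = ∫ y, ρ (x - y) * W y = ∫ y, ρ y * W (x - y)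
(the convolution ρ ⋆[lsmul ℝ ℝ] W; HasCompactSupport.contDiff_convolution_left, HasCompactSupport.hasFDerivAt_convolution_left).  Key lemma by induction on the word l, for all smooth compactly supported ρ: pds l (ρ ⋆ W) = (pds l ρ) ⋆ W.
For l = i :: l', ∫ pds l ρ = 0 (integral of a derivative of a compactly supported function: apply the key lemma to W = 1, where ρ ⋆ 1 is constant), so |((pds l ρ) ⋆ W) x| = |∫ pds l ρ y * (W (x - y) - W x)| ≤ ∫ |pds l ρ y| * L * ‖y‖.
Convexity: integral_mono; evenness: integral_neg_eq_self; closeness: ContDiffBump.dist_normed_convolution_le.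
-/

set_option linter.unusedSectionVars false
set_option linter.unusedVariables false

namespace Vale.Agent.P254.S

open Vale.Agent.P227
open scoped ContDiff
open MeasureTheory Set Filter Topology Matrix

variable {n : ℕ}

theorem lb_of_convex {W : X n → ℝ} (hs : Sm W) (hc : ConvexOn ℝ univ W) (x : X n) :
    LB 0 (hess W x) := by
  intro ξ
  have hg : ∀ s : ℝ, HasDerivAt (fun r : ℝ => W (x + r • ξ)) (∑ j, ξ j * pd j W (x + s • ξ)) s :=
    fun s => hasDerivAt_line (hs.diff _)
  have hcv : ConvexOn ℝ univ (fun r : ℝ => W (x + r • ξ)) := by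
    refine ⟨convex_univ, fun a _ b _ p q hp hq hpq => ?_⟩
    have h1 := hc.2 (mem_univ (x + a • ξ)) (mem_univ (x + b • ξ)) hp hq hpq
    have h2 : p • (x + a • ξ) + q • (x + b • ξ) = x + (p • a + q • b) • ξ := by
      funext k
      simp only [Pi.add_apply, Pi.smul_apply, smul_eq_mul]
      linear_combination (x k) * hpq
    rw [h2] at h1
    exact h1
  have hmono : Monotone (fun s : ℝ => ∑ j, ξ j * pd j W (x + s • ξ)) := by
    have h1 := hcv.monotoneOn_deriv (fun s _ => (hg s).differentiableAt)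
    rw [monotoneOn_univ] at h1
    have h2 : deriv (fun r : ℝ => W (x + r • ξ)) = fun s => ∑ j, ξ j * pd j W (x + s • ξ) :=
      funext fun s => (hg s).deriv
    rw [h2] at h1
    exact h1
  have hd : HasDerivAt (fun s : ℝ => ∑ j, ξ j * pd j W (x + s • ξ))
      (∑ j, ξ j * ∑ i, ξ i * pd i (pd j W) (x + (0 : ℝ) • ξ)) 0 :=
    HasDerivAt.fun_sum fun j _ => (hasDerivAt_line ((hs.pd j).diff _)).const_mul (ξ j)
  have h0 := hd.nonneg_of_monotone hmono
  rw [zero_smul, add_zero] at h0
  rw [zero_mul]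
  refine h0.trans (le_of_eq ?_)
  unfold qf
  rw [Finset.sum_comm]
  refine Finset.sum_congr rfl fun j _ => ?_
  rw [Finset.mul_sum]
  refine Finset.sum_congr rfl fun i _ => ?_
  rw [hess_apply]
  ring

/-- Convolution of a function with a kernel. -/
noncomputable def mo_cv (W ρ : X n → ℝ) : X n → ℝ :=
  convolution W ρ (ContinuousLinearMap.lsmul ℝ ℝ) volume

theorem mo_cv_eq (W ρ : X n → ℝ) (x : X n) : mo_cv W ρ x = ∫ y, W (x - y) * ρ y := by
  unfold mo_cv
  rw [convolution_eq_swap]
  rfl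

theorem mo_sm {W ρ : X n → ℝ} (hW : Continuous W) (hρ : Sm ρ) (hk : HasCompactSupport ρ) :
    Sm (mo_cv W ρ) :=
  hk.contDiff_convolution_right (ContinuousLinearMap.lsmul ℝ ℝ) hW.locallyIntegrable hρ

theorem mo_pd {W ρ : X n → ℝ} (hW : Continuous W) (hρ : Sm ρ) (hk : HasCompactSupport ρ)
    (i : Fin n) : pd i (mo_cv W ρ) = mo_cv W (pd i ρ) := by
  funext x
  have h1 : ContDiff ℝ 1 ρ := hρ.of_le (by simp)
  have h2 := hk.hasFDerivAt_convolution_right (μ := volume) (ContinuousLinearMap.lsmul ℝ ℝ)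
    hW.locallyIntegrable h1 x
  unfold pd mo_cv
  rw [h2.fderiv, convolution_precompR_apply (ContinuousLinearMap.lsmul ℝ ℝ) hW.locallyIntegrable
    (hk.fderiv ℝ) (h1.continuous_fderiv one_ne_zero)]

theorem mo_hk {ρ : X n → ℝ} (hk : HasCompactSupport ρ) (l : List (Fin n)) :
    HasCompactSupport (pds l ρ) := by
  induction l with
  | nil => exact hk
  | cons i l ih => exact ih.fderiv_apply ℝ _

theorem mo_pds {W ρ : X n → ℝ} (hW : Continuous W) (hρ : Sm ρ) (hk : HasCompactSupport ρ)
    (l : List (Fin n)) : pds l (mo_cv W ρ) = mo_cv W (pds l ρ) := by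
  induction l with
  | nil => rfl
  | cons i l ih => rw [pds_cons, ih, mo_pd hW (hρ.pds l) (mo_hk hk l), pds_cons]

theorem mo_int0 {ρ : X n → ℝ} (hρ : Sm ρ) (hk : HasCompactSupport ρ) {l : List (Fin n)}
    (hl : l ≠ []) : ∫ y, pds l ρ y = 0 := by
  have h1 := mo_pds (W := fun _ => (1 : ℝ)) continuous_const hρ hk l
  have h2 : mo_cv (fun _ : X n => (1 : ℝ)) ρ = fun _ => ∫ y, ρ y := by
    funext x
    rw [mo_cv_eq]
    simp only [one_mul]
  rw [h2, pds_const _ hl] at h1
  have h3 := congrFun h1 0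
  rw [mo_cv_eq] at h3
  simp only [one_mul] at h3
  exact h3.symm

theorem mo_intg {W ρ : X n → ℝ} (hW : Continuous W) (hρ : Continuous ρ)
    (hk : HasCompactSupport ρ) : Integrable (fun y => W y * ρ y) :=
  (hW.mul hρ).integrable_of_hasCompactSupport hk.mul_left

theorem mo_bound {W ρ : X n → ℝ} (hW : Continuous W) (hρ : Continuous ρ)
    (hk : HasCompactSupport ρ) (h0 : ∫ y, ρ y = 0) {L : ℝ}
    (hL : ∀ x y, |W x - W y| ≤ L * ‖x - y‖) (x : X n) :
    |mo_cv W ρ x| ≤ ∫ y, (L * ‖y‖) * |ρ y| := by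
  have hW' : Continuous (fun y => W (x - y)) := hW.comp (continuous_const.sub continuous_id)
  have i1 := mo_intg hW' hρ hk
  have i2 := mo_intg (W := fun _ => W x) continuous_const hρ hk
  have h1 : mo_cv W ρ x = ∫ y, (W (x - y) - W x) * ρ y := by
    rw [mo_cv_eq]
    simp only [sub_mul]
    rw [integral_sub i1 i2, integral_const_mul, h0, mul_zero, sub_zero]
  have i3 : Integrable (fun y : X n => (L * ‖y‖) * |ρ y|) :=
    mo_intg (continuous_const.mul continuous_norm) hρ.abs hk.abs
  rw [h1, ← Real.norm_eq_abs]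
  refine norm_integral_le_of_norm_le i3 (Eventually.of_forall fun y => ?_)
  rw [Real.norm_eq_abs, abs_mul]
  refine mul_le_mul_of_nonneg_right ?_ (abs_nonneg _)
  have h2 := hL (x - y) x
  rw [sub_sub_cancel_left, norm_neg] at h2
  exact h2

theorem mo_convex {W ρ : X n → ℝ} (hW : Continuous W) (hc : ConvexOn ℝ univ W)
    (hρ : Continuous ρ) (hk : HasCompactSupport ρ) (h0 : ∀ y, 0 ≤ ρ y) :
    ConvexOn ℝ univ (mo_cv W ρ) := by
  refine ⟨convex_univ, fun a _ b _ p q hp hq hpq => ?_⟩
  have hW' : ∀ x : X n, Continuous (fun y => W (x - y)) := fun x =>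
    hW.comp (continuous_const.sub continuous_id)
  have i1 := (mo_intg (hW' a) hρ hk).const_mul p
  have i2 := (mo_intg (hW' b) hρ hk).const_mul q
  simp only [mo_cv_eq, smul_eq_mul]
  rw [← integral_const_mul, ← integral_const_mul, ← integral_add i1 i2]
  refine integral_mono (mo_intg (hW' _) hρ hk) (i1.add i2) fun y => ?_
  have h1 := hc.2 (mem_univ (a - y)) (mem_univ (b - y)) hp hq hpq
  have h2 : p • (a - y) + q • (b - y) = p • a + q • b - y := by
    funext k
    simp only [Pi.add_apply, Pi.sub_apply, Pi.smul_apply, smul_eq_mul]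
    linear_combination (-y k) * hpq
  rw [h2] at h1
  simp only [smul_eq_mul] at h1
  have h3 := mul_le_mul_of_nonneg_right h1 (h0 y)
  show W (p • a + q • b - y) * ρ y ≤ p * (W (a - y) * ρ y) + q * (W (b - y) * ρ y)
  linarith

theorem mo_ev {W ρ : X n → ℝ} (he : Ev W) (hρ : ∀ y, ρ (-y) = ρ y) : Ev (mo_cv W ρ) := by
  intro x
  rw [mo_cv_eq, mo_cv_eq, ← integral_neg_eq_self]
  refine integral_congr_ae (Eventually.of_forall fun y => ?_)
  show W (-x - -y) * ρ (-y) = W (x - y) * ρ y
  rw [hρ, ← he (x - y), neg_sub']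

theorem exists_moll {W : X n → ℝ} (hc : ConvexOn ℝ univ W) (he : Ev W) {L : ℝ}
    (hL : ∀ x y, |W x - W y| ≤ L * ‖x - y‖) {δ : ℝ} (hδ : 0 < δ) :
    ∃ W' : X n → ℝ, V2 W' ∧ Ev W' ∧ (∀ x, LB 0 (hess W' x)) ∧ ∀ x, |W' x - W x| ≤ δ := by
  have hL1 : ∀ x y, |W x - W y| ≤ (|L| + 1) * ‖x - y‖ := fun x y =>
    (hL x y).trans (mul_le_mul_of_nonneg_right ((le_abs_self L).trans (by linarith)) (norm_nonneg _))
  have hL0 : 0 < |L| + 1 := by positivity
  have hW : Continuous W := by
    have h1 : LipschitzWith ⟨|L| + 1, hL0.le⟩ W := by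
      refine LipschitzWith.of_dist_le_mul fun x y => ?_
      rw [Real.dist_eq, dist_eq_norm]
      exact hL1 x y
    exact h1.continuous
  have hr : 0 < δ / (|L| + 1) := div_pos hδ hL0
  let φ : ContDiffBump (0 : X n) := ⟨δ / (|L| + 1) / 2, δ / (|L| + 1), by positivity, by linarith⟩
  have hρ : Sm (φ.normed volume) := φ.contDiff_normed
  have hk : HasCompactSupport (φ.normed volume) := φ.hasCompactSupport_normed
  have hs := mo_sm hW hρ hk
  refine ⟨mo_cv W (φ.normed volume), ⟨hs, fun l hl => ?_⟩, mo_ev he fun y => φ.normed_neg y,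
    fun x => lb_of_convex hs (mo_convex hW hc hρ.cont hk φ.nonneg_normed) x, fun x => ?_⟩
  · have hl0 : l ≠ [] := by
      rintro rfl
      simp at hl
    refine ⟨∫ y, (L * ‖y‖) * |pds l (φ.normed volume) y|, fun x => ?_⟩
    rw [mo_pds hW hρ hk]
    exact mo_bound hW (hρ.pds l).cont (mo_hk hk l) (mo_int0 hρ hk hl0) hL x
  · have h1 := φ.dist_normed_convolution_le (μ := volume) (g := W) (x₀ := x) (ε := δ)
      hW.aestronglyMeasurable (fun y hy => by
        rw [Real.dist_eq]
        refine (hL1 y x).trans ?_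
        have h2 : ‖y - x‖ < δ / (|L| + 1) := mem_ball_iff_norm.1 hy
        rw [lt_div_iff₀ hL0] at h2
        linarith)
    rw [Real.dist_eq, convolution_def] at h1
    rw [mo_cv_eq]
    simp only [ContinuousLinearMap.lsmul_apply, smul_eq_mul] at h1
    simp only [mul_comm (W _)]
    exact h1

end Vale.Agent.P254.S
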