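import Vale.Agent.P254.S.Gen
import Vale.Agent.P254.S.Moll
import Vale.Agent.P254.S.InfC

/-! # P254 S/Lc

TASK, helper names start with lcc_.  Compare S/Apx and S/Body, which do the same for indicator functions.
lc_gauss: W from exists_infc, W' m from exists_moll with δ = 1/(m+1), V m x = W' m x + ε * q0 n x (q0 n x = nsq x / 2; S/U1 has hess q0 = 1 and V2 q0, or redo it) is Pot; exp (-V m x) → g x * exp (-(ε/2 nsq x));
V * exp (-V) = negMulLog (exp (-V)) and Real.continuous_negMulLog; domination from V m x ≥ B - 1 + ε/2 nsq x: exp (-V) ≤ C exp (-(ε/2 nsq)), |V| exp (-V) ≤ C' exp (-V/2) for V ≥ B - 1; integrable_gauss_poly.  gen_ent, EntIneq.lim (∫ > 0: Continuous.integral_pos_of_hasCompactSupport_nonneg_nonzero).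
lc_ent: ε = 1/(m+1) → 0, dominated convergence with a constant times the indicator of tsupport g (the integrands are jointly continuous and vanish off the support).
-/

set_option linter.unusedSectionVars false
set_option linter.unusedVariables false

namespace Vale.Agent.P254.S

open Vale.Agent.P227
open scoped ContDiff
open MeasureTheory Set Filter Topology Matrix

variable {n : ℕ}

theorem lcc_pot {W : X n → ℝ} (h1 : V2 W) (h2 : Ev W) (h3 : ∀ x, LB 0 (hess W x)) {ε : ℝ}
    (hε : 0 < ε) : Pot fun x => W x + ε / 2 * nsq x := by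
  have e : (fun x => W x + ε / 2 * nsq x) = fun x => W x + ε * q0 n x := by
    funext x
    rw [q0]
    ring
  rw [e]
  refine ⟨h1.add (u1_q0.const_mul ε), fun x => by simp only [h2 x, ev_q0 x], ε, hε, fun x ξ => ?_⟩
  have e2 : ∀ i j, hess (fun x => W x + ε * q0 n x) x i j = hess W x i j + ε * (1 : Mat n) i j := by
    intro i j
    have k := pds_add (g := fun x => ε * q0 n x) h1.1 (contDiff_const.mul sm_q0) [i, j]
    rw [pds_const_mul sm_q0] at k
    rw [← hess_q0 x]
    exact congrFun k x
  have k := h3 x ξ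
  have k2 := mul_le_mul_of_nonneg_left (lb_one ξ) hε.le
  simp only [qf, e2, add_mul, Finset.sum_add_distrib, Finset.mul_sum, mul_assoc] at k k2 ⊢
  linarith

theorem lcc_lim {u : ℕ → X n → ℝ} {u₀ B : X n → ℝ} (hu : ∀ m, Continuous (u m))
    (hl : ∀ x, Tendsto (fun m => u m x) atTop (𝓝 (u₀ x))) (G : X n → ℝ → ℝ)
    (hG : Continuous fun p : X n × ℝ => G p.1 p.2) (hB : Integrable B)
    (hb : ∀ m x, |G x (u m x)| ≤ B x) :
    Tendsto (fun m => ∫ x, G x (u m x)) atTop (𝓝 (∫ x, G x (u₀ x))) :=
  tendsto_integral_of_dominated_convergence B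
    (fun m => (hG.comp (continuous_id.prodMk (hu m))).aestronglyMeasurable) hB
    (fun m => Eventually.of_forall (hb m)) (Eventually.of_forall fun x =>
      ((hG.comp (Continuous.prodMk_right x)).tendsto _).comp (hl x))

theorem lcc_bd {b v w : ℝ} (hw : 0 ≤ w) (h : b + w ≤ v) : |v * Real.exp (-v)| ≤
    (2 + |b| * Real.exp (-b / 2)) * Real.exp (-b / 2) * Real.exp (-(w / 2)) := by
  have e : Real.exp (-v) = Real.exp (-v / 2) * Real.exp (-v / 2) := by
    rw [← Real.exp_add, add_halves]
  rw [abs_mul, abs_of_pos (Real.exp_pos _), e, ← mul_assoc, mul_assoc (2 + _), ← Real.exp_add]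
  refine mul_le_mul ?_ (Real.exp_le_exp.2 (by linarith)) (Real.exp_pos _).le (by positivity)
  rcases le_total 0 v with h0 | h0
  · have k1 := Real.add_one_le_exp (v / 2)
    have k2 : Real.exp (v / 2) * Real.exp (-v / 2) = 1 := by
      rw [← Real.exp_add, ← add_div, add_neg_cancel, zero_div, Real.exp_zero]
    rw [abs_of_nonneg h0]
    exact le_add_of_le_of_nonneg (by nlinarith [Real.exp_pos (-v / 2)]) (by positivity)
  · refine le_add_of_nonneg_of_le zero_le_two (mul_le_mul ?_ (Real.exp_le_exp.2 (by linarith))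
      (Real.exp_pos _).le (abs_nonneg _))
    rw [abs_of_nonpos h0]
    linarith [neg_abs_le b]

theorem lc_gauss {g : X n → ℝ} (hg : LC g) (h0 : ∃ x, 0 < g x) {ε : ℝ} (hε : 0 < ε) :
    EntIneq (∫ x, g x * Real.exp (-(ε / 2 * nsq x)))
      (Matrix.of fun a b => ∫ x, x a * x b * (g x * Real.exp (-(ε / 2 * nsq x))))
      (∫ x, Real.negMulLog (g x * Real.exp (-(ε / 2 * nsq x)))) := by
  obtain ⟨W, B, hW, hl⟩ := exists_infc hg h0
  choose U u1 u2 u3 u4 using fun m : ℕ => exists_moll (hW m).1 (hW m).2.1 (hW m).2.2.1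
    (Nat.one_div_pos_of_nat (n := m))
  have hP := fun m => lcc_pot (u1 m) (u2 m) (u3 m) hε
  have q0 : ∀ x : X n, 0 ≤ ε / 2 * nsq x := fun x => mul_nonneg (half_pos hε).le (nsq_nonneg x)
  have hb : ∀ m x, B - 1 + ε / 2 * nsq x ≤ U m x + ε / 2 * nsq x := fun m x => by
    have := Nat.one_div_le_one_div (α := ℝ) (Nat.zero_le m)
    norm_num at this
    have k := (abs_le.1 (u4 m x)).1
    rw [one_div] at k
    linarith [(hW m).2.2.2 x]
  have he : ∀ m x, Real.exp (-(U m x + ε / 2 * nsq x)) ≤
      Real.exp (-(B - 1)) * Real.exp (-(ε / 2 * nsq x)) := fun m x => by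
    rw [← Real.exp_add]
    exact Real.exp_le_exp.2 (by linarith [hb m x])
  have L := fun B => lcc_lim (B := B) (u := fun m x => Real.exp (-(U m x + ε / 2 * nsq x)))
    (u₀ := fun x => g x * Real.exp (-(ε / 2 * nsq x)))
    (fun m => Real.continuous_exp.comp (hP m).v2.1.continuous.neg) fun x => by
      have k : Tendsto (fun m => W m x - U m x) atTop (𝓝 0) :=
        squeeze_zero_norm (fun m => (abs_sub_comm _ _).trans_le (u4 m x))
          tendsto_one_div_add_atTop_nhds_zero_nat
      have k2 := ((hl x).mul ((Real.continuous_exp.tendsto 0).comp k)).mul_const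
        (Real.exp (-(ε / 2 * nsq x)))
      rw [Real.exp_zero, mul_one] at k2
      refine k2.congr fun m => ?_
      rw [Function.comp_apply, ← Real.exp_add, ← Real.exp_add]
      exact congrArg _ (by ring)
  obtain ⟨y, hy⟩ := h0
  refine EntIneq.lim (fun m => gen_ent (hP m))
    (L _ (fun _ v => v) (by fun_prop) (Integrable.const_mul (by
      simpa using integrable_gauss_poly (n := n) (half_pos hε) 0) _) fun m x =>
        (abs_of_pos (Real.exp_pos _)).trans_le (he m x))
    (Continuous.integral_pos_of_hasCompactSupport_nonneg_nonzero (x := y)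
      (hg.cont.mul (Real.continuous_exp.comp (continuous_const.mul sm_nsq.continuous).neg))
      hg.supp.mul_right (fun x => mul_nonneg (hg.nonneg x) (Real.exp_pos _).le)
      (mul_pos hy (Real.exp_pos _)).ne').ne'
    (fun i j => L _ (fun x v => x i * x j * v) (by fun_prop)
      ((integrable_gauss_poly (half_pos hε) 2).const_mul (Real.exp (-(B - 1)))) fun m x => ?_)
    ((L (fun x => (2 + |B - 1| * Real.exp (-(B - 1) / 2)) * Real.exp (-(B - 1) / 2) *
      Real.exp (-(ε / 2 / 2 * nsq x))) (fun _ v => Real.negMulLog v) (by fun_prop)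
      (Integrable.const_mul (by
        simpa using integrable_gauss_poly (n := n) (half_pos (half_pos hε)) 0) _)
      fun m x => ?_).congr fun m => ?_)
  · have k : ∀ i, |x i| ≤ 1 + ‖x‖ := fun i => le_add_of_nonneg_of_le zero_le_one (norm_le_pi_norm x i)
    rw [abs_mul, abs_mul, abs_of_pos (Real.exp_pos _), sq, mul_left_comm]
    exact mul_le_mul (mul_le_mul (k i) (k j) (abs_nonneg _) (by positivity)) (he m x)
      (Real.exp_pos _).le (by positivity)
  · have k := lcc_bd (q0 x) (hb m x)
    rwa [Real.negMulLog, Real.log_exp, neg_mul_neg, mul_comm, div_mul_eq_mul_div (ε / 2)]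
  · simp only [Real.negMulLog, Real.log_exp, neg_mul_neg, mul_comm]

theorem lc_ent {g : X n → ℝ} (hg : LC g) (h0 : ∃ x, 0 < g x) :
    EntIneq (∫ x, g x) (Matrix.of fun a b => ∫ x, x a * x b * g x)
      (∫ x, Real.negMulLog (g x)) := by
  obtain ⟨M, hM⟩ := hg.cont.bounded_above_of_compact_support hg.supp
  have L : ∀ G : X n → ℝ → ℝ, (Continuous fun p : X n × ℝ => G p.1 p.2) → (∀ x, G x 0 = 0) →
      Tendsto (fun m : ℕ => ∫ x, G x (g x * Real.exp (-(1 / ((m : ℝ) + 1) / 2 * nsq x)))) atTop
        (𝓝 (∫ x, G x (g x))) := fun G hG G0 => by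
    obtain ⟨C, hC⟩ := (hg.supp.isCompact.prod (isCompact_Icc (a := 0) (b := M))
      ).exists_bound_of_continuousOn hG.continuousOn
    refine lcc_lim (u := fun m x => g x * Real.exp (-(1 / ((m : ℝ) + 1) / 2 * nsq x)))
      (B := (tsupport g).indicator fun _ => C) (fun m => hg.cont.mul
      (Real.continuous_exp.comp (continuous_const.mul sm_nsq.continuous).neg)) (fun x => ?_) G hG
      ((integrable_indicator_iff (isClosed_tsupport g).measurableSet).2
        (continuousOn_const.integrableOn_compact hg.supp.isCompact)) fun m x => ?_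
    · simpa using ((Real.continuous_exp.tendsto _).comp (((tendsto_one_div_add_atTop_nhds_zero_nat
        (𝕜 := ℝ)).div_const 2).mul_const (nsq x)).neg).const_mul (g x)
    · by_cases hx : x ∈ tsupport g
      · rw [indicator_of_mem hx]
        refine hC (x, _) ⟨hx, mul_nonneg (hg.nonneg x) (Real.exp_pos _).le,
          (mul_le_of_le_one_right (hg.nonneg x) (Real.exp_le_one_iff.2 (neg_nonpos.2 ?_))).trans
            ((le_abs_self _).trans (hM x))⟩
        exact mul_nonneg (by positivity) (nsq_nonneg x)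
      · rw [indicator_of_notMem hx, image_eq_zero_of_notMem_tsupport hx, zero_mul, G0, abs_zero]
  obtain ⟨y, hy⟩ := h0
  exact EntIneq.lim (fun m : ℕ => lc_gauss hg ⟨y, hy⟩ (Nat.one_div_pos_of_nat (n := m)))
    (L (fun _ v => v) (by fun_prop) fun _ => rfl)
    (hg.cont.integral_pos_of_hasCompactSupport_nonneg_nonzero hg.supp hg.nonneg hy.ne').ne'
    (fun i j => L (fun x v => x i * x j * v) (by fun_prop) fun _ => mul_zero _)
    (L (fun _ v => Real.negMulLog v) (by fun_prop) fun _ => Real.negMulLog_zero)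

end Vale.Agent.P254.S
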