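import Vale.Agent.P254.S.DifA
import Vale.Agent.P254.S.DifB
import Vale.Agent.P254.S.Lc

/-! # P254 S/DifC

TASK, helper names start with dc_.
cg_ent: g = cg K, v = vol K, Z = v², lam = 1 - t/2.  Z = lam^n ∫ g (lam • z) (Measure.integral_comp_smul).  With c = lam^n (lam/(1-t))^(n(1-t)) 2^(-n t): lam^n g (lam • z) ≥ c g^(1-t) v^t = g exp (log c + t (log v - log g)) ≥ g (1 + log c + t log v) + t negMulLog g
(trivial when g z = 0).  Integrate: t (H + Z log v) ≤ - Z log c, and - log c = n (- log lam + (1-t) log ((1-t)/lam) + t log 2) ≤ n (t² + t log 2) by log x ≤ x - 1 (the first two terms are ≤ (t/2)/lam - (1-t)(t/2)/lam = t²/(2 lam)).  Let t → 0.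
general: lc_ent for cg K, cg_mass, cg_mom: det (2 • cov) = 2^n det cov ≤ rC^n v^4 exp (2 (n log 2 - log v)) = rC^n v² 4^n.
-/

set_option linter.unusedSectionVars false
set_option linter.unusedVariables false

namespace Vale.Agent.P254.S

open Vale.Agent.P227
open scoped ContDiff
open MeasureTheory Set Filter Topology Matrix

variable {n : ℕ}

theorem dc_pt (n : ℕ) {g v t G : ℝ} (hg : 0 ≤ g) (hv : 0 < v) (h0 : 0 < t) (h1 : t < 1)
    (h : (((1 - t / 2) / (1 - t)) ^ n * g) ^ (1 - t) * ((1 / 2) ^ n * v) ^ t ≤ G) :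
    g * (1 + (n * Real.log (1 - t / 2) + (1 - t) * (n * Real.log ((1 - t / 2) / (1 - t)))
      - t * (n * Real.log 2)) + t * Real.log v) + t * Real.negMulLog g ≤ (1 - t / 2) ^ n * G := by
  have hl : 0 < 1 - t / 2 := by linarith
  have h1' : 0 < 1 - t := by linarith
  have hq : 0 < (1 - t / 2) / (1 - t) := div_pos hl h1'
  rcases hg.eq_or_lt with rfl | hg
  · have : 0 ≤ G := le_trans (by positivity) h
    simp only [zero_mul, Real.negMulLog_zero, mul_zero, add_zero]
    positivity
  · have hA : 0 < ((1 - t / 2) / (1 - t)) ^ n * g := by positivity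
    have hB : 0 < (1 / 2 : ℝ) ^ n * v := by positivity
    rw [Real.rpow_def_of_pos hA, Real.rpow_def_of_pos hB, Real.log_mul (by positivity) hg.ne',
      Real.log_mul (by positivity) hv.ne', Real.log_pow, Real.log_pow, one_div, Real.log_inv] at h
    have e1 : (1 - t / 2) ^ n = Real.exp (n * Real.log (1 - t / 2)) := by
      rw [← Real.log_pow, Real.exp_log (by positivity)]
    set a := Real.log (1 - t / 2)
    set b := Real.log ((1 - t / 2) / (1 - t))
    set s := (n * a + (1 - t) * (n * b) - t * (n * Real.log 2)) + t * Real.log v - t * Real.log g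
      with hs
    have e2 : g * Real.exp s = Real.exp (n * a) * (Real.exp ((n * b + Real.log g) * (1 - t))
        * Real.exp ((n * -Real.log 2 + Real.log v) * t)) := by
      have e3 : g * Real.exp s = Real.exp (Real.log g + s) := by
        rw [Real.exp_add, Real.exp_log hg]
      rw [e3, ← Real.exp_add, ← Real.exp_add]
      congr 1
      rw [hs]; ring
    have e4 : g * (s + 1) ≤ g * Real.exp s := mul_le_mul_of_nonneg_left (Real.add_one_le_exp s) hg.le
    have e5 := mul_le_mul_of_nonneg_left h (Real.exp_pos (n * a)).le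
    rw [e1, Real.negMulLog]
    have e6 : g * (1 + (n * a + (1 - t) * (n * b) - t * (n * Real.log 2)) + t * Real.log v)
        + t * (-g * Real.log g) = g * (s + 1) := by
      rw [hs]; ring
    rw [e6]
    linarith

theorem dc_log {t : ℝ} (h0 : 0 < t) (h1 : t < 1) :
    -(t ^ 2) ≤ Real.log (1 - t / 2) + (1 - t) * Real.log ((1 - t / 2) / (1 - t)) := by
  have hl : 0 < 1 - t / 2 := by linarith
  have h1' : 0 < 1 - t := by linarith
  have a1 := Real.one_sub_inv_le_log_of_pos hl
  have a2 := Real.one_sub_inv_le_log_of_pos (div_pos hl h1')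
  rw [inv_div, div_eq_mul_inv] at a2
  set w := (1 - t / 2)⁻¹ with hw
  have hw1 : w * (1 - t / 2) = 1 := inv_mul_cancel₀ hl.ne'
  have hw0 : 0 < w := inv_pos.mpr hl
  have hw2 : w ≤ 2 := by nlinarith
  have a3 := mul_le_mul_of_nonneg_left a2 h1'.le
  have e : 1 - w + (1 - t) * (1 - (1 - t) * w) = -(t ^ 2 * w / 2) := by
    linear_combination (-(2 - t)) * hw1
  have a4 : t ^ 2 * w / 2 ≤ t ^ 2 := by nlinarith [sq_nonneg t]
  linarith

theorem dc_step {K : Set (X n)} (hK : IsBody K) {t : ℝ} (h0 : 0 < t) (h1 : t < 1) :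
    ∫ z, Real.negMulLog (cg K z)
      ≤ vol K ^ 2 * (n * Real.log 2 - Real.log (vol K)) + vol K ^ 2 * n * t := by
  have hg := lc_cg hK
  have hv := vol_pos hK
  have hl : 0 < 1 - t / 2 := by linarith
  have i1 : Integrable (cg K) := hg.cont.integrable_of_hasCompactSupport hg.supp
  have i2 : Integrable fun z => Real.negMulLog (cg K z) :=
    (Real.continuous_negMulLog.comp hg.cont).integrable_of_hasCompactSupport
      (hg.supp.comp_left Real.negMulLog_zero)
  have i3 : Integrable fun z => cg K ((1 - t / 2) • z) := i1.comp_smul hl.ne'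
  set L := n * Real.log (1 - t / 2) + (1 - t) * (n * Real.log ((1 - t / 2) / (1 - t)))
      - t * (n * Real.log 2) with hL
  have key : ∫ z, (cg K z * (1 + L + t * Real.log (vol K)) + t * Real.negMulLog (cg K z))
      ≤ ∫ z, (1 - t / 2) ^ n * cg K ((1 - t / 2) • z) :=
    integral_mono ((i1.mul_const _).add (i2.const_mul _)) (i3.const_mul _)
      fun z => dc_pt n (hg.nonneg z) hv h0 h1 (cg_scale hK h0 h1 z)
  rw [integral_add (i1.mul_const _) (i2.const_mul _), integral_mul_const, integral_const_mul,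
    integral_const_mul, Measure.integral_comp_smul volume (cg K), cg_mass hK.1] at key
  have hp : 0 < (1 - t / 2) ^ n := pow_pos hl n
  simp only [Module.finrank_fin_fun, smul_eq_mul] at key
  rw [abs_of_pos (inv_pos.mpr hp), ← mul_assoc, mul_inv_cancel₀ hp.ne', one_mul] at key
  have hLb : -(n * (t ^ 2 + t * Real.log 2)) ≤ L := by
    have := mul_le_mul_of_nonneg_left (dc_log h0 h1) (Nat.cast_nonneg (α := ℝ) n)
    rw [hL]; linarith
  have hZ : 0 < vol K ^ 2 := by positivity
  have h2 := mul_le_mul_of_nonneg_left hLb hZ.le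
  refine le_of_mul_le_mul_left ?_ h0
  nlinarith

theorem cg_ent {K : Set (X n)} (hK : IsBody K) :
    ∫ z, Real.negMulLog (cg K z) ≤ vol K ^ 2 * (n * Real.log 2 - Real.log (vol K)) := by
  have hv := vol_pos hK
  refine le_of_forall_pos_le_add fun ε hε => ?_
  have hc : 0 ≤ vol K ^ 2 * n := by positivity
  set c := vol K ^ 2 * n with hcd
  have ht0 : 0 < ε / (c + ε + 1) := by positivity
  have ht1 : ε / (c + ε + 1) < 1 := by
    rw [div_lt_one (by positivity)]; linarith
  have h := dc_step hK ht0 ht1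
  have h2 : c * (ε / (c + ε + 1)) ≤ ε := by
    rw [← mul_div_assoc, div_le_iff₀ (by positivity)]
    nlinarith
  linarith

theorem general {K : Set (X n)} (hK : IsBody K) : Phi K ≤ (2 * rC) ^ n := by
  have hv := vol_pos hK
  have h := lc_ent (lc_cg hK) ⟨0, by rw [cg_zero]; exact hv⟩
  have hE := cg_ent hK
  have hZ : 0 < vol K ^ 2 := by positivity
  have hr : 0 < rC := by unfold rC; positivity
  unfold EntIneq at h
  rw [cg_mass hK.1] at h
  have e : ((vol K ^ 2)⁻¹ • Matrix.of fun a b => ∫ x, x a * x b * cg K x) = (2 : ℝ) • cov K := by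
    ext a b
    simp only [Matrix.smul_apply, Matrix.of_apply, smul_eq_mul, cg_mom hK.1]
    field_simp
  rw [e, Matrix.det_smul, Fintype.card_fin] at h
  have h1 : 2 * (∫ z, Real.negMulLog (cg K z)) / vol K ^ 2
      ≤ 2 * (n * Real.log 2 - Real.log (vol K)) := by
    rw [div_le_iff₀ hZ]; nlinarith
  have h2 : Real.exp (2 * (n * Real.log 2 - Real.log (vol K))) = (2 ^ n / vol K) ^ 2 := by
    rw [← Real.log_pow, ← Real.log_div (by positivity) hv.ne',
      show (2 : ℝ) * Real.log (2 ^ n / vol K) = Real.log ((2 ^ n / vol K) ^ 2) by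
        rw [Real.log_pow]; norm_num, Real.exp_log (by positivity)]
  have h3 := Real.exp_le_exp.mpr h1
  rw [h2] at h3
  have h4 := h.trans (mul_le_mul_of_nonneg_left h3 (by positivity))
  have e2 : rC ^ n * (vol K ^ 2) ^ 2 * (2 ^ n / vol K) ^ 2
      = 2 ^ n * ((2 * rC) ^ n * vol K ^ 2) := by
    rw [mul_pow 2 rC n]; field_simp
  rw [e2] at h4
  have h5 := le_of_mul_le_mul_left h4 (by positivity : (0 : ℝ) < 2 ^ n)
  unfold Phi
  rw [div_le_iff₀ hZ]
  exact h5

end Vale.Agent.P254.S
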