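import Vale.Agent.P254.S.Defs
import Vale.Agent.P254.Simp
import Vale.Agent.P254.Mom

/-! # P254 S/Smp

TASK, helper names start with smp_.
rC_le: Real.pi_gt_d6, exp (-x) = 1/exp x, exp (21/100) ≥ Taylor polynomial (Real.sum_le_exp_of_nonneg, 6 terms); rC = 0.12900849
Phi_simplex: simplex_iff, Phi_aff (T0 is compact: search P254 Basic/Hom), Am_cov gives det cov = 1 / det Am, Am = (n+1)(n+2) • (1 + ones), det_smul, det_one_add_replicateCol_mul_replicateRow (= 1 + n), vol_T0.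
num: base case 23 by norm_num [Nat.factorial]; the step m = n+1 needs r (m+1)² (m+2)^m ≤ m^(m+2): (1+2/m)^m ≤ exp 2 ≤ 7.39 (add_one_le_exp, pow, exp_one_lt_d9) and (1+1/m)² ≤ 1.0488 for m ≥ 42;
for 24 ≤ m < 42 interval_cases and norm_num.
-/

set_option linter.unusedSectionVars false
set_option linter.unusedVariables false

namespace Vale.Agent.P254.S

open Vale.Agent.P227
open scoped ContDiff
open MeasureTheory Set Filter Topology Matrix

variable {n : ℕ}

theorem rC_pos : 0 < rC := by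
  unfold rC
  have := Real.pi_pos
  positivity

theorem rC_le : rC ≤ 12901 / 100000 := by
  have h1 := Real.sum_le_exp_of_nonneg (x := 21 / 100) (by norm_num) 6
  have h2 : (1233677 / 1000000 : ℝ) ≤ Real.exp (21 / 100) := by
    refine le_trans ?_ h1
    simp only [Finset.sum_range_succ, Finset.sum_range_zero, Nat.factorial]
    norm_num
  have h3 := Real.pi_gt_d6
  rw [rC, Real.exp_neg, div_le_iff₀ (by positivity), inv_le_iff_one_le_mul₀ (Real.exp_pos _)]
  have h4 : (2 * 3.141592 : ℝ) * (1233677 / 1000000) ≤ 2 * Real.pi * Real.exp (21 / 100) :=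
    mul_le_mul (by linarith) h2 (by norm_num) (by positivity)
  nlinarith

theorem smp_det (n : ℕ) : (Am n).det = ((n : ℝ) + 1) ^ (n + 1) * (n + 2) ^ n := by
  have h : Am n = (((n : ℝ) + 1) * (n + 2)) • (1 + replicateCol Unit (fun _ : Fin n => (1 : ℝ)) *
      replicateRow Unit (fun _ : Fin n => (1 : ℝ))) := by
    ext i j
    simp [Am, Matrix.mul_apply, Matrix.one_apply]
  rw [h, det_smul, det_one_add_replicateCol_mul_replicateRow]
  simp only [Fintype.card_fin, dotProduct, mul_one, Finset.sum_const, Finset.card_univ,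
    nsmul_eq_mul, mul_pow]
  ring

theorem Phi_simplex (hn : 1 ≤ n) {T : Set (Fin n → ℝ)} (hT : IsSimplex T) :
    Phi T = (n.factorial : ℝ) ^ 2 / ((n + 1) ^ (n + 1) * (n + 2) ^ n) := by
  obtain ⟨M, b, hM, rfl⟩ := simplex_iff.1 hT
  rw [Phi_aff hM b isCompact_T0, Phi, vol_T0 hn]
  have h2 : (Am n).det * (cov (T0 n)).det = 1 := by rw [← det_mul, Am_cov hn, det_one]
  rw [smp_det] at h2
  have h3 : ((n : ℝ) + 1) ^ (n + 1) * (n + 2) ^ n ≠ 0 := by positivity
  have h4 : (n.factorial : ℝ) ≠ 0 := by positivity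
  rw [eq_inv_of_mul_eq_one_right h2]
  field_simp

theorem smp_step {m : ℕ} (hm : 24 ≤ m) :
    (12901 / 100000 : ℝ) * ((m : ℝ) + 1) ^ 2 * ((m : ℝ) + 2) ^ m ≤ (m : ℝ) ^ (m + 2) := by
  rcases lt_or_ge m 42 with h | h
  · interval_cases m <;> norm_num
  have h0 : (42 : ℝ) ≤ m := by exact_mod_cast h
  have h1 : (0 : ℝ) < m := by linarith
  have h2 : (m : ℝ) + 2 ≤ m * Real.exp (2 / m) := by
    have := mul_le_mul_of_nonneg_left (Real.add_one_le_exp (2 / (m : ℝ))) h1.le
    rw [mul_add, mul_div_cancel₀ _ h1.ne'] at this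
    linarith
  have h3 : ((m : ℝ) + 2) ^ m ≤ (m : ℝ) ^ m * (739 / 100) := by
    refine (pow_le_pow_left₀ (by positivity) h2 m).trans ?_
    rw [mul_pow, ← Real.exp_nat_mul, mul_div_cancel₀ _ h1.ne']
    refine mul_le_mul_of_nonneg_left ?_ (by positivity)
    have h4 : Real.exp 2 = Real.exp 1 * Real.exp 1 := by rw [← Real.exp_add]; norm_num
    have h5 := Real.exp_one_lt_d9
    have h6 := Real.exp_pos 1
    nlinarith
  have h7 : ((m : ℝ) + 1) ^ 2 ≤ 10488 / 10000 * (m : ℝ) ^ 2 := by nlinarith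
  calc _ ≤ (12901 / 100000 : ℝ) * (10488 / 10000 * (m : ℝ) ^ 2) * ((m : ℝ) ^ m * (739 / 100)) := by
        gcongr
    _ = (12901 / 100000 * (10488 / 10000) * (739 / 100)) * (m : ℝ) ^ (m + 2) := by ring
    _ ≤ 1 * (m : ℝ) ^ (m + 2) := mul_le_mul_of_nonneg_right (by norm_num) (by positivity)
    _ = _ := one_mul _

theorem num (hn : 23 ≤ n) :
    (12901 / 100000 : ℝ) ^ n < (n.factorial : ℝ) ^ 2 / ((n + 1) ^ (n + 1) * (n + 2) ^ n) := by
  induction n, hn using Nat.le_induction with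
  | base => norm_num [Nat.factorial]
  | succ k hk ih =>
    have h1 := smp_step (m := k + 1) (by omega)
    have h0 : (0 : ℝ) < k.factorial := by positivity
    rw [lt_div_iff₀ (by positivity)] at ih ⊢
    rw [Nat.factorial_succ]
    push_cast at h1 ⊢
    have h2 : (0 : ℝ) < ((k : ℝ) + 1) ^ (k + 1) := by positivity
    refine lt_of_mul_lt_mul_right ?_ h2.le
    calc _ = (12901 / 100000 : ℝ) ^ k * ((k : ℝ) + 1) ^ (k + 1) * ((k : ℝ) + 2) ^ k *
          (12901 / 100000 * ((k : ℝ) + 1 + 1) ^ 2 * ((k : ℝ) + 1 + 2) ^ (k + 1)) := by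
          rw [show (k : ℝ) + 1 + 1 = k + 2 by ring]
          ring
      _ ≤ (12901 / 100000 : ℝ) ^ k * ((k : ℝ) + 1) ^ (k + 1) * ((k : ℝ) + 2) ^ k *
          ((k : ℝ) + 1) ^ (k + 1 + 2) := mul_le_mul_of_nonneg_left h1 (by positivity)
      _ < (k.factorial : ℝ) ^ 2 * ((k : ℝ) + 1) ^ (k + 1 + 2) :=
          mul_lt_mul_of_pos_right (by rwa [mul_assoc]) (by positivity)
      _ = _ := by ring

end Vale.Agent.P254.S
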