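import Vale.Agent.P254.S.Body
import Vale.Agent.P254.S.Smp

/-! # P254 S/Final

OWNER helper53.
-/

set_option linter.unusedSectionVars false
set_option linter.unusedVariables false

namespace Vale.Agent.P254.S

open Vale.Agent.P227
open scoped ContDiff
open MeasureTheory Set Filter Topology Matrix

variable {n : ℕ}

theorem final (hn : 1 ≤ n) {K : Set (Fin n → ℝ)} (hK : IsBody K) {c : Fin n → ℝ}
    (hs : ∀ x ∈ K, c + c - x ∈ K) : isoConst K ≤ 3592 / 10000 ∧
      (23 ≤ n → ∀ T : Set (Fin n → ℝ), IsSimplex T → isoConst K < isoConst T) := by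
  have h1 : Phi K ≤ (12901 / 100000 : ℝ) ^ n :=
    (body hK hs).trans (pow_le_pow_left₀ rC_pos.le rC_le n)
  have h0 := Phi_nonneg hK.1
  have hn' : (0 : ℝ) < n := by exact_mod_cast hn
  have he : (0 : ℝ) < 1 / (2 * n) := by positivity
  refine ⟨?_, fun h23 T hT => ?_⟩
  · have h2 : Phi K ≤ ((3592 / 10000 : ℝ) ^ 2) ^ n :=
      h1.trans (pow_le_pow_left₀ (by norm_num) (by norm_num) n)
    refine (Real.rpow_le_rpow h0 h2 he.le).trans (le_of_eq ?_)
    rw [← pow_mul, ← Real.rpow_natCast, ← Real.rpow_mul (by norm_num)]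
    push_cast
    rw [mul_one_div_cancel (by positivity), Real.rpow_one]
  · exact Real.rpow_lt_rpow h0 (h1.trans_lt ((num h23).trans_eq (Phi_simplex hn hT).symm)) he

end Vale.Agent.P254.S
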