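import Vale.Agent.P254.S.Final
import Vale.Agent.P254.S.DifC

/-! # P254 S/Final2

OWNER helper53.
-/

set_option linter.unusedSectionVars false
set_option linter.unusedVariables false

namespace Vale.Agent.P254.S

open Vale.Agent.P227
open scoped ContDiff
open MeasureTheory Set Filter Topology Matrix

variable {n : ℕ}

theorem final2 (hn : 1 ≤ n) {K : Set (Fin n → ℝ)} (hK : IsBody K) : isoConst K ≤ 508 / 1000 := by
  have h0 := Phi_nonneg hK.1
  have hn' : (0 : ℝ) < n := by exact_mod_cast hn
  have he : (0 : ℝ) < 1 / (2 * n) := by positivity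
  have h2 : Phi K ≤ ((508 / 1000 : ℝ) ^ 2) ^ n :=
    (general hK).trans (pow_le_pow_left₀ (by linarith [rC_pos]) (by linarith [rC_le]) n)
  refine (Real.rpow_le_rpow h0 h2 he.le).trans (le_of_eq ?_)
  rw [← pow_mul, ← Real.rpow_natCast, ← Real.rpow_mul (by norm_num)]
  push_cast
  rw [mul_one_div_cancel (by positivity), Real.rpow_one]

end Vale.Agent.P254.S
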