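import Vale.Agent.P254.S.Defs
import Vale.Agent.P227.Mat

/-! # P254 S/Frame

TASK, helper names start with fr_.
exists_frame: Matrix.IsHermitian.spectral_theorem / eigenvectorUnitary, PosDef.eigenvalues_pos (see P227 Mat exists_frame for the idiom).
Frame.eq: U * (Uᵀ F U) * Uᵀ = F.  logdet_frame: conjugate by U: Uᵀ τ⁻¹ U = diagonal lam⁻¹, det U ^ 2 = 1, det_diagonal, Real.log_prod,
a / lam + b = (a + b lam) / lam.  MF.ev: F p = U diagonal (f lam) Uᵀ for a frame of τ p = τ (-p) (transport the frame along the equality, or build it by hand).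
rot is linear in Y; pd_add, pd_const_mul (P227 Calc).
-/

set_option linter.unusedSectionVars false
set_option linter.unusedVariables false

namespace Vale.Agent.P254.S

open Vale.Agent.P227
open scoped ContDiff
open MeasureTheory Set Filter Topology Matrix

variable {n : ℕ}

theorem exists_frame {τ : Mat n} (h : τ.PosDef) : Nonempty (Frame τ) := by
  have hH := h.isHermitian
  have h1 := hH.conjStarAlgAut_star_eigenvectorUnitary
  rw [Unitary.conjStarAlgAut_star_apply] at h1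
  refine ⟨⟨hH.eigenvectorUnitary, hH.eigenvalues, ?_, ?_, h.eigenvalues_pos⟩⟩
  · have h2 := Unitary.coe_mul_star_self hH.eigenvectorUnitary
    rwa [Unitary.coe_star, star_eq_conjTranspose, conjTranspose_eq_transpose_of_trivial] at h2
  · rw [star_eq_conjTranspose, conjTranspose_eq_transpose_of_trivial] at h1
    exact h1

theorem Frame.orth' {τ : Mat n} (Φ : Frame τ) : Φ.Uᵀ * Φ.U = 1 := by
  exact mul_eq_one_comm.1 Φ.orth

theorem Frame.eq {τ : Mat n} (Φ : Frame τ) {F D : Mat n} (h : Φ.Uᵀ * F * Φ.U = D) :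
    F = Φ.U * D * Φ.Uᵀ := by
  rw [← h]
  calc F = (Φ.U * Φ.Uᵀ) * F * (Φ.U * Φ.Uᵀ) := by rw [Φ.orth, Matrix.one_mul, Matrix.mul_one]
    _ = _ := by simp only [Matrix.mul_assoc]

theorem logdet_frame {τ : Mat n} (Φ : Frame τ) :
    Real.log ((16 / 25 : ℝ) • τ⁻¹ + (8 / 25 : ℝ) • (1 : Mat n)).det = ∑ i, ell (Φ.lam i) := by
  have h1 : τ⁻¹ = Φ.U * diagonal (fun i => (Φ.lam i)⁻¹) * Φ.Uᵀ := by
    apply Matrix.inv_eq_left_inv
    calc Φ.U * diagonal (fun i => (Φ.lam i)⁻¹) * Φ.Uᵀ * τ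
        = Φ.U * diagonal (fun i => (Φ.lam i)⁻¹) * Φ.Uᵀ * (Φ.U * diagonal Φ.lam * Φ.Uᵀ) :=
          congrArg _ (Φ.eq Φ.diag)
      _ = Φ.U * (diagonal (fun i => (Φ.lam i)⁻¹) * (Φ.Uᵀ * Φ.U) * diagonal Φ.lam) * Φ.Uᵀ := by
          simp only [Matrix.mul_assoc]
      _ = 1 := by
          rw [Φ.orth', Matrix.mul_one, diagonal_mul_diagonal]
          have : (fun i => (Φ.lam i)⁻¹ * Φ.lam i) = fun _ => (1 : ℝ) :=
            funext fun i => inv_mul_cancel₀ (Φ.pos i).ne'
          rw [this, diagonal_one, Matrix.mul_one, Φ.orth]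
  have h2 : (16 / 25 : ℝ) • τ⁻¹ + (8 / 25 : ℝ) • (1 : Mat n) =
      Φ.U * diagonal (fun i => 16 / 25 * (Φ.lam i)⁻¹ + 8 / 25) * Φ.Uᵀ := by
    have h3 : diagonal (fun i => 16 / 25 * (Φ.lam i)⁻¹ + 8 / 25) =
        (16 / 25 : ℝ) • diagonal (fun i => (Φ.lam i)⁻¹) + (8 / 25 : ℝ) • (1 : Mat n) := by
      ext i j
      by_cases hij : i = j
      · subst hij; simp
      · simp [hij]
    rw [h3, Matrix.mul_add, Matrix.add_mul, Matrix.mul_smul, Matrix.smul_mul, Matrix.mul_smul,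
      Matrix.smul_mul, Matrix.mul_one, Φ.orth, ← h1]
  have h4 : Φ.U.det * Φ.Uᵀ.det = 1 := by rw [← det_mul, Φ.orth, det_one]
  rw [h2, det_mul, det_mul, mul_right_comm, h4, one_mul, det_diagonal, Real.log_prod]
  · refine Finset.sum_congr rfl fun i _ => ?_
    have hp := Φ.pos i
    rw [ell, ← Real.log_div (by positivity) hp.ne']
    congr 1
    field_simp
  · intro i _
    have hp := Φ.pos i
    positivity

theorem rot_eq (U : Mat n) (Y : T3 n ℝ) (i k l : Fin n) :
    rot U Y i k l = ∑ c, U c i * (Uᵀ * Matrix.of (Y c) * U) k l := by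
  unfold rot
  refine Finset.sum_congr rfl fun c _ => ?_
  simp only [Matrix.mul_apply, transpose_apply, of_apply, Finset.sum_mul, Finset.mul_sum]
  rw [Finset.sum_comm]
  exact Finset.sum_congr rfl fun a _ => Finset.sum_congr rfl fun b _ => by ring

theorem Fld.posDef {τ : X n → Mat n} (h : Fld τ) (x : X n) : (τ x).PosDef := by
  obtain ⟨c, hc, hl⟩ := h.lb
  exact (hl x).posDef hc (h.symm x)

theorem MF.ev {τ F : X n → Mat n} {f : ℝ → ℝ} {f2 : ℝ → ℝ → ℝ} (h : MF τ F f f2) (hτ : Fld τ)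
    (he : ∀ x, τ (-x) = τ x) (k l : Fin n) : Ev fun x => F x k l := by
  intro x
  obtain ⟨Φ⟩ := exists_frame (hτ.posDef x)
  let Ψ : Frame (τ (-x)) := ⟨Φ.U, Φ.lam, Φ.orth, by rw [he x]; exact Φ.diag, Φ.pos⟩
  have h1 := Φ.eq (h x Φ).1
  have h2 := Ψ.eq (h (-x) Ψ).1
  change F (-x) k l = F x k l
  rw [h1, h2]

theorem MF.self (τ : X n → Mat n) : MF τ τ (fun a => a) fun _ _ => 1 := by
  intro p Φ
  exact ⟨Φ.diag, fun i k l => (one_mul _).symm⟩

theorem MF.add {τ F G : X n → Mat n} {f g : ℝ → ℝ} {f2 g2 : ℝ → ℝ → ℝ} (hF : MF τ F f f2)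
    (hG : MF τ G g g2) (sF : ∀ a b, Sm fun x => F x a b) (sG : ∀ a b, Sm fun x => G x a b) :
    MF τ (fun x => F x + G x) (fun a => f a + g a) fun a b => f2 a b + g2 a b := by
  intro p Φ
  refine ⟨?_, fun i k l => ?_⟩
  · rw [Matrix.mul_add, Matrix.add_mul, (hF p Φ).1, (hG p Φ).1, diagonal_add]
  · have h1 : (fun c a b => pd c (fun y => (F y + G y) a b) p) = fun c a b =>
        pd c (fun y => F y a b) p + pd c (fun y => G y a b) p := by
      funext c a b
      exact pd_add ((sF a b).diff p) ((sG a b).diff p) c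
    rw [h1, add_mul, ← (hF p Φ).2 i k l, ← (hG p Φ).2 i k l]
    simp only [rot, mul_add, Finset.sum_add_distrib]

theorem MF.smul {τ F : X n → Mat n} {f : ℝ → ℝ} {f2 : ℝ → ℝ → ℝ} (hF : MF τ F f f2)
    (sF : ∀ a b, Sm fun x => F x a b) (c : ℝ) :
    MF τ (fun x => c • F x) (fun a => c * f a) fun a b => c * f2 a b := by
  intro p Φ
  refine ⟨?_, fun i k l => ?_⟩
  · rw [Matrix.mul_smul, Matrix.smul_mul, (hF p Φ).1, ← diagonal_smul]
    rfl
  · have h1 : (fun d a b => pd d (fun y => (c • F y) a b) p) = fun d a b =>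
        c * pd d (fun y => F y a b) p := by
      funext d a b
      exact pd_const_mul ((sF a b).diff p) c d
    rw [h1, mul_assoc, ← (hF p Φ).2 i k l]
    simp only [rot, Finset.mul_sum]
    exact Finset.sum_congr rfl fun _ _ => Finset.sum_congr rfl fun _ _ =>
      Finset.sum_congr rfl fun _ _ => by ring

end Vale.Agent.P254.S
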