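import Vale.Agent.P254.S.Defs
import Vale.Agent.P254.Aff

/-! # P254 S/GDefs

Definitions for the bound on arbitrary convex bodies (FROZEN, owner helper53): apply the entropy bound to the covariogram.
-/

set_option linter.unusedSectionVars false
set_option linter.unusedVariables false

namespace Vale.Agent.P254.S

open Vale.Agent.P227
open scoped ContDiff
open MeasureTheory Set Filter Topology Matrix

variable {n : ℕ}

/-- Even log-concave continuous functions of compact support. -/
structure LC (g : X n → ℝ) : Prop where
  cont : Continuous g
  supp : HasCompactSupport g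
  nonneg : ∀ x, 0 ≤ g x
  ev : Ev g
  lc : ∀ (x y : X n) (t : ℝ), 0 < t → t < 1 → g x ^ (1 - t) * g y ^ t ≤ g ((1 - t) • x + t • y)

/-- The covariogram. -/
noncomputable def cg (K : Set (X n)) (z : X n) : ℝ := vol (K ∩ {x | x - z ∈ K})

end Vale.Agent.P254.S
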