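import Vale.Agent.P254.S.Iso
import Vale.Agent.P227.LinChange

/-! # P254 S/Gen

TASK, helper names start with gen_.
Z = ∫ e^{-V} > 0 (integral_exp_pos), Σ = Z⁻¹ • M is positive definite (ξᵀ M ξ = ∫ (ξ·x)² e^{-V} > 0 for ξ ≠ 0: Continuous.integral_pos_of_hasCompactSupport.. or integral_pos_iff_support_of_nonneg), Σ = Dᵀ * D (exists_sq), A = Dᵀ, det A ≠ 0.
V' y = V (A *ᵥ y) + log (Z / |det A|) is Pot (sm_linear, lc_bdd, hess_linear, lc_nsq).  Linear change of variables: ∫ f (A y) dy = |det A|⁻¹ ∫ f (integral_comp_linear / Real.map_matrix_volume_pi_eq_smul_volume_pi / integral_image_eq_integral_abs_det_fderiv_smul).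
So ∫ e^{-V'} = 1, ∫ y a y b e^{-V'} = (A⁻¹ Σ A⁻¹ᵀ) a b = δ, ∫ V' e^{-V'} = H/Z + log Z - log |det A|.  iso_ent, exponentiate: det Σ = (det A)² ≤ Z² exp (2H/Z) exp (- n (log 2π + 21/100)) and exp (-(log 2π + 21/100)) = rC.
EntIneq.lim: le_of_tendsto_of_tendsto', tendsto_det (P227 MatDiff).
-/

set_option linter.unusedSectionVars false
set_option linter.unusedVariables false

namespace Vale.Agent.P254.S

open Vale.Agent.P227
open scoped ContDiff
open MeasureTheory Set Filter Topology Matrix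

variable {n : ℕ}

theorem gen_cv {A : Mat n} (hA : A.det ≠ 0) {f : X n → ℝ} (hf : Continuous f) :
    ∫ y, f (A *ᵥ y) = |A.det|⁻¹ * ∫ x, f x := by
  have h1 : Continuous (toLin' A : X n → X n) := LinearMap.continuous_of_finiteDimensional _
  have h2 := integral_map (μ := volume) h1.aemeasurable hf.aestronglyMeasurable
  rw [Real.map_matrix_volume_pi_eq_smul_volume_pi hA, integral_smul_measure,
    ENNReal.toReal_ofReal (abs_nonneg _), abs_inv, smul_eq_mul] at h2
  exact h2.symm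

theorem gen_bil {V : X n → ℝ} (hV : Pot V) (ξ η : X n) :
    ∫ x, (ξ ⬝ᵥ x) * (η ⬝ᵥ x) * Real.exp (-V x) =
      ξ ⬝ᵥ (Matrix.of fun a b => ∫ x, x a * x b * Real.exp (-V x)) *ᵥ η := by
  have hi : ∀ a b, Integrable fun x : X n => ξ a * (x a * x b * Real.exp (-V x) * η b) :=
    fun a b => ((((PG.coord a).mul (PG.coord b)).integrable hV.v2.1.cont hV.coer).mul_const
      _).const_mul _
  have h1 : ∀ x : X n, (ξ ⬝ᵥ x) * (η ⬝ᵥ x) * Real.exp (-V x) =
      ∑ a, ∑ b, ξ a * (x a * x b * Real.exp (-V x) * η b) := fun x => by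
    rw [dotProduct, dotProduct, Finset.sum_mul_sum, Finset.sum_mul]
    refine Finset.sum_congr rfl fun a _ => ?_
    rw [Finset.sum_mul]
    exact Finset.sum_congr rfl fun b _ => by ring
  simp_rw [h1]
  rw [integral_finsetSum _ fun a _ => integrable_finsetSum _ fun b _ => hi a b, dotProduct]
  refine Finset.sum_congr rfl fun a _ => ?_
  rw [integral_finsetSum _ fun b _ => hi a b, mulVec, dotProduct, Finset.mul_sum]
  refine Finset.sum_congr rfl fun b _ => ?_
  rw [integral_const_mul, integral_mul_const, of_apply]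

theorem gen_pd {V : X n → ℝ} (hV : Pot V) :
    (Matrix.of fun a b => ∫ x, x a * x b * Real.exp (-V x) : Mat n).PosDef := by
  refine PosDef.of_dotProduct_mulVec_pos ?_ fun ξ hξ => ?_
  · ext a b
    simp only [conjTranspose_apply, of_apply, star_trivial, mul_comm]
  · have hp : PG fun x : X n => ξ ⬝ᵥ x := PG.sum _ fun i _ => (PG.coord i).const_mul _
    rw [star_trivial, ← gen_bil hV]
    refine integral_pos_of_integrable_nonneg_nonzero (x := ξ)
      ((hp.mul hp).1.cont.mul (Real.continuous_exp.comp hV.v2.1.cont.neg))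
      ((hp.mul hp).integrable hV.v2.1.cont hV.coer)
      (fun x => mul_nonneg (mul_self_nonneg _) (Real.exp_pos _).le) ?_
    have := dotProduct_self_eq_zero.not.2 hξ
    exact mul_ne_zero (mul_ne_zero this this) (Real.exp_pos _).ne'

theorem gen_pot {V : X n → ℝ} (hV : Pot V) {A : Mat n} (hA : IsUnit A.det) (c : ℝ) :
    Pot fun y => V (A *ᵥ y) + c := by
  have hs := hV.v2.1
  have h0 : V2 fun y => V (A *ᵥ y) := ⟨sm_linear hs A, fun l hl =>
    (lc_bdd (F := fun _ : Unit => V) A l (fun _ => hs) fun m hm =>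
      (hV.v2.2 m (hm ▸ hl)).imp fun _ h _ => h).imp fun _ h => h ()⟩
  refine ⟨h0.add ⟨contDiff_const, fun l hl => ⟨0, fun x => ?_⟩⟩, fun y => ?_, ?_⟩
  · rw [pds_const c (by rintro rfl; simp at hl)]
    simp
  · simp only [mulVec_neg, hV.ev _]
  · obtain ⟨c', hc, h⟩ := hV.lb
    have hK : 0 ≤ ∑ i, nsq (A⁻¹ i) := Finset.sum_nonneg fun i _ => nsq_nonneg _
    refine ⟨c' / (∑ i, nsq (A⁻¹ i) + 1), by positivity, fun y ξ => ?_⟩
    have h1 := lc_nsq A⁻¹ (A *ᵥ ξ)
    rw [mulVec_mulVec, nonsing_inv_mul _ hA, one_mulVec] at h1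
    have h2 := h (A *ᵥ y) (A *ᵥ ξ)
    have h4 : hess (fun y => V (A *ᵥ y) + c) y = hess (fun y => V (A *ᵥ y)) y := by
      ext i j
      have : pd j (fun y => V (A *ᵥ y) + c) = pd j fun y => V (A *ᵥ y) := by
        funext z
        simp only [pd, fderiv_add_const]
      rw [hess_apply, hess_apply, this]
    rw [h4, hess_linear hs, qf_eq_dot, ← mulVec_mulVec, ← mulVec_mulVec, dotProduct_mulVec,
      vecMul_transpose, ← qf_eq_dot, div_mul_eq_mul_div, div_le_iff₀ (by positivity)]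
    have h3 := nsq_nonneg (A *ᵥ ξ)
    nlinarith [mul_le_mul_of_nonneg_left h1 hc.le, mul_le_mul_of_nonneg_left h2 hK,
      mul_nonneg hc.le h3]

theorem gen_ent {V : X n → ℝ} (hV : Pot V) :
    EntIneq (∫ x, Real.exp (-V x)) (Matrix.of fun a b => ∫ x, x a * x b * Real.exp (-V x))
      (∫ x, V x * Real.exp (-V x)) := by
  have hc := hV.v2.1.cont
  have hZ := P227.integral_exp_pos hc hV.coer
  have hM := gen_pd hV
  have hb := gen_bil hV
  have hi0 : Integrable fun x => Real.exp (-V x) := by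
    simpa using (PG.const (ι := Fin n) 1).integrable hc hV.coer
  have hi1 := hV.v2.pg.integrable hc hV.coer
  have hZe : ∫ x, Real.exp (-V x) = ∫ x, Real.exp (-V x) := rfl
  have hHe : ∫ x, V x * Real.exp (-V x) = ∫ x, V x * Real.exp (-V x) := rfl
  generalize (Matrix.of fun a b => ∫ x, x a * x b * Real.exp (-V x) : Mat n) = M at hM hb ⊢
  revert hZe hHe hZ
  generalize hZe : ∫ x, Real.exp (-V x) = Z
  generalize hHe : ∫ x, V x * Real.exp (-V x) = H
  intro hZ _ _
  have hS : (Z⁻¹ • M).PosDef := hM.smul (inv_pos.2 hZ)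
  obtain ⟨D, hD⟩ := exists_sq hS.posSemidef
  have hd : (Z⁻¹ • M).det = |Dᵀ.det| ^ 2 := by rw [hD, det_mul, det_transpose, sq_abs, sq]
  have hA : Dᵀ.det ≠ 0 := fun h => hS.det_pos.ne' (by rw [hd, h]; simp)
  replace hD : Z⁻¹ • M = Dᵀ * Dᵀᵀ := hD
  generalize Dᵀ = A at hD hd hA
  have ha : 0 < |A.det| := abs_pos.2 hA
  have key : ∀ g : X n → ℝ, Continuous g →
      ∫ y, g (A *ᵥ y) * Real.exp (-(V (A *ᵥ y) + Real.log (Z / |A.det|))) =
        Z⁻¹ * ∫ x, g x * Real.exp (-V x) := fun g hg => by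
    rw [gen_cv hA (f := fun x => g x * Real.exp (-(V x + Real.log (Z / |A.det|)))) (by fun_prop)]
    simp only [neg_add, Real.exp_add, ← mul_assoc]
    rw [integral_mul_const, Real.exp_neg (Real.log _), Real.exp_log (by positivity)]
    field_simp
  have h1 := iso_ent (gen_pot hV hA.isUnit (Real.log (Z / |A.det|)))
    (by simpa [hZe, hZ.ne'] using key (fun _ => 1) continuous_const) fun a b => by
      have h2 := key (fun x => (A⁻¹ a ⬝ᵥ x) * (A⁻¹ b ⬝ᵥ x)) (by fun_prop)
      have h3 : ∀ (a : Fin n) (y : X n), A⁻¹ a ⬝ᵥ A *ᵥ y = y a := fun a y => by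
        have := congrFun (mulVec_mulVec y A⁻¹ A) a
        rwa [nonsing_inv_mul _ hA.isUnit, one_mulVec] at this
      simp only [h3] at h2
      have h4 : A⁻¹ * (Z⁻¹ • M) * A⁻¹ᵀ = 1 := by
        rw [hD, ← Matrix.mul_assoc A⁻¹, nonsing_inv_mul _ hA.isUnit, Matrix.one_mul, ← transpose_mul,
          nonsing_inv_mul _ hA.isUnit, transpose_one]
      rw [h2, hb, ← one_apply, ← h4, Matrix.mul_smul, Matrix.smul_mul, Matrix.smul_apply,
        Matrix.mul_assoc]
      rfl
  rw [key (fun x => V x + Real.log (Z / |A.det|)) (by fun_prop)] at h1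
  simp only [add_mul] at h1
  rw [integral_add hi1 (hi0.const_mul _), integral_const_mul, hZe, hHe,
    Real.log_div hZ.ne' ha.ne', mul_add, mul_add, mul_left_comm Z⁻¹, inv_mul_cancel₀ hZ.ne'] at h1
  have h5 : rC = Real.exp (-(21 / 100) - Real.log (2 * Real.pi)) := by
    rw [rC, Real.exp_sub, Real.exp_log (by positivity)]
  rw [EntIneq, hd, h5, ← Real.exp_log ha, ← Real.exp_log (pow_pos hZ 2), ← Real.exp_nat_mul,
    ← Real.exp_nat_mul, ← Real.exp_add, ← Real.exp_add, Real.exp_le_exp, Real.log_pow,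
    mul_div_assoc, div_eq_inv_mul H]
  push_cast
  linarith

theorem EntIneq.lim {β : Type} {F : Filter β} [F.NeBot] {Z H : β → ℝ} {M : β → Mat n} {Z₀ H₀ : ℝ}
    {M₀ : Mat n} (h : ∀ b, EntIneq (Z b) (M b) (H b)) (hZ : Tendsto Z F (𝓝 Z₀)) (h0 : Z₀ ≠ 0)
    (hM : ∀ i j, Tendsto (fun b => M b i j) F (𝓝 (M₀ i j))) (hH : Tendsto H F (𝓝 H₀)) :
    EntIneq Z₀ M₀ H₀ := by
  refine le_of_tendsto_of_tendsto' (tendsto_det (A := fun b => (Z b)⁻¹ • M b) fun i j =>
    (hZ.inv₀ h0).mul (hM i j)) ?_ h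
  exact ((hZ.pow 2).const_mul _).mul
    ((Real.continuous_exp.tendsto _).comp ((hH.const_mul 2).div hZ h0))

end Vale.Agent.P254.S
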