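import Vale.Agent.P254.S.Defs
import Vale.Agent.P227.Gauss

/-! # P254 S/Inv

TASK, helper names start with inv_.
grad u has derivative hess u x (HasFDerivAt from Sm; hasFDerivAt_pi, fderiv as a sum of pd).  grad_mono: r ↦ dot (grad u (y + r • (x - y))) (x - y) has derivative qf (hess ..) (x - y) ≥ c nsq (x - y).
So grad u is injective and antilipschitz, hence has closed range; the range is open by the inverse function theorem (HasStrictFDerivAt.map_nhds_eq_of_equiv, ContDiffAt.hasStrictFDerivAt), so it is onto (IsClopen.eq_univ).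
T = Function.invFun or Equiv.ofBijective; Lipschitz by grad_mono, dot_sq_le and the comparison of nsq with the sup norm; derivative by HasFDerivAt.of_local_left_inverse (Matrix.toLinearEquiv', toContinuousLinearEquiv).
cov_grad: integral_image_eq_integral_abs_det_fderiv_smul with s = univ, LinearMap.det_toLin', det_pos.
-/

set_option linter.unusedSectionVars false
set_option linter.unusedVariables false

namespace Vale.Agent.P254.S

open Vale.Agent.P227
open scoped ContDiff
open MeasureTheory Set Filter Topology Matrix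

variable {n : ℕ}

variable {u : X n → ℝ}

theorem hasFDerivAt_grad (hu : Sm u) (x : X n) :
    HasFDerivAt (grad u) (LinearMap.toContinuousLinearMap (Matrix.toLin' (hess u x))) x := by
  refine hasFDerivAt_pi'.mpr fun i => ?_
  have h1 : HasFDerivAt (pd i u) (fderiv ℝ (pd i u) x) x := ((hu.pd i).diff x).hasFDerivAt
  refine h1.congr_fderiv (ContinuousLinearMap.ext fun v => ?_)
  rw [fderiv_eq_sum]
  change _ = ∑ j, pd i (pd j u) x * v j
  exact Finset.sum_congr rfl fun j _ => by rw [pd_comm hu i j, mul_comm]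

theorem grad_mono (hu : Sm u) {c : ℝ} (hl : ∀ x, LB c (hess u x)) (x y : X n) :
    c * nsq (x - y) ≤ dot (grad u x - grad u y) (x - y) := by
  have hd : ∀ r : ℝ, HasDerivAt (fun r : ℝ => dot (grad u (y + r • (x - y))) (x - y))
      (qf (hess u (y + r • (x - y))) (x - y)) r := by
    intro r
    have h1 := HasDerivAt.fun_sum (u := Finset.univ) fun i _ =>
      (hasDerivAt_line ((hu.pd i).diff (y + r • (x - y)))).mul_const ((x - y) i)
    refine h1.congr_deriv ?_
    unfold qf
    rw [Finset.sum_comm]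
    refine Finset.sum_congr rfl fun i _ => ?_
    rw [Finset.sum_mul]
    refine Finset.sum_congr rfl fun j _ => ?_
    rw [hess_apply]
    ring
  obtain ⟨r, -, hr⟩ := exists_hasDerivAt_eq_slope _ _ zero_lt_one
    (fun r _ => (hd r).continuousAt.continuousWithinAt) fun r _ => hd r
  rw [one_smul, zero_smul, add_zero, add_sub_cancel, sub_zero, div_one] at hr
  refine (hl _ _).trans (hr.trans ?_).le
  simp only [dot, Pi.sub_apply, ← Finset.sum_sub_distrib, sub_mul]

theorem inv_anti (hu : Sm u) {c : ℝ} (hc : 0 < c) (hl : ∀ x, LB c (hess u x)) (x y : X n) :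
    ‖x - y‖ ≤ √n / c * ‖grad u x - grad u y‖ := by
  have h1 := grad_mono hu hl x y
  have h2 : dot (grad u x - grad u y) (x - y) ^ 2 ≤ nsq (grad u x - grad u y) * nsq (x - y) :=
    dot_sq_le _ _
  have h3 := norm_sq_le_nsq (x - y)
  have h4 := nsq_le_norm_sq (grad u x - grad u y)
  have h0 := nsq_nonneg (x - y)
  have h5 : c ^ 2 * nsq (x - y) ≤ nsq (grad u x - grad u y) := by
    rcases h0.eq_or_lt with h | h
    · rw [← h, mul_zero]
      exact nsq_nonneg _
    · have h6 := (pow_le_pow_left₀ (by positivity) h1 2).trans h2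
      refine le_of_mul_le_mul_right (le_of_eq_of_le ?_ h6) h
      ring
  refine le_of_sq_le_sq ?_ (by positivity)
  rw [mul_pow, div_pow, Real.sq_sqrt (Nat.cast_nonneg n), div_mul_eq_mul_div,
    le_div_iff₀ (by positivity)]
  nlinarith [mul_le_mul_of_nonneg_left h3 (sq_nonneg c)]

/-- The Hessian as an equivalence. -/
noncomputable def inv_eqv (A : Mat n) (h : IsUnit A.det) : X n ≃L[ℝ] X n :=
  ContinuousLinearEquiv.equivOfInverse (LinearMap.toContinuousLinearMap (Matrix.toLin' A))
    (LinearMap.toContinuousLinearMap (Matrix.toLin' A⁻¹))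
    (fun v => by
      change A⁻¹ *ᵥ (A *ᵥ v) = v
      rw [mulVec_mulVec, nonsing_inv_mul _ h, one_mulVec])
    (fun v => by
      change A *ᵥ (A⁻¹ *ᵥ v) = v
      rw [mulVec_mulVec, mul_nonsing_inv _ h, one_mulVec])

theorem inv_inj (hu : Sm u) {c : ℝ} (hc : 0 < c) (hl : ∀ x, LB c (hess u x)) :
    Function.Injective (grad u) := fun x y h => by
  have h1 := inv_anti hu hc hl x y
  rw [h, sub_self, norm_zero, mul_zero] at h1
  exact sub_eq_zero.mp (norm_le_zero_iff.mp h1)

theorem inv_surj (hu : Sm u) {c : ℝ} (hc : 0 < c) (hl : ∀ x, LB c (hess u x)) :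
    range (grad u) = univ := by
  have hs : ContDiff ℝ ∞ (grad u) := contDiff_pi.mpr fun i => hu.pd i
  have ha : AntilipschitzWith ⟨√n / c, by positivity⟩ (grad u) :=
    AntilipschitzWith.of_le_mul_dist fun x y => by
      rw [dist_eq_norm, dist_eq_norm]
      exact inv_anti hu hc hl x y
  have hp : IsProperMap (grad u) := by
    refine isProperMap_iff_tendsto_cocompact.mpr ⟨hs.continuous, ?_⟩
    rw [← Metric.cobounded_eq_cocompact]
    exact ha.tendsto_cobounded
  refine IsClopen.eq_univ ⟨hp.isClosedMap.isClosed_range, ?_⟩ (range_nonempty _)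
  refine isOpen_iff_mem_nhds.mpr ?_
  rintro _ ⟨x, rfl⟩
  have hd : IsUnit (hess u x).det := ((hl x).det_pos hc (hess_isSymm hu x)).ne'.isUnit
  have h1 : HasStrictFDerivAt (grad u) (inv_eqv _ hd : X n →L[ℝ] X n) x :=
    hs.contDiffAt.hasStrictFDerivAt' (hasFDerivAt_grad hu x) (by simp)
  rw [← h1.map_nhds_eq_of_equiv]
  exact range_mem_map

theorem exists_inv (hu : Sm u) (hl : ∃ c > 0, ∀ x, LB c (hess u x)) : ∃ T : X n → X n,
    (∀ x, T (grad u x) = x) ∧ (∀ z, grad u (T z) = z) ∧ (∃ L, ∀ z z', ‖T z - T z'‖ ≤ L * ‖z - z'‖) ∧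
      ∀ z, HasFDerivAt T (LinearMap.toContinuousLinearMap (Matrix.toLin' (tau u (T z)))) z := by
  obtain ⟨c, hc, hl⟩ := hl
  have hs : Function.Surjective (grad u) := range_eq_univ.mp (inv_surj hu hc hl)
  have hr : ∀ z, grad u (Function.surjInv hs z) = z := Function.surjInv_eq hs
  have hL : ∀ z z', ‖Function.surjInv hs z - Function.surjInv hs z'‖ ≤ √n / c * ‖z - z'‖ := by
    intro z z'
    have h1 := inv_anti hu hc hl (Function.surjInv hs z) (Function.surjInv hs z')
    rwa [hr, hr] at h1
  refine ⟨Function.surjInv hs, fun x => inv_inj hu hc hl (hr _), hr, ⟨_, hL⟩, fun z => ?_⟩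
  have hT : LipschitzWith ⟨√n / c, by positivity⟩ (Function.surjInv hs) :=
    LipschitzWith.of_dist_le_mul fun x y => by
      rw [dist_eq_norm, dist_eq_norm]
      exact hL x y
  have hd : IsUnit (hess u (Function.surjInv hs z)).det :=
    ((hl _).det_pos hc (hess_isSymm hu _)).ne'.isUnit
  exact HasFDerivAt.of_local_left_inverse (f' := inv_eqv _ hd) hT.continuous.continuousAt
    (hasFDerivAt_grad hu _) (Eventually.of_forall hr)

theorem cov_grad (hu : Sm u) (hl : ∃ c > 0, ∀ x, LB c (hess u x)) (F : X n → ℝ) :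
    ∫ z, F z = ∫ x, (hess u x).det * F (grad u x) := by
  obtain ⟨c, hc, hl⟩ := hl
  have h1 := integral_image_eq_integral_abs_det_fderiv_smul (volume : Measure (X n))
    MeasurableSet.univ (fun x _ => (hasFDerivAt_grad hu x).hasFDerivWithinAt)
    (inv_inj hu hc hl).injOn F
  rw [image_univ, inv_surj hu hc hl, Measure.restrict_univ] at h1
  rw [h1]
  refine integral_congr_ae (Eventually.of_forall fun x => ?_)
  have h2 : (LinearMap.toContinuousLinearMap (Matrix.toLin' (hess u x))).det = (hess u x).det :=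
    LinearMap.det_toLin' _
  change |_| • _ = _
  rw [h2, abs_of_pos ((hl x).det_pos hc (hess_isSymm hu x)), smul_eq_mul]

end Vale.Agent.P254.S
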