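import Vale.Agent.P254.S.Res
import Vale.Agent.P227.Param

/-! # P254 S/Log

TASK, helper names start with lg_.
H s x = (τ x - 1) * (cl 1 s • τ x + (1 - cl 1 s) • 1)⁻¹, Lg x = of fun i j => ∫ s in 0..1, H s x i j.  For fixed s, MF.mul, mf_res give
MF τ (H s) ((a-1)/(1+s(a-1))) (1/((1+s(a-1))(1+s(b-1)))).  The family H is JC (DS.inv with S := Qc as in JC.tau, continuous_inv_entry) and DS (Qb ⊤) (DS.inv_Qb, LB (min 1 c));
JC.family_integral gives smoothness and pds under the integral, so BS (norm_integral_le_of_norm_le_const).  Finite sums commute with the integral.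
∫ (a-1)/(1+s(a-1)) = log a by integral_eq_sub_of_hasDerivAt.  lg a b = ∫ s in 0..1, 1/((1+s(a-1))(1+s(b-1))); with r = √(a/b):
pointwise 2 p q ≤ r p² + q² / r for p = 1/(1+s(a-1)), and ∫ p² = 1/a, so lg ≤ 1/√(ab).
exists_F: F = 123/200 • τ + 39/100 • Lg + 19/10 • (1 • τ + 2 • 1)⁻¹ by MF.self, MF.add, MF.smul, MF.congr.
-/

set_option linter.unusedSectionVars false
set_option linter.unusedVariables false

namespace Vale.Agent.P254.S

open Vale.Agent.P227
open scoped ContDiff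
open MeasureTheory Set Filter Topology Matrix

variable {n : ℕ}

theorem lg_sum {Y : Fin n → ℝ → ℝ} (hY : ∀ k, Continuous (Y k)) :
    ∫ s in (0 : ℝ)..1, ∑ k, Y k s = ∑ k, ∫ s in (0 : ℝ)..1, Y k s :=
  intervalIntegral.integral_finsetSum fun k _ => (hY k).intervalIntegrable _ _

theorem lg_rot (U : Mat n) {Y : ℝ → T3 n ℝ} (hY : ∀ c a b, Continuous fun s => Y s c a b)
    (i k l : Fin n) : rot U (fun c a b => ∫ s in (0 : ℝ)..1, Y s c a b) i k l =
      ∫ s in (0 : ℝ)..1, rot U (Y s) i k l := by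
  simp only [rot]
  rw [lg_sum]
  · refine Finset.sum_congr rfl fun c _ => ?_
    rw [lg_sum]
    · refine Finset.sum_congr rfl fun a _ => ?_
      rw [lg_sum]
      · exact Finset.sum_congr rfl fun b _ => (intervalIntegral.integral_const_mul _ _).symm
      · exact fun b => continuous_const.mul (hY c a b)
    · exact fun a => continuous_finsetSum _ fun b _ => continuous_const.mul (hY c a b)
  · exact fun c => continuous_finsetSum _ fun a _ => continuous_finsetSum _ fun b _ =>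
      continuous_const.mul (hY c a b)

theorem lg_conj (U : Mat n) {M : ℝ → Mat n} (hM : ∀ a b, Continuous fun s => M s a b)
    (i j : Fin n) : (Uᵀ * (Matrix.of fun a b => ∫ s in (0 : ℝ)..1, M s a b) * U) i j =
      ∫ s in (0 : ℝ)..1, (Uᵀ * M s * U) i j := by
  simp only [mul_apply, of_apply, transpose_apply]
  rw [lg_sum]
  · refine Finset.sum_congr rfl fun b _ => ?_
    rw [intervalIntegral.integral_mul_const, lg_sum]
    · congr 1
      exact Finset.sum_congr rfl fun a _ => (intervalIntegral.integral_const_mul _ _).symm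
    · exact fun a => continuous_const.mul (hM a b)
  · exact fun b => (continuous_finsetSum _ fun a _ => continuous_const.mul (hM a b)).mul
      continuous_const

theorem lg_int {τ : X n → Mat n} {H : ℝ → X n → Mat n} {f : ℝ → ℝ → ℝ} {f2 : ℝ → ℝ → ℝ → ℝ}
    (hJ : ∀ i j, JC fun s x => H s x i j) (hH : ∀ s, MF τ (H s) (f s) (f2 s)) :
    MF τ (fun x => Matrix.of fun i j => ∫ s in (0 : ℝ)..1, H s x i j)
      (fun a => ∫ s in (0 : ℝ)..1, f s a) fun a b => ∫ s in (0 : ℝ)..1, f2 s a b := by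
  intro p Φ
  refine ⟨?_, fun i k l => ?_⟩
  · ext i j
    rw [lg_conj Φ.U (M := fun s => H s p) fun a b => (hJ a b).cont_time [] p]
    simp only [(hH _ p Φ).1, diagonal_apply]
    split_ifs <;> simp
  · have e : (fun c a b => pd c (fun y => (Matrix.of fun i j => ∫ s in (0 : ℝ)..1, H s y i j) a b) p)
        = fun c a b => ∫ s in (0 : ℝ)..1, pd c (fun y => H s y a b) p := by
      funext c a b
      exact (hJ a b).pds_integral 0 1 [c] p
    rw [e, lg_rot Φ.U (Y := fun s c a b => pd c (fun y => H s y a b) p)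
      fun c a b => (hJ a b).cont_time [c] p]
    simp only [(hH _ p Φ).2]
    exact intervalIntegral.integral_mul_const _ _

/-- The scalar resolvent. -/
noncomputable def lg_p (a s : ℝ) : ℝ := (cl 1 s * a + (1 - cl 1 s))⁻¹

theorem lg_pos {a σ : ℝ} (ha : 0 < a) (h : σ ∈ Icc (0 : ℝ) 1) : 0 < σ * a + (1 - σ) := by
  rcases h.1.eq_or_lt with e | e
  · rw [← e]
    norm_num
  · linarith [mul_pos e ha, h.2]

theorem lg_cont {a : ℝ} (ha : 0 < a) : Continuous (lg_p a) :=
  (((continuous_cl 1).mul continuous_const).add (continuous_const.sub (continuous_cl 1))).inv₀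
    fun s => (lg_pos ha (cl_mem zero_le_one s)).ne'

theorem lg_lin (a s : ℝ) : HasDerivAt (fun s => s * a + (1 - s)) (a - 1) s :=
  (((hasDerivAt_id s).mul_const a).add ((hasDerivAt_id s).const_sub 1)).congr_deriv (by ring)

theorem lg_log {a : ℝ} (ha : 0 < a) : ∫ s in (0 : ℝ)..1, (a - 1) * lg_p a s = Real.log a := by
  rw [intervalIntegral.integral_eq_sub_of_hasDerivAt (f := fun s => Real.log (s * a + (1 - s)))
    (f' := fun s => (a - 1) * lg_p a s)
    (fun s hs => ?_) ((continuous_const.mul (lg_cont ha)).intervalIntegrable _ _)]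
  · simp
  · rw [uIcc_of_le zero_le_one] at hs
    rw [lg_p, cl_of_mem hs]
    exact ((lg_lin a s).log (lg_pos ha hs).ne').congr_deriv (div_eq_mul_inv _ _)

theorem lg_sq {a : ℝ} (ha : 0 < a) : ∫ s in (0 : ℝ)..1, lg_p a s ^ 2 = a⁻¹ := by
  rw [intervalIntegral.integral_eq_sub_of_hasDerivAt (f := fun s => s / (s * a + (1 - s)))
    (f' := fun s => lg_p a s ^ 2)
    (fun s hs => ?_) (((lg_cont ha).pow 2).intervalIntegrable _ _)]
  · simp
  · rw [uIcc_of_le zero_le_one] at hs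
    rw [lg_p, cl_of_mem hs]
    have h0 := (lg_pos ha hs).ne'
    refine ((hasDerivAt_id s).div (lg_lin a s) h0).congr_deriv ?_
    rw [inv_pow, ← one_div]
    congr 1
    simp only [id]
    ring

theorem lg_B : LgB fun a b => ∫ s in (0 : ℝ)..1, lg_p a s * lg_p b s := by
  intro a b ha hb
  refine ⟨intervalIntegral.integral_nonneg zero_le_one fun s _ => mul_nonneg
    (inv_pos.2 (lg_pos ha (cl_mem zero_le_one s))).le
    (inv_pos.2 (lg_pos hb (cl_mem zero_le_one s))).le, ?_⟩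
  have key : ∀ t : ℝ, 2 * t * ∫ s in (0 : ℝ)..1, lg_p a s * lg_p b s ≤ t ^ 2 * a⁻¹ + b⁻¹ := by
    intro t
    have i1 : IntervalIntegrable (fun s => t ^ 2 * lg_p a s ^ 2) volume 0 1 :=
      (continuous_const.mul ((lg_cont ha).pow 2)).intervalIntegrable _ _
    have i2 : IntervalIntegrable (fun s => lg_p b s ^ 2) volume 0 1 :=
      ((lg_cont hb).pow 2).intervalIntegrable _ _
    rw [← lg_sq ha, ← lg_sq hb, ← intervalIntegral.integral_const_mul,
      ← intervalIntegral.integral_const_mul, ← intervalIntegral.integral_add i1 i2]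
    exact intervalIntegral.integral_mono_on zero_le_one
      ((continuous_const.mul ((lg_cont ha).mul (lg_cont hb))).intervalIntegrable _ _) (i1.add i2)
      fun s _ => by nlinarith [sq_nonneg (t * lg_p a s - lg_p b s)]
  obtain ⟨L, hL⟩ : ∃ L, L = ∫ s in (0 : ℝ)..1, lg_p a s * lg_p b s := ⟨_, rfl⟩
  simp only [← hL] at key ⊢
  have h1 := key (a * L)
  have h2 : (a * L) ^ 2 * a⁻¹ = a * L ^ 2 := by field_simp
  have h3 : a * L ^ 2 ≤ b⁻¹ := by nlinarith
  have h4 := mul_le_mul_of_nonneg_left h3 hb.le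
  rw [mul_inv_cancel₀ hb.ne'] at h4
  linarith

/-- The matrix to be inverted. -/
noncomputable def lg_M (τ : X n → Mat n) (s : ℝ) (x : X n) : Mat n :=
  cl 1 s • τ x + (1 - cl 1 s) • (1 : Mat n)

/-- The integrand. -/
noncomputable def lg_H (τ : X n → Mat n) (s : ℝ) (x : X n) : Mat n :=
  (τ x + (-1 : ℝ) • (1 : Mat n)) * (lg_M τ s x)⁻¹

theorem lg_lb {τ : X n → Mat n} {c : ℝ} (h : ∀ x, LB c (τ x)) (s : ℝ) (x : X n) :
    LB (min 1 c) (lg_M τ s x) := by
  intro ξ
  have e : qf (lg_M τ s x) ξ = cl 1 s * qf (τ x) ξ + (1 - cl 1 s) * nsq ξ := by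
    simp [lg_M, qf_eq_dot, nsq_eq_dot, add_mulVec, smul_mulVec]
  have hm := cl_mem zero_le_one s
  have h1 := mul_le_mul_of_nonneg_left ((h x).mono (min_le_right 1 c) ξ) hm.1
  have h2 := mul_le_mul_of_nonneg_left
    (mul_le_mul_of_nonneg_right (min_le_left 1 c) (nsq_nonneg ξ)) (sub_nonneg.2 hm.2)
  rw [e]
  linarith

theorem lg_symm {τ : X n → Mat n} (h : Fld τ) (s : ℝ) (x : X n) : (lg_M τ s x).IsSymm :=
  ((h.symm x).smul _).add (isSymm_one.smul _)

theorem lg_dsM {S : Subalgebra ℝ (ℝ → X n → ℝ)} {τ : X n → Mat n}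
    (hτ : ∀ i j, DS S fun _ x => τ x i j) (hc : DS S fun s _ => cl 1 s) (i j : Fin n) :
    DS S fun s x => lg_M τ s x i j :=
  (hc.mul (hτ i j)).add (((DS.const 1).sub hc).mul (DS.const ((1 : Mat n) i j)))

theorem lg_dsH {S : Subalgebra ℝ (ℝ → X n → ℝ)} {τ : X n → Mat n}
    (hτ : ∀ i j, DS S fun _ x => τ x i j) (hi : ∀ i j, DS S fun s x => (lg_M τ s x)⁻¹ i j)
    (i j : Fin n) : DS S fun s x => lg_H τ s x i j :=
  DS.sum Finset.univ fun k _ =>
    ((hτ i k).add (DS.const (((-1 : ℝ) • (1 : Mat n)) i k))).mul (hi k j)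

theorem lg_jc {τ : X n → Mat n} (h : Fld τ) (i j : Fin n) : JC fun s x => lg_H τ s x i j := by
  obtain ⟨c, hc, hl⟩ := h.lb
  have hτ : ∀ i j, DS Qc fun (_ : ℝ) x => τ x i j := fun i j => JC.of_sm (h.bs i j).1
  have hM := lg_dsM hτ (JC.time (continuous_cl 1))
  have hd : ∀ s x, (lg_M τ s x).det ≠ 0 := fun s x =>
    ((lg_lb hl s x).det_pos (lt_min one_pos hc) (lg_symm h s x)).ne'
  exact lg_dsH hτ (DS.inv hM hd fun a b => continuous_inv_entry
    (A := fun p : ℝ × X n => lg_M τ p.1 p.2) (fun a b => (hM a b).mem) (fun p => hd _ _) a b) i j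

theorem lg_qb {τ : X n → Mat n} (h : Fld τ) (i j : Fin n) :
    DS (Qb ⊤) fun s x => lg_H τ s x i j := by
  obtain ⟨c, hc, hl⟩ := h.lb
  have hτ : ∀ i j, DS (Qb ⊤) fun (_ : ℝ) x => τ x i j := fun i j =>
    ds_Qb_top_iff.2 ⟨fun _ => (h.bs i j).1, fun l => ((h.bs i j).2 l).imp fun _ hC _ => hC⟩
  have hM := lg_dsM hτ (DS.param (mem_Qb_top.2 ⟨1, fun s _ => by
    have hm := cl_mem zero_le_one s
    exact abs_le.2 ⟨by linarith [hm.1], hm.2⟩⟩))
  exact lg_dsH hτ (DS.inv_Qb (lt_min one_pos hc) hM (lg_symm h) (lg_lb hl)) i j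

theorem lg_mf {τ : X n → Mat n} (h : Fld τ) (s : ℝ) :
    MF τ (lg_H τ s) (fun a => (a - 1) * lg_p a s) fun a b => lg_p a s * lg_p b s := by
  have hm := cl_mem zero_le_one s
  have h1 := (MF.self τ).add ((MF.one τ).smul (fun a b => contDiff_const) (-1))
    (fun a b => (h.bs a b).1) fun a b => contDiff_const
  have h2 := h1.mul (mf_res h hm.1 (sub_nonneg.2 hm.2) (by linarith))
    (fun a b => (h.bs a b).1.add contDiff_const)
    fun a b => (bs_res h hm.1 (sub_nonneg.2 hm.2) (by linarith) a b).1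
  refine h2.congr (fun a _ => by rw [lg_p]; ring) fun a b ha hb => ?_
  have e1 := (lg_pos ha hm).ne'
  have e2 := (lg_pos hb hm).ne'
  simp only [lg_p]
  field_simp
  ring

theorem exists_log {τ : X n → Mat n} (h : Fld τ) : ∃ (Lg : X n → Mat n) (lg : ℝ → ℝ → ℝ),
    (∀ i j, BS fun x => Lg x i j) ∧ MF τ Lg Real.log lg ∧ LgB lg := by
  refine ⟨fun x => Matrix.of fun i j => ∫ s in (0 : ℝ)..1, lg_H τ s x i j, _, fun i j => ?_,
    (lg_int (lg_jc h) (lg_mf h)).congr (fun a ha => lg_log ha) fun _ _ _ _ => rfl, lg_B⟩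
  refine ⟨(lg_jc h i j).sm_integral 0 1, fun l => ?_⟩
  obtain ⟨C, hC⟩ := (ds_Qb_top_iff.1 (lg_qb h i j)).2 l
  refine ⟨C * |1 - 0|, fun x => ?_⟩
  simp only [of_apply]
  rw [(lg_jc h i j).pds_integral]
  exact intervalIntegral.norm_integral_le_of_norm_le_const (a := 0) (b := 1)
    (f := fun s => pds l (fun x => lg_H τ s x i j) x) (C := C) fun s _ => hC s x

theorem exists_F {τ : X n → Mat n} (h : Fld τ) : ∃ (F : X n → Mat n) (lg : ℝ → ℝ → ℝ),
    (∀ i j, BS fun x => F x i j) ∧ MF τ F fF (fF2 lg) ∧ LgB lg := by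
  obtain ⟨Lg, lg, hb, hm, hl⟩ := exists_log h
  have hr := bs_res h zero_le_one zero_le_two (by norm_num)
  have b1 := fun i j => (h.bs i j).const_mul (123 / 200)
  have b2 := fun i j => (hb i j).const_mul (39 / 100)
  have b3 := fun i j => (hr i j).const_mul (19 / 10)
  refine ⟨fun x => (123 / 200 : ℝ) • τ x + (39 / 100 : ℝ) • Lg x +
    (19 / 10 : ℝ) • ((1 : ℝ) • τ x + (2 : ℝ) • (1 : Mat n))⁻¹, lg,
    fun i j => ((b1 i j).add (b2 i j)).add (b3 i j), ?_, hl⟩
  refine (((((MF.self τ).smul (fun a b => (h.bs a b).1) _).add (hm.smul (fun a b => (hb a b).1) _)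
    (fun a b => (b1 a b).1) fun a b => (b2 a b).1).add
    ((mf_res h zero_le_one zero_le_two (by norm_num)).smul (fun a b => (hr a b).1) _)
    (fun a b => ((b1 a b).add (b2 a b)).1) fun a b => (b3 a b).1)).congr (fun a _ => ?_)
    fun a b _ _ => ?_
  · rw [fF, one_mul]
  · rw [fF2, qq, one_mul, one_mul]
    ring

end Vale.Agent.P254.S
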