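import Vale.Agent.P254.S.Defs
import Vale.Agent.P227.Classes
import Vale.Agent.P227.Gauss

/-! # P254 S/Tay

TASK, helper names start with tay_.
scr_id: pd_logdet_hess, pd_tau, symmetry of third derivatives (pds_perm, pd_comm), hess * tau = 1; compare the proof of P227 KEPair.stein (PGRing.lean).
scr_lip: tau entries are BS (bs_tau), pd k V has bounded first derivatives so |pd k V x| ≤ C (1 + ‖x‖) (mean value inequality); hence |pd j (scr V u l) x| ≤ C (1 + ‖x‖) and |scr V u l x| ≤ C (1 + ‖x‖).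
For ‖x - y‖ ≤ 1 use the mean value inequality on the segment (Convex.norm_image_sub_le_of_norm_fderiv_le or a one variable argument), for ‖x - y‖ ≥ 1 the triangle inequality and 1 + ‖x‖ ≤ (1 + ‖y‖) + ‖x - y‖.
taylor: φ r = W (z + r • e) - r * dot (g z) e - r * K has derivative dot (g (z + r • e) - g z) e - K ≤ 0 on [0,1] for K = n Λ (1 + ‖z‖) nsq e (‖e‖² ≤ nsq e).
-/

set_option linter.unusedSectionVars false
set_option linter.unusedVariables false

namespace Vale.Agent.P254.S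

open Vale.Agent.P227
open scoped ContDiff
open MeasureTheory Set Filter Topology Matrix

variable {n : ℕ}

variable {V u : X n → ℝ}

theorem pg_scr (hV : V2 V) (hu : V2 u) (hl : ∃ c > 0, ∀ x, LB c (hess u x)) (l : Fin n) :
    PG (scr V u l) := by
  obtain ⟨c, hc, hl⟩ := hl
  exact PG.sum _ fun k _ => ((bs_tau hc hu hl k l).pg.pd k).neg.add
    ((hV.pg.pd k).mul (bs_tau hc hu hl k l).pg)

theorem scr_id (hV : Sm V) (hu : Sm u) (hd : ∀ x, 0 < (hess u x).det) (j : Fin n) (x : X n) :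
    pd j (fun y => V y + Real.log (hess u y).det) x = ∑ l, hess u x j l * scr V u l x := by
  have h1 : ∀ q, ∑ a, ∑ p, tau u x a p * hess (pd a u) x p q
      = ∑ a, ∑ p, tau u x a p * pd q (pd a (pd p u)) x := by
    intro q
    refine Finset.sum_congr rfl fun a _ => Finset.sum_congr rfl fun p _ => ?_
    rw [hess_apply]
    exact congrArg _ (congrFun (pds_perm hu (l := [p, q, a]) (m := [q, a, p])
      (List.perm_append_comm (l₁ := [p]) (l₂ := [q, a]))) x)
  have h2 : tau u x * hess u x = 1 := Matrix.nonsing_inv_mul _ (hd x).ne'.isUnit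
  have h3 : ∀ l, scr V u l x = ∑ q, (pd q V x +
      ∑ a, ∑ p, tau u x a p * pd q (pd a (pd p u)) x) * tau u x q l := fun l => by
    simp only [scr, pd_tau hu fun y => (hd y).ne', Matrix.mul_apply, neg_neg,
      Finset.sum_add_distrib, add_mul]
    rw [Finset.sum_comm, add_comm]
    simp only [← Finset.sum_mul, h1]
  have h4 : ∀ c : Fin n → ℝ, ∑ l, hess u x j l * ∑ q, c q * tau u x q l = c j := fun c => by
    simp only [Finset.mul_sum]
    rw [Finset.sum_comm]
    have e : ∀ q, ∑ l, hess u x j l * (c q * tau u x q l) = c q * (tau u x * hess u x) q j :=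
      fun q => by
        rw [Matrix.mul_apply, Finset.mul_sum]
        refine Finset.sum_congr rfl fun l _ => ?_
        rw [(hess_isSymm hu x).apply j l]
        ring
    simp only [e, h2]
    simp [Matrix.one_apply]
  rw [pd_add (hV.diff x) ((sm_logdet (sm_hess hu) hd).diff x), pd_logdet_hess hu hd]
  simp only [h3]
  exact (h4 fun q => pd q V x + ∑ a, ∑ p, tau u x a p * pd q (pd a (pd p u)) x).symm

/-- Linear growth. -/
def tay_Lg (f : X n → ℝ) : Prop := ∃ C, 0 ≤ C ∧ ∀ x, |f x| ≤ C * (1 + ‖x‖)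

theorem tay_unif {κ : Type} [Fintype κ] {f : κ → X n → ℝ} (h : ∀ i, tay_Lg (f i)) :
    ∃ C, 0 ≤ C ∧ ∀ i x, |f i x| ≤ C * (1 + ‖x‖) := by
  choose C h0 h1 using h
  exact ⟨∑ i, C i, Finset.sum_nonneg fun i _ => h0 i, fun i x => (h1 i x).trans
    (mul_le_mul_of_nonneg_right (Finset.single_le_sum (fun i _ => h0 i) (Finset.mem_univ i))
      (by positivity))⟩

theorem tay_bs {f : X n → ℝ} (h : BS f) : tay_Lg f := by
  obtain ⟨C, hC⟩ := h.2 []
  have h0 : 0 ≤ C := (abs_nonneg _).trans (hC 0)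
  exact ⟨C, h0, fun x => (hC x).trans (le_mul_of_one_le_right h0 (by linarith [norm_nonneg x]))⟩

theorem tay_add {f g : X n → ℝ} (hf : tay_Lg f) (hg : tay_Lg g) : tay_Lg fun x => f x + g x := by
  obtain ⟨C, h0, h⟩ := hf
  obtain ⟨D, k0, k⟩ := hg
  refine ⟨C + D, add_nonneg h0 k0, fun x => (abs_add_le _ _).trans ?_⟩
  rw [add_mul]
  exact add_le_add (h x) (k x)

theorem tay_mul {f g : X n → ℝ} (hf : tay_Lg f) (hg : BS g) : tay_Lg fun x => f x * g x := by
  obtain ⟨C, h0, h⟩ := hf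
  obtain ⟨D, k⟩ := hg.2 []
  have k0 : 0 ≤ D := (abs_nonneg _).trans (k 0)
  refine ⟨C * D, mul_nonneg h0 k0, fun x => ?_⟩
  rw [abs_mul, mul_right_comm]
  exact mul_le_mul (h x) (k x) (abs_nonneg _) (by positivity)

theorem tay_sum {f : Fin n → X n → ℝ} (h : ∀ i, tay_Lg (f i)) : tay_Lg fun x => ∑ i, f i x := by
  obtain ⟨C, h0, h⟩ := tay_unif h
  refine ⟨n * C, by positivity, fun x => (Finset.abs_sum_le_sum_abs _ _).trans
    ((Finset.sum_le_sum fun i _ => h i x).trans (le_of_eq ?_))⟩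
  rw [Finset.sum_const, Finset.card_univ, Fintype.card_fin, nsmul_eq_mul, mul_assoc]

theorem tay_pd (hV : V2 V) (k : Fin n) : tay_Lg (pd k V) := by
  obtain ⟨M, hM⟩ := hV.exists_bound
  have h1 : ∀ i z, |pd i (pd k V) z| ≤ |M 2| := fun i z =>
    (hM [i, k] le_rfl z).trans (le_abs_self _)
  refine ⟨|pd k V 0| + n * |M 2|, by positivity, fun x => ?_⟩
  have h2 := abs_sub_le_of_pd (hV.1.pd k).diff (x := 0) (y := x) (fun i z _ => h1 i z) le_rfl
  rw [sub_zero, Fintype.card_fin] at h2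
  have h3 := abs_sub_abs_le_abs_sub (pd k V x) (pd k V 0)
  have h4 : 0 ≤ |pd k V 0| * ‖x‖ := by positivity
  have h5 : 0 ≤ n * |M 2| := by positivity
  nlinarith

theorem tay_lip {f : X n → ℝ} (hf : Differentiable ℝ f) {C : ℝ} (h0 : 0 ≤ C)
    (h1 : ∀ x, |f x| ≤ C * (1 + ‖x‖)) (h2 : ∀ i x, |pd i f x| ≤ C * (1 + ‖x‖)) (x y : X n) :
    |f x - f y| ≤ (2 * n + 3) * C * (1 + ‖y‖) * ‖x - y‖ := by
  have hy := norm_nonneg y
  have hd := norm_nonneg (x - y)
  have hn : (0 : ℝ) ≤ n := Nat.cast_nonneg n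
  have k1 : 0 ≤ C * (1 + ‖y‖) * ‖x - y‖ := by positivity
  rcases le_total ‖x - y‖ 1 with h | h
  · have h3 := abs_sub_le_of_pd hf (x := y) (y := x) (C := C * (2 * (1 + ‖y‖))) (fun i z hz =>
      (h2 i z).trans (mul_le_mul_of_nonneg_left (by linarith [norm_le_insert' z y]) h0)) h
    rw [Fintype.card_fin] at h3
    nlinarith
  · have h3 := abs_sub (f x) (f y)
    have h4 : C * (1 + ‖x‖) ≤ C * (1 + ‖y‖ + ‖x - y‖) :=
      mul_le_mul_of_nonneg_left (by linarith [norm_le_insert' x y]) h0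
    have h5 : C * (1 + ‖y‖) ≤ C * (1 + ‖y‖) * ‖x - y‖ :=
      le_mul_of_one_le_right (by positivity) h
    have h6 : 0 ≤ C * ‖y‖ * ‖x - y‖ := by positivity
    have h7 := mul_nonneg hn k1
    have h8 := h1 x
    have h9 := h1 y
    nlinarith

theorem scr_lip (hV : V2 V) (hu : V2 u) (hl : ∃ c > 0, ∀ x, LB c (hess u x)) : ∃ C, 0 ≤ C ∧
    (∀ l x, |scr V u l x| ≤ C * (1 + ‖x‖)) ∧
      ∀ l x y, |scr V u l x - scr V u l y| ≤ C * (1 + ‖y‖) * ‖x - y‖ := by
  have hp := pg_scr hV hu hl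
  obtain ⟨c, hc, hl⟩ := hl
  have hτ := bs_tau hc hu hl
  have hn : ∀ {f : X n → ℝ}, BS f → tay_Lg fun x => -f x := fun h => by
    simpa only [neg_one_mul] using tay_bs (h.const_mul (-1))
  have h1 : ∀ l, tay_Lg (scr V u l) := fun l =>
    tay_sum fun k => tay_add (hn ((hτ k l).pd k)) (tay_mul (tay_pd hV k) (hτ k l))
  have h2 : ∀ q : Fin n × Fin n, tay_Lg (pd q.2 (scr V u q.1)) := by
    rintro ⟨l, j⟩
    have e : pd j (scr V u l) = fun x => ∑ k, (-pd j (pd k fun y => tau u y k l) x +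
        (pd j (pd k V) x * tau u x k l + pd k V x * pd j (fun y => tau u y k l) x)) := by
      funext x
      have d1 := fun k => ((hτ k l).pd k).1.diff x
      have d2 := fun k => (hV.1.pd k).diff x
      have d3 := fun k => (hτ k l).1.diff x
      refine (pd_sum Finset.univ (fun k _ => (d1 k).neg.add ((d2 k).mul (d3 k))) j).trans ?_
      refine Finset.sum_congr rfl fun k _ => ?_
      exact (pd_add (d1 k).neg ((d2 k).mul (d3 k)) j).trans
        (congrArg₂ _ (pd_neg _ j x) (pd_mul (d2 k) (d3 k) j))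
    rw [e]
    exact tay_sum fun k => tay_add (hn (((hτ k l).pd k).pd j))
      (tay_add (tay_bs ((hV.bs_pd_pd j k).mul (hτ k l))) (tay_mul (tay_pd hV k) ((hτ k l).pd j)))
  obtain ⟨C, c0, c1⟩ := tay_unif h1
  obtain ⟨D, d0, d1⟩ := tay_unif h2
  have k1 : ∀ l x, |scr V u l x| ≤ (C + D) * (1 + ‖x‖) := fun l x =>
    (c1 l x).trans (mul_le_mul_of_nonneg_right (by linarith) (by positivity))
  have k2 : ∀ l j x, |pd j (scr V u l) x| ≤ (C + D) * (1 + ‖x‖) := fun l j x =>
    (d1 (l, j) x).trans (mul_le_mul_of_nonneg_right (by linarith) (by positivity))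
  refine ⟨(2 * n + 3) * (C + D), by positivity, fun l x => (k1 l x).trans
    (mul_le_mul_of_nonneg_right (le_mul_of_one_le_left (by positivity) ?_) (by positivity)),
    fun l => tay_lip (hp l).1.diff (by positivity) (k1 l) (k2 l)⟩
  linarith [Nat.cast_nonneg (α := ℝ) n]

theorem v2_growth (hV : V2 V) : ∃ C, 0 ≤ C ∧ ∀ x, |V x| ≤ C * (1 + ‖x‖) ^ 2 ∧
    ‖grad V x‖ ≤ C * (1 + ‖x‖) := by
  obtain ⟨C, h0, h⟩ := tay_unif (tay_pd hV)
  have hn : (0 : ℝ) ≤ n := Nat.cast_nonneg n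
  refine ⟨|V 0| + n * C + C, by positivity, fun x => ⟨?_, ?_⟩⟩
  · have h2 := abs_sub_le_of_pd hV.1.diff (x := 0) (y := x) (C := C * (1 + ‖x‖)) (fun i z hz =>
      (h i z).trans (mul_le_mul_of_nonneg_left (by simpa using hz) h0)) le_rfl
    rw [sub_zero, Fintype.card_fin] at h2
    have h3 := abs_sub_abs_le_abs_sub (V x) (V 0)
    have hx := norm_nonneg x
    have h4 : |V 0| ≤ |V 0| * (1 + ‖x‖) ^ 2 :=
      le_mul_of_one_le_right (abs_nonneg _) (one_le_pow₀ (by linarith))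
    have h5 : 0 ≤ n * C * (1 + ‖x‖) := by positivity
    have h6 : 0 ≤ C * (1 + ‖x‖) ^ 2 := by positivity
    nlinarith
  · refine (pi_norm_le_iff_of_nonneg (by positivity)).2 fun i => (h i x).trans
      (mul_le_mul_of_nonneg_right ?_ (by positivity))
    have : 0 ≤ |V 0| + n * C := by positivity
    linarith

theorem taylor {W : X n → ℝ} {g : X n → X n}
    (hd : ∀ (z e : X n) (r : ℝ), HasDerivAt (fun s : ℝ => W (z + s • e)) (dot (g (z + r • e)) e) r)
    (hg : ∃ Λ, ∀ z e, ‖g (z + e) - g z‖ ≤ Λ * (1 + ‖z‖) * ‖e‖) :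
    ∃ Λ, ∀ z e, W (z + e) ≤ W z + dot (g z) e + Λ * (1 + ‖z‖) * nsq e := by
  obtain ⟨Λ, hΛ⟩ := hg
  refine ⟨n * |Λ|, fun z e => ?_⟩
  have h2 := (convex_Icc (0 : ℝ) 1).image_sub_le_mul_sub_of_deriv_le
    (f := fun s : ℝ => W (z + s • e)) (C := dot (g z) e + n * |Λ| * (1 + ‖z‖) * nsq e)
    (fun s _ => (hd z e s).continuousAt.continuousWithinAt)
    (fun s _ => (hd z e s).differentiableAt.differentiableWithinAt) (fun r hr => by
      have hr' := interior_subset hr
      rw [(hd z e r).deriv, ← sub_le_iff_le_add', dot, dot, ← Finset.sum_sub_distrib]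
      have k1 : ‖g (z + r • e) - g z‖ ≤ |Λ| * (1 + ‖z‖) * ‖e‖ := by
        refine (hΛ z _).trans (mul_le_mul (mul_le_mul_of_nonneg_right (le_abs_self Λ)
          (by positivity)) ?_ (norm_nonneg _) (by positivity))
        rw [norm_smul, Real.norm_of_nonneg hr'.1]
        exact mul_le_of_le_one_left (norm_nonneg e) hr'.2
      have k2 : ∀ i, g (z + r • e) i * e i - g z i * e i ≤ |Λ| * (1 + ‖z‖) * nsq e := fun i => by
        rw [← sub_mul]
        refine (le_abs_self _).trans ?_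
        rw [abs_mul]
        refine (mul_le_mul ((norm_le_pi_norm (g (z + r • e) - g z) i).trans k1)
          (norm_le_pi_norm e i) (abs_nonneg _) (by positivity)).trans ?_
        rw [mul_assoc, ← sq]
        exact mul_le_mul_of_nonneg_left (norm_sq_le_nsq e) (by positivity)
      refine (Finset.sum_le_sum fun i _ => k2 i).trans (le_of_eq ?_)
      rw [Finset.sum_const, Finset.card_univ, Fintype.card_fin, nsmul_eq_mul]
      ring) 0 (left_mem_Icc.2 zero_le_one) 1 (right_mem_Icc.2 zero_le_one) zero_le_one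
  simp only [zero_smul, one_smul, add_zero, sub_zero, mul_one] at h2
  linarith

end Vale.Agent.P254.S
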