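import Vale.Agent.P254.S.LSI
import Vale.Agent.P254.S.Inv
import Vale.Agent.P254.S.Tay

/-! # P254 S/Stam

TASK, helper names start with st_.
Ω = V + log det hess u (log det is bounded: exists_abs_log_det_le or DS.logdet_Qb), T from exists_inv, W = Ω ∘ T, g z = fun l => scr V u l (T z).  Chain rule and scr_id, tau * hess = 1 give the hypothesis of taylor;
‖T z‖ ≤ C (1 + ‖z‖) by the Lipschitz bound, scr_lip; coercivity: ‖z‖ = ‖grad u (T z)‖ ≤ C (1 + ‖T z‖) (v2_growth), Pot.coer, ‖x‖² ≤ nsq x ≤ n ‖x‖².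
cov_grad turns ∫ F z * exp (-W z) into ∫ F (grad u x) * exp (-V x) since det * exp (-(V + log det)) = exp (-V).  Apply lsi.
stam: ∫ (∑ l, scr l * pd l u) e^{-V} = n by integral_pd_mul_exp for f = tau k l * pd l u (pd_mul), ∑ k l, tau k l * hess k l = n.
-/

set_option linter.unusedSectionVars false
set_option linter.unusedVariables false

namespace Vale.Agent.P254.S

open Vale.Agent.P227
open scoped ContDiff
open MeasureTheory Set Filter Topology Matrix

variable {n : ℕ}

variable {V u : X n → ℝ}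

theorem st_bs_logdet (hu : V2 u) {c : ℝ} (hc : 0 < c) (hl : ∀ x, LB c (hess u x)) :
    BS fun x => Real.log (hess u x).det :=
  bs_iff.2 (DS.logdet_Qb (h := fun (_ : Unit) x => hess u x) hc
    (ds_hess (u := fun _ : Unit => u) (fun _ => hu.1) (fun l h => (hu.2 l h).imp fun _ h _ => h))
    (fun _ x => hess_isSymm hu.1 x) (fun _ => hl))

theorem st_hess_tau (hd : ∀ x, 0 < (hess u x).det) (x : X n) : hess u x * tau u x = 1 :=
  Matrix.mul_nonsing_inv _ (hd x).ne'.isUnit

theorem st_tau_hess (hd : ∀ x, 0 < (hess u x).det) (x : X n) : tau u x * hess u x = 1 :=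
  Matrix.nonsing_inv_mul _ (hd x).ne'.isUnit

theorem st_alg {H τ : Mat n} (hH : H.IsSymm) (h : H * τ = 1) (s e : X n) :
    ∑ i, (τ *ᵥ e) i * ∑ l, H i l * s l = dot s e := by
  have h1 : ∑ i, (τ *ᵥ e) i * ∑ l, H i l * s l = (τ *ᵥ e) ⬝ᵥ (H *ᵥ s) := rfl
  rw [h1, Matrix.dotProduct_mulVec, ← Matrix.mulVec_transpose, hH.eq, Matrix.mulVec_mulVec, h,
    Matrix.one_mulVec, dotProduct_comm]
  rfl

theorem st_deriv (hV : Sm V) (hu : Sm u) (hd : ∀ x, 0 < (hess u x).det) {T : X n → X n}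
    (hT : ∀ z, HasFDerivAt T (LinearMap.toContinuousLinearMap (Matrix.toLin' (tau u (T z)))) z)
    (z e : X n) (r : ℝ) :
    HasDerivAt (fun s : ℝ => V (T (z + s • e)) + Real.log (hess u (T (z + s • e))).det)
      (dot (fun l => scr V u l (T (z + r • e))) e) r := by
  have hΩ : Sm fun y => V y + Real.log (hess u y).det := hV.add (sm_logdet (sm_hess hu) hd)
  have h1 : HasDerivAt (fun s : ℝ => z + s • e) e r := by
    simpa using ((hasDerivAt_id r).smul_const e).const_add z
  have h2 := (hT (z + r • e)).comp_hasDerivAt r h1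
  have h3 := (hΩ.diff (T (z + r • e))).hasFDerivAt.comp_hasDerivAt r h2
  have h4 : fderiv ℝ (fun y => V y + Real.log (hess u y).det) (T (z + r • e))
      (LinearMap.toContinuousLinearMap (Matrix.toLin' (tau u (T (z + r • e)))) e)
      = dot (fun l => scr V u l (T (z + r • e))) e := by
    rw [fderiv_eq_sum]
    simp only [scr_id hV hu hd]
    exact st_alg (hess_isSymm hu _) (st_hess_tau hd _) _ e
  rw [← h4]
  exact h3

theorem st_T_growth {T : X n → X n} {L : ℝ} (hL : ∀ z z', ‖T z - T z'‖ ≤ L * ‖z - z'‖) :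
    ∃ K, 0 ≤ K ∧ ∀ z, 1 + ‖T z‖ ≤ K * (1 + ‖z‖) := by
  refine ⟨1 + ‖T 0‖ + |L|, by positivity, fun z => ?_⟩
  have h1 := hL z 0
  rw [sub_zero] at h1
  have h2 : ‖T z‖ ≤ ‖T 0‖ + ‖T z - T 0‖ := by
    calc ‖T z‖ = ‖T 0 + (T z - T 0)‖ := by rw [add_sub_cancel]
      _ ≤ _ := norm_add_le _ _
  have h3 : L * ‖z‖ ≤ |L| * ‖z‖ := mul_le_mul_of_nonneg_right (le_abs_self L) (norm_nonneg _)
  have h4 := norm_nonneg z
  have h5 := norm_nonneg (T 0)
  have h6 := abs_nonneg L
  nlinarith [mul_nonneg h4 h5]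

theorem st_exp (hd : ∀ x, 0 < (hess u x).det) (x : X n) :
    (hess u x).det * Real.exp (-(V x + Real.log (hess u x).det)) = Real.exp (-V x) := by
  rw [neg_add, Real.exp_add, Real.exp_neg (Real.log _), Real.exp_log (hd x)]
  field_simp [(hd x).ne']

theorem stam0 (hV : Pot V) (hu : V2 u) (hl : ∃ c > 0, ∀ x, LB c (hess u x))
    (hZ : ∫ x, Real.exp (-V x) = 1) :
    n / 2 * Real.log (2 * Real.pi) ≤ ∫ x, (V x + Real.log (hess u x).det
      + (∑ l, scr V u l x ^ 2) / 2 - ∑ l, scr V u l x * pd l u x) * Real.exp (-V x) := by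
  obtain ⟨T, hT1, hT2, ⟨L, hL⟩, hT⟩ := exists_inv hu.1 hl
  obtain ⟨C, hC, hC1, hC2⟩ := scr_lip hV.v2 hu hl
  obtain ⟨CV, hCV, hCV1⟩ := v2_growth hV.v2
  obtain ⟨Cu, hCu, hCu1⟩ := v2_growth hu
  obtain ⟨K, hK, hK1⟩ := st_T_growth hL
  obtain ⟨a, ha, A, hA⟩ := hV.coer
  have hcov := cov_grad hu.1 hl
  have hscr := pg_scr hV.v2 hu hl
  obtain ⟨c, hc, hl'⟩ := hl
  have hd : ∀ x, 0 < (hess u x).det := fun x => (hl' x).det_pos hc (hess_isSymm hu.1 x)
  obtain ⟨M, hM⟩ : ∃ M, ∀ x, |Real.log (hess u x).det| ≤ M := (st_bs_logdet hu hc hl').2 []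
  have hM0 : 0 ≤ M := (abs_nonneg _).trans (hM 0)
  have hTc : Continuous T := continuous_iff_continuousAt.2 fun z => (hT z).continuousAt
  have hΩ : Sm fun y => V y + Real.log (hess u y).det := hV.v2.1.add (sm_logdet (sm_hess hu.1) hd)
  have hgb : ∀ z, ‖fun l => scr V u l (T z)‖ ≤ C * K * (1 + ‖z‖) := fun z => by
    refine (pi_norm_le_iff_of_nonneg (by positivity)).2 fun l => ?_
    rw [Real.norm_eq_abs, mul_assoc]
    exact (hC1 l _).trans (mul_le_mul_of_nonneg_left (hK1 z) hC)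
  have key := lsi (W := fun z => V (T z) + Real.log (hess u (T z)).det)
    (g := fun z l => scr V u l (T z)) (hΩ.cont.comp hTc)
    (continuous_pi fun l => (hscr l).1.cont.comp hTc) ?_ ?_
    (taylor (W := fun z => V (T z) + Real.log (hess u (T z)).det)
      (g := fun z l => scr V u l (T z)) (st_deriv hV.v2.1 hu.1 hd hT) ?_) ?_
  · rw [hcov] at key
    refine key.trans_eq (integral_congr_ae (Eventually.of_forall fun x => ?_))
    simp only [hT1]
    rw [← st_exp (V := V) hd x]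
    simp only [nsq, dot, grad]
    ring
  · have hD : 0 < 2 * n * Cu ^ 2 + 1 := by positivity
    refine ⟨a / (2 * n * Cu ^ 2 + 1), by positivity, a + A + M, fun z => ?_⟩
    have h1 : ‖z‖ ≤ Cu * (1 + ‖T z‖) := by
      have := (hCu1 (T z)).2
      rwa [hT2] at this
    have h2 := nsq_le_norm_sq z
    have h3 := norm_sq_le_nsq (T z)
    have h4 : ‖z‖ ^ 2 ≤ (Cu * (1 + ‖T z‖)) ^ 2 := pow_le_pow_left₀ (norm_nonneg _) h1 2
    have h5 : (1 + ‖T z‖) ^ 2 ≤ 2 * (1 + nsq (T z)) := by nlinarith [sq_nonneg (1 - ‖T z‖)]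
    have h6 : 0 ≤ nsq (T z) := (sq_nonneg _).trans h3
    have h7 : nsq z ≤ (2 * n * Cu ^ 2 + 1) * (1 + nsq (T z)) := by
      have hn : (0 : ℝ) ≤ n := Nat.cast_nonneg n
      calc nsq z ≤ n * ‖z‖ ^ 2 := h2
        _ ≤ n * (Cu ^ 2 * (2 * (1 + nsq (T z)))) := by
          refine mul_le_mul_of_nonneg_left (h4.trans ?_) hn
          rw [mul_pow]
          exact mul_le_mul_of_nonneg_left h5 (sq_nonneg _)
        _ ≤ _ := by nlinarith
    have h8 : a / (2 * n * Cu ^ 2 + 1) * nsq z ≤ a * (1 + nsq (T z)) := by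
      rw [div_mul_eq_mul_div, div_le_iff₀ hD]
      calc a * nsq z ≤ a * ((2 * n * Cu ^ 2 + 1) * (1 + nsq (T z))) :=
            mul_le_mul_of_nonneg_left h7 ha.le
        _ = _ := by ring
    have h9 := hA (T z)
    have h10 := (abs_le.1 (hM (T z))).1
    show _ ≤ V (T z) + Real.log (hess u (T z)).det
    linarith
  · refine ⟨CV * K ^ 2 + M + C * K, fun z => ⟨?_, ?_⟩⟩
    · have h1 := (hCV1 (T z)).1
      have h2 : (1 + ‖T z‖) ^ 2 ≤ (K * (1 + ‖z‖)) ^ 2 :=
        pow_le_pow_left₀ (by positivity) (hK1 z) 2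
      have h3 : CV * (1 + ‖T z‖) ^ 2 ≤ CV * (K * (1 + ‖z‖)) ^ 2 :=
        mul_le_mul_of_nonneg_left h2 hCV
      have h4 : 1 ≤ (1 + ‖z‖) ^ 2 := one_le_pow₀ (by linarith [norm_nonneg z])
      have h5 : M ≤ M * (1 + ‖z‖) ^ 2 := le_mul_of_one_le_right hM0 h4
      have h6 : 0 ≤ C * K * (1 + ‖z‖) ^ 2 := by positivity
      have h7 := abs_add_le (V (T z)) (Real.log (hess u (T z)).det)
      have h8 := hM (T z)
      show |V (T z) + Real.log (hess u (T z)).det| ≤ _
      calc _ ≤ CV * (K * (1 + ‖z‖)) ^ 2 + M * (1 + ‖z‖) ^ 2 + C * K * (1 + ‖z‖) ^ 2 := by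
            linarith
        _ = _ := by ring
    · refine (hgb z).trans (mul_le_mul_of_nonneg_right ?_ (by positivity))
      have : 0 ≤ CV * K ^ 2 := by positivity
      linarith
  · refine ⟨C * K * |L|, fun z e => ?_⟩
    refine (pi_norm_le_iff_of_nonneg (by positivity)).2 fun l => ?_
    rw [Real.norm_eq_abs, Pi.sub_apply]
    have h1 := hC2 l (T (z + e)) (T z)
    have h2 := hL (z + e) z
    rw [add_sub_cancel_left] at h2
    have h3 : ‖T (z + e) - T z‖ ≤ |L| * ‖e‖ :=
      h2.trans (mul_le_mul_of_nonneg_right (le_abs_self L) (norm_nonneg _))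
    calc _ ≤ C * (1 + ‖T z‖) * ‖T (z + e) - T z‖ := h1
      _ ≤ C * (K * (1 + ‖z‖)) * (|L| * ‖e‖) :=
          mul_le_mul (mul_le_mul_of_nonneg_left (hK1 z) hC) h3 (norm_nonneg _) (by positivity)
      _ = _ := by ring
  · rw [hcov, ← hZ]
    refine integral_congr_ae (Eventually.of_forall fun x => ?_)
    simp only [hT1]
    exact st_exp hd x

theorem st_trace (hu : Sm u) (hd : ∀ x, 0 < (hess u x).det) (x : X n) :
    ∑ l, ∑ k, tau u x k l * pd k (pd l u) x = n := by
  have h1 : (hess u x * tau u x).trace = n := by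
    rw [st_hess_tau hd, Matrix.trace_one, Fintype.card_fin]
  rw [← h1]
  simp only [Matrix.trace, Matrix.diag_apply, Matrix.mul_apply]
  refine Finset.sum_congr rfl fun l _ => Finset.sum_congr rfl fun k _ => ?_
  rw [mul_comm, (hess_isSymm hu x).apply k l, hess_apply]

theorem st_int (hV : Pot V) (hu : V2 u) (hl : ∃ c > 0, ∀ x, LB c (hess u x))
    (hZ : ∫ x, Real.exp (-V x) = 1) :
    ∫ x, (∑ l, scr V u l x * pd l u x) * Real.exp (-V x) = n := by
  obtain ⟨c, hc, hl'⟩ := hl
  have hd : ∀ x, 0 < (hess u x).det := fun x => (hl' x).det_pos hc (hess_isSymm hu.1 x)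
  have hτ : ∀ k l, PG fun x => tau u x k l := fun k l => (bs_tau hc hu hl' k l).pg
  have hf : ∀ k l, PG fun x => tau u x k l * pd l u x := fun k l => (hτ k l).mul (hu.pg.pd l)
  have hVp := hV.v2.pg
  have hVc := hV.v2.1.cont
  have hco := hV.coer
  have hpt : ∀ x, (∑ l, scr V u l x * pd l u x) * Real.exp (-V x)
      = ∑ l, ∑ k, (pd k V x * (tau u x k l * pd l u x) * Real.exp (-V x)
        - pd k (fun y => tau u y k l * pd l u y) x * Real.exp (-V x)) + n * Real.exp (-V x) := by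
    intro x
    rw [← st_trace hu.1 hd x, Finset.sum_mul, Finset.sum_mul, ← Finset.sum_add_distrib]
    refine Finset.sum_congr rfl fun l _ => ?_
    rw [scr, Finset.sum_mul, Finset.sum_mul, Finset.sum_mul, ← Finset.sum_add_distrib]
    refine Finset.sum_congr rfl fun k _ => ?_
    rw [pd_mul ((hτ k l).1.diff x) ((hu.1.pd l).diff x)]
    ring
  have hi1 : ∀ k l, Integrable fun x => pd k V x * (tau u x k l * pd l u x) * Real.exp (-V x) :=
    fun k l => ((hVp.pd k).mul (hf k l)).integrable hVc hco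
  have hi2 : ∀ k l, Integrable fun x =>
      pd k (fun y => tau u y k l * pd l u y) x * Real.exp (-V x) :=
    fun k l => ((hf k l).pd k).integrable hVc hco
  have hi3 : Integrable fun x => (n : ℝ) * Real.exp (-V x) := (PG.const _).integrable hVc hco
  have hi4 : ∀ k l, Integrable fun x => pd k V x * (tau u x k l * pd l u x) * Real.exp (-V x)
      - pd k (fun y => tau u y k l * pd l u y) x * Real.exp (-V x) :=
    fun k l => (hi1 k l).sub (hi2 k l)
  simp only [hpt]
  rw [integral_add (integrable_finsetSum _ fun l _ => integrable_finsetSum _ fun k _ =>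
    hi4 k l) hi3, integral_const_mul, hZ, mul_one,
    integral_finsetSum _ fun l _ => integrable_finsetSum _ fun k _ => hi4 k l]
  rw [Finset.sum_eq_zero, zero_add]
  intro l _
  rw [integral_finsetSum _ fun k _ => hi4 k l]
  refine Finset.sum_eq_zero fun k _ => ?_
  rw [integral_sub (hi1 k l) (hi2 k l), integral_pd_mul_exp hVp hco (hf k l) k, sub_self]

theorem stam (hV : Pot V) (hu : V2 u) (hl : ∃ c > 0, ∀ x, LB c (hess u x))
    (hZ : ∫ x, Real.exp (-V x) = 1) :
    n / 2 * Real.log (2 * Real.pi) + n ≤ (∫ x, V x * Real.exp (-V x))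
      + (∫ x, Real.log (hess u x).det * Real.exp (-V x))
      + 1 / 2 * ∫ x, (∑ l, scr V u l x * scr V u l x) * Real.exp (-V x) := by
  have h0 := stam0 hV hu hl hZ
  have h1 := st_int hV hu hl hZ
  have hscr := pg_scr hV.v2 hu hl
  obtain ⟨c, hc, hl'⟩ := hl
  have hVc := hV.v2.1.cont
  have hco := hV.coer
  have i1 : Integrable fun x => V x * Real.exp (-V x) := hV.v2.pg.integrable hVc hco
  have i2 : Integrable fun x => Real.log (hess u x).det * Real.exp (-V x) :=
    (st_bs_logdet hu hc hl').pg.integrable hVc hco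
  have i3 : Integrable fun x => (∑ l, scr V u l x * scr V u l x) * Real.exp (-V x) :=
    (PG.sum _ fun l _ => (hscr l).mul (hscr l)).integrable hVc hco
  have i4 : Integrable fun x => (∑ l, scr V u l x * pd l u x) * Real.exp (-V x) :=
    (PG.sum _ fun l _ => (hscr l).mul (hu.pg.pd l)).integrable hVc hco
  have hpt : ∀ x, (V x + Real.log (hess u x).det
      + (∑ l, scr V u l x ^ 2) / 2 - ∑ l, scr V u l x * pd l u x) * Real.exp (-V x)
      = V x * Real.exp (-V x) + Real.log (hess u x).det * Real.exp (-V x)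
        + 1 / 2 * ((∑ l, scr V u l x * scr V u l x) * Real.exp (-V x))
        - (∑ l, scr V u l x * pd l u x) * Real.exp (-V x) := by
    intro x
    simp only [sq]
    ring
  simp only [hpt] at h0
  have i12 : Integrable fun x => V x * Real.exp (-V x)
      + Real.log (hess u x).det * Real.exp (-V x) := i1.add i2
  have i3' : Integrable fun x =>
      1 / 2 * ((∑ l, scr V u l x * scr V u l x) * Real.exp (-V x)) := i3.const_mul _
  have i123 : Integrable fun x => V x * Real.exp (-V x)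
      + Real.log (hess u x).det * Real.exp (-V x)
      + 1 / 2 * ((∑ l, scr V u l x * scr V u l x) * Real.exp (-V x)) := i12.add i3'
  rw [integral_sub i123 i4, integral_add i12 i3', integral_add i1 i2, integral_const_mul, h1] at h0
  linarith

end Vale.Agent.P254.S
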