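import Vale.Agent.P254.S.Frame
import Vale.Agent.P227.PGRing

/-! # P254 S/U1

TASK, helper names start with u1_.
hess (q0 n) x = 1 (search P227 for q0 lemmas), hess is additive (pd_add, pd_const_mul).  fld_tau: bs_tau, tau_isSymm; hess entries are bounded so UB C (ub_of_entry), UB.inv_lb.
tau_u1: (16/25 h + 8/25) = (8/25 τ + 16/25) h, Matrix.mul_inv_rev, τ = h⁻¹, or check the product is 1.  bs_logdet: DS.logdet_Qb with ds_hess, bs_iff.  hess u x = (tau u x)⁻¹ (nonsing_inv_nonsing_inv), logdet_frame.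
-/

set_option linter.unusedSectionVars false
set_option linter.unusedVariables false

namespace Vale.Agent.P254.S

open Vale.Agent.P227
open scoped ContDiff
open MeasureTheory Set Filter Topology Matrix

variable {n : ℕ}

variable {u : X n → ℝ}

theorem fld_tau (hu : V2 u) (hl : ∃ c > 0, ∀ x, LB c (hess u x)) : Fld (tau u) := by
  obtain ⟨c, hc, hl⟩ := hl
  obtain ⟨M, hM⟩ := hu.exists_bound
  refine ⟨bs_tau hc hu hl, tau_isSymm hu.1, (n * |M 2| + 1)⁻¹, by positivity, fun x => ?_⟩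
  have h1 : UB (n * |M 2|) (hess u x) :=
    ub_of_entry fun i j => (hM [i, j] (by simp) x).trans (le_abs_self _)
  exact (h1.mono (by linarith)).inv_lb (by positivity) ((hl x).posDef hc (hess_isSymm hu.1 x))

theorem hess_u1 (hu : Sm u) (x : X n) :
    hess (u1 u) x = (16 / 25 : ℝ) • hess u x + (8 / 25 : ℝ) • (1 : Mat n) := by
  rw [← hess_q0 x]
  ext i j
  have h1 := pds_add (f := fun x => 16 / 25 * u x) (g := fun x => 8 / 25 * q0 n x)
    (contDiff_const.mul hu) (contDiff_const.mul sm_q0) [i, j]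
  rw [pds_const_mul hu, pds_const_mul sm_q0] at h1
  exact congrFun h1 x

theorem u1_q0 : V2 (q0 n) := by
  refine ⟨sm_q0, fun l hl => ⟨1, fun x => ?_⟩⟩
  rcases hl.eq_or_lt with h | h
  · obtain ⟨i, j, rfl⟩ := List.length_eq_two.1 h.symm
    have : pds [i, j] (q0 n) x = (1 : Mat n) i j := by rw [← hess_q0 x]; rfl
    rw [this, Matrix.one_apply]
    split_ifs <;> simp
  · rw [pds_q0 h]
    simp

theorem v2_u1 (hu : V2 u) : V2 (u1 u) := (hu.const_mul _).add (u1_q0.const_mul _)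

theorem lb_u1 (hu : Sm u) (hl : ∃ c > 0, ∀ x, LB c (hess u x)) :
    ∃ c > 0, ∀ x, LB c (hess (u1 u) x) := by
  obtain ⟨c, hc, hl⟩ := hl
  refine ⟨16 / 25 * c, by positivity, fun x ξ => ?_⟩
  have h1 := hl x ξ
  have h2 := nsq_nonneg' ξ
  have h3 : qf (hess (u1 u) x) ξ = 16 / 25 * qf (hess u x) ξ + 8 / 25 * nsq ξ := by
    rw [hess_u1 hu]
    simp only [qf, nsq, Matrix.add_apply, Matrix.smul_apply, smul_eq_mul, Finset.mul_sum,
      ← Finset.sum_add_distrib]
    refine Finset.sum_congr rfl fun i _ => ?_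
    simp only [add_mul, Finset.sum_add_distrib, Matrix.one_apply, mul_ite, ite_mul, mul_one,
      mul_zero, zero_mul, Finset.sum_ite_eq, Finset.mem_univ, if_true, mul_assoc, sq]
  rw [h3]
  linarith

theorem tau_u1 (hu : Sm u) (hl : ∃ c > 0, ∀ x, LB c (hess u x)) (x : X n) :
    tau (u1 u) x = tau u x * ((8 / 25 : ℝ) • tau u x + (16 / 25 : ℝ) • (1 : Mat n))⁻¹ := by
  obtain ⟨c, hc, hl⟩ := hl
  have h1 : IsUnit (hess u x).det := ((hl x).det_pos hc (hess_isSymm hu x)).ne'.isUnit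
  unfold tau
  rw [← Matrix.mul_inv_rev, hess_u1 hu, Matrix.add_mul, Matrix.smul_mul, Matrix.smul_mul,
    Matrix.nonsing_inv_mul _ h1, Matrix.one_mul, add_comm]

theorem bs_logdet (hu : V2 u) (hl : ∃ c > 0, ∀ x, LB c (hess u x)) :
    BS fun x => Real.log (hess u x).det := by
  obtain ⟨c, hc, hl⟩ := hl
  exact bs_iff.2 (DS.logdet_Qb (h := fun (_ : Unit) x => hess u x) hc
    (ds_hess (u := fun _ : Unit => u) (fun _ => hu.1) fun l h => (hu.2 l h).imp fun _ h _ => h)
    (fun _ => hess_isSymm hu.1) fun _ => hl)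

theorem logdet_u1 (hu : Sm u) (hl : ∃ c > 0, ∀ x, LB c (hess u x)) (x : X n) (Φ : Frame (tau u x)) :
    Real.log (hess (u1 u) x).det = ∑ i, ell (Φ.lam i) := by
  obtain ⟨c, hc, hl⟩ := hl
  have h1 : IsUnit (hess u x).det := ((hl x).det_pos hc (hess_isSymm hu x)).ne'.isUnit
  rw [← logdet_frame Φ, hess_u1 hu, tau, Matrix.nonsing_inv_nonsing_inv _ h1]

end Vale.Agent.P254.S
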