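import Vale.Agent.P254.S.Master
import Vale.Agent.P254.S.Log
import Vale.Agent.P254.S.U1
import Vale.Agent.P254.S.Stam
import Vale.Agent.P227.Density
import Vale.Agent.P227.KE

/-! # P254 S/Iso

TASK, helper names start with iso_.
exists_ke, S = hu.setup, F from exists_F (fld_tau ..), G from exists_G, as matrices of elements ⟨fun x => F x a b, BS.pg⟩ of PGA n; ℓ = ⟨log det hess (u1 u), (bs_logdet ..).pg⟩.
S.τ.map (S.ev p) = tau u p holds by rfl or ext, so SMF is MF (exact, or transport the frame by building ⟨Φ.U, Φ.lam, Φ.orth, Φ.diag, Φ.pos⟩).  Cvx: LB.posSemidef of Pot.lb.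
hden: density with BS.v2, MF.ev, tau_neg, KEPair.E_eq, ev_L (element ⟨w, hw⟩).  evA x (sc S G l) = scr V (u1 u) l x by tau_u1 (funext under pd).  master and stam give the bound:
n/2 log 2π + n - n 179/200 = n (log (2π)/2 + 21/200).
-/

set_option linter.unusedSectionVars false
set_option linter.unusedVariables false

namespace Vale.Agent.P254.S

open Vale.Agent.P227
open scoped ContDiff
open MeasureTheory Set Filter Topology Matrix

variable {n : ℕ}

theorem iso_sc {V u : X n → ℝ} (hu : KEPair V u) (G : Matrix (Fin n) (Fin n) (PGA n))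
    (hG : ∀ x a b, evA x (G a b) = ((8 / 25 : ℝ) • tau u x + (16 / 25 : ℝ) • (1 : Mat n))⁻¹ a b)
    (l : Fin n) (x : X n) : evA x (sc hu.setup G l) = scr V (u1 u) l x := by
  have e : ∀ k, (∑ m, hu.setup.τ k m * G m l : PGA n).1 = fun y => tau (u1 u) y k l := fun k =>
    funext fun y => by
      rw [tau_u1 hu.v2.1 hu.lb, Matrix.mul_apply, ← evA_apply, map_sum]
      exact Finset.sum_congr rfl fun m _ => by rw [map_mul, hG]; rfl
  rw [sc, map_sum, scr]
  refine Finset.sum_congr rfl fun k _ => ?_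
  rw [Setup.ds, map_add, map_neg, map_mul, evA_apply x (∑ m, _), e]
  exact congrArg (fun f => -pd k f x + pd k V x * tau (u1 u) x k l) (e k)

theorem iso_ent {V : X n → ℝ} (hV : Pot V) (hZ : ∫ x, Real.exp (-V x) = 1)
    (hx : ∀ a b, ∫ x, x a * x b * Real.exp (-V x) = if a = b then 1 else 0) :
    n * (Real.log (2 * Real.pi) / 2 + 21 / 200) ≤ ∫ x, V x * Real.exp (-V x) := by
  obtain ⟨u, hu, he⟩ := exists_ke hV
  have hτ := fld_tau hu.v2 hu.lb
  obtain ⟨F, lg, F1, F2, F3⟩ := exists_F hτ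
  obtain ⟨G, G1, G2, G3⟩ := exists_G hτ
  have v1 := v2_u1 hu.v2
  have l1 := lb_u1 hu.v2.1 hu.lb
  have h := master hu.setup (F := Matrix.of fun a b => ⟨fun x => F x a b, (F1 a b).pg⟩)
    (G := Matrix.of fun a b => ⟨fun x => G x a b, (G1 a b).pg⟩)
    (ℓ := ⟨fun x => Real.log (hess (u1 u) x).det, (bs_logdet v1 l1).pg⟩)
    (fun p => by
      obtain ⟨c, hc, hl⟩ := hV.lb
      exact (hl p).posSemidef hc.le (hess_isSymm hV.v2.1 p))
    (by
      rw [hu.E_eq _ fun x => map_one _]
      simpa only [one_mul] using hZ)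
    (fun a b => hx a b) F3 (fun p Φ => F2 p Φ) (fun p Φ => G2 p Φ)
    (fun p Φ => logdet_u1 hu.v2.1 hu.lb p Φ) fun k l η hη => by
      obtain ⟨w, g, hw, hg, hd⟩ := density hV hu he (F1 k l).v2
        (F2.ev hτ (tau_neg hu.v2.1 he) k l) hη
      have hG : (hu.setup.L ⟨w, hw⟩ + ⟨w, hw⟩ : PGA n).1 = g := by
        funext x
        rw [hg]
        exact congrArg (· + w x) (hu.ev_L ⟨w, hw⟩ x)
      rw [hZ, div_one] at hd
      refine ⟨⟨w, hw⟩, le_of_eq_of_le (hu.E_eq _ fun x => ?_) hd⟩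
      rw [map_mul, map_sub, hu.ev_L, hG, pow_two]
      rfl
  rw [hu.E_eq (F := fun x => Real.log (hess (u1 u) x).det) _ fun x => rfl,
    hu.E_eq (F := fun x => ∑ l, scr V (u1 u) l x * scr V (u1 u) l x) _ fun x => by
      rw [map_sum]
      exact Finset.sum_congr rfl fun l _ => by
        rw [map_mul, iso_sc hu _ fun x a b => congrFun (congrFun (G3 x) a) b]] at h
  linarith [stam hV v1 l1 hZ]

end Vale.Agent.P254.S
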