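import Vale.Agent.P254.S.Defs
import Vale.Agent.P227.Gauss
import Vale.Agent.P245.PL

/-! # P254 S/LSI

TASK, helper names start with lsi_.  Euclidean logarithmic Sobolev inequality from Prekopa-Leindler (P245.pl_pi, lintegral form on Fin n → ℝ).
WLOG Λ > 0.  Fix 0 < θ < 1, 0 < t < 1, B t = {x | 2 t Λ (1 + ‖x‖) ≤ θ}, k x = nsq (g x - x) / (2 (1-θ)) - nsq x / 2, Q x = W x + t * k x.  For x ∈ B t and all y, with e = y - x, ht at (x, t • e) and
completing the square give W ((1-t) x + t y) - t * nsq y / 2 ≤ Q x.  PL for f = indicator (B t) exp (-Q/(1-t)), g = exp (-nsq/2) (integral (2π)^(n/2), integral_fintype_prod_volume_eq_pow, integral_gaussian), h = exp (-W):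
∫ f ≤ exp (- t/(1-t) * n/2 * log 2π).  Pointwise exp (-Q/(1-t)) ≥ exp (-W) * (1 + W - Q/(1-t)) = exp (-W) * (1 - t/(1-t) (W + k)) (add_one_le_exp); the lower function is integrable
(integrable_mul_exp; to pass from lintegral use ofReal of its positive part or ofReal_integral_norm).  With s = t/(1-t):
1 - ν(B tᶜ) - s ∫_{B t} (W + k) e^{-W} ≤ exp (- s c), ν(B tᶜ) ≤ (2 t Λ/θ)² ∫ (1+‖x‖)² e^{-W}.  Divide by s, let t → 0 (dominated convergence; exp (-s c) ≤ 1 - s c + (s c)² for small s): c ≤ ∫ (W + k) e^{-W}.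
Then θ → 0 (the integral is affine in 1/(1-θ)); nsq (g - x)/2 - nsq x/2 = nsq g/2 - dot g x.
-/

set_option linter.unusedSectionVars false
set_option linter.unusedVariables false

namespace Vale.Agent.P254.S

open Vale.Agent.P227
open scoped ContDiff
open MeasureTheory Set Filter Topology Matrix

variable {n : ℕ}

/-- Continuous with polynomial growth. -/
def lsi_P (f : X n → ℝ) : Prop := Continuous f ∧ ∃ (C : ℝ) (N : ℕ), ∀ x, |f x| ≤ C * (1 + ‖x‖) ^ N

theorem lsi_const (c : ℝ) : lsi_P fun _ : X n => c := ⟨continuous_const, |c|, 0, fun x => by simp⟩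

theorem lsi_mul {f g : X n → ℝ} (hf : lsi_P f) (hg : lsi_P g) : lsi_P fun x => f x * g x := by
  obtain ⟨h1, C, N, h2⟩ := hf
  obtain ⟨h3, D, M, h4⟩ := hg
  refine ⟨h1.mul h3, C * D, N + M, fun x => ?_⟩
  rw [abs_mul, pow_add, mul_mul_mul_comm]
  exact mul_le_mul (h2 x) (h4 x) (abs_nonneg _) ((abs_nonneg _).trans (h2 x))

theorem lsi_add {f g : X n → ℝ} (hf : lsi_P f) (hg : lsi_P g) : lsi_P fun x => f x + g x := by
  obtain ⟨h1, C, N, h2⟩ := hf
  obtain ⟨h3, D, M, h4⟩ := hg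
  refine ⟨h1.add h3, |C| + |D|, N + M, fun x => ?_⟩
  have h5 : 1 ≤ 1 + ‖x‖ := le_add_of_nonneg_right (norm_nonneg x)
  have h6 : C * (1 + ‖x‖) ^ N ≤ |C| * (1 + ‖x‖) ^ (N + M) :=
    mul_le_mul (le_abs_self C) (pow_le_pow_right₀ h5 (Nat.le_add_right N M)) (by positivity)
      (abs_nonneg C)
  have h7 : D * (1 + ‖x‖) ^ M ≤ |D| * (1 + ‖x‖) ^ (N + M) :=
    mul_le_mul (le_abs_self D) (pow_le_pow_right₀ h5 (Nat.le_add_left M N)) (by positivity)
      (abs_nonneg D)
  linarith [abs_add_le (f x) (g x), h2 x, h4 x]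

theorem lsi_abs {f : X n → ℝ} (hf : lsi_P f) : lsi_P fun x => |f x| := by
  obtain ⟨h1, C, N, h2⟩ := hf
  exact ⟨h1.abs, C, N, fun x => by rw [abs_abs]; exact h2 x⟩

theorem lsi_sub {f g : X n → ℝ} (hf : lsi_P f) (hg : lsi_P g) : lsi_P fun x => f x - g x := by
  simpa only [neg_one_mul, ← sub_eq_add_neg] using lsi_add hf (lsi_mul (lsi_const (-1)) hg)

theorem lsi_sum {f : Fin n → X n → ℝ} (hf : ∀ i, lsi_P (f i)) : lsi_P fun x => ∑ i, f i x := by
  have h : ∀ s : Finset (Fin n), lsi_P fun x => ∑ i ∈ s, f i x := fun s => by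
    induction s using Finset.induction_on with
    | empty => simpa only [Finset.sum_empty] using lsi_const 0
    | insert i s hi ih => simpa only [Finset.sum_insert hi] using lsi_add (hf i) ih
  exact h _

theorem lsi_norm : lsi_P fun x : X n => 1 + ‖x‖ :=
  ⟨continuous_const.add continuous_norm, 1, 1, fun x => by
    rw [abs_of_nonneg (by positivity), one_mul, pow_one]⟩

theorem lsi_dot {g h : X n → X n} (hg : ∀ i, lsi_P fun x => g x i) (hh : ∀ i, lsi_P fun x => h x i) :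
    lsi_P fun x => dot (g x) (h x) := lsi_sum fun i => lsi_mul (hg i) (hh i)

theorem lsi_nsq {g : X n → X n} (hg : ∀ i, lsi_P fun x => g x i) : lsi_P fun x => nsq (g x) := by
  simpa only [nsq, dot, sq] using lsi_dot hg hg

theorem lsi_coord (i : Fin n) : lsi_P fun x : X n => x i :=
  ⟨continuous_apply i, 1, 1, fun x => by
    rw [one_mul, pow_one]
    linarith [norm_le_pi_norm x i, Real.norm_eq_abs (x i)]⟩

theorem lsi_lim {c I J δ : ℝ} (hδ : 0 < δ) (h : ∀ s, 0 < s → s ≤ δ → c ≤ I + s * J) : c ≤ I := by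
  have h1 : Tendsto (fun s : ℝ => I + s * J) (𝓝[>] 0) (𝓝 (I + 0 * J)) :=
    (Continuous.tendsto (by fun_prop) 0).mono_left nhdsWithin_le_nhds
  rw [zero_mul, add_zero] at h1
  refine ge_of_tendsto h1 ?_
  filter_upwards [Ioc_mem_nhdsGT hδ] with s hs using h s hs.1 hs.2

theorem lsi_gauss : ∫ y : X n, Real.exp (-(1 / 2 * nsq y)) =
    Real.exp (n / 2 * Real.log (2 * Real.pi)) := by
  have h1 : ∀ y : X n, Real.exp (-(1 / 2 * nsq y)) = ∏ i, Real.exp (-(1 / 2) * y i ^ 2) := by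
    intro y
    rw [← Real.exp_sum, ← Finset.mul_sum, nsq, neg_mul]
  simp only [h1]
  rw [integral_fintype_prod_volume_eq_pow fun s : ℝ => Real.exp (-(1 / 2) * s ^ 2),
    integral_gaussian, Fintype.card_fin, Real.sqrt_eq_rpow, Real.rpow_def_of_pos (by positivity),
    ← Real.exp_nat_mul, show Real.pi / (1 / 2) = 2 * Real.pi by ring]
  exact congrArg _ (by ring)

theorem lsi_pl {W F φ : X n → ℝ} {s t : ℝ} (h0 : 0 < t) (h1 : t < 1) (hs : s * (1 - t) = t)
    (hW : Continuous W) (hi : Integrable fun z => Real.exp (-W z))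
    (hZ : ∫ z, Real.exp (-W z) = 1) (mF : Measurable F) (F0 : ∀ x, 0 ≤ F x) (hφ : Integrable φ)
    (hle : ∀ x, φ x ≤ F x) (H : ∀ x y, F x ^ (1 - t) * Real.exp (-(1 / 2 * nsq y)) ^ t ≤
      Real.exp (-W ((1 - t) • x + t • y))) :
    ∫ x, φ x ≤ Real.exp (-(s * (n / 2 * Real.log (2 * Real.pi)))) := by
  have ht : 0 < 1 - t := sub_pos.2 h1
  have mG : Continuous fun y : X n => Real.exp (-(1 / 2 * nsq y)) :=
    Real.continuous_exp.comp (continuous_const.mul sm_nsq.cont).neg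
  have iG : Integrable fun y : X n => Real.exp (-(1 / 2 * nsq y)) := by
    simpa only [pow_zero, one_mul] using integrable_gauss_poly (n := n) one_half_pos 0
  have key := P245.pl_pi h0 h1 n _ _ _ mF.ennreal_ofReal mG.measurable.ennreal_ofReal
    (Real.continuous_exp.comp hW.neg).measurable.ennreal_ofReal fun x y => by
      rw [ENNReal.ofReal_rpow_of_nonneg (F0 x) ht.le,
        ENNReal.ofReal_rpow_of_nonneg (Real.exp_pos _).le h0.le,
        ← ENNReal.ofReal_mul (Real.rpow_nonneg (F0 x) _)]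
      exact ENNReal.ofReal_le_ofReal (H x y)
  have p0 : ∀ x, 0 ≤ max (φ x) 0 := fun x => le_max_right _ _
  have h2 : ENNReal.ofReal (∫ x, max (φ x) 0) ≤ ∫⁻ x, ENNReal.ofReal (F x) := by
    rw [ofReal_integral_eq_lintegral_ofReal hφ.pos_part (ae_of_all _ p0)]
    exact lintegral_mono fun x => ENNReal.ofReal_le_ofReal (max_le (hle x) (F0 x))
  have h3 := (mul_le_mul_left (ENNReal.rpow_le_rpow h2 ht.le) _).trans key
  have L0 : 0 ≤ ∫ x, max (φ x) 0 := integral_nonneg p0
  simp only [Function.comp_apply, Pi.neg_apply] at h3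
  rw [← ofReal_integral_eq_lintegral_ofReal iG (ae_of_all _ fun _ => (Real.exp_pos _).le),
    ← ofReal_integral_eq_lintegral_ofReal hi (ae_of_all _ fun _ => (Real.exp_pos _).le), hZ,
    lsi_gauss, ENNReal.ofReal_rpow_of_nonneg L0 ht.le,
    ENNReal.ofReal_rpow_of_nonneg (Real.exp_pos _).le h0.le,
    ← ENNReal.ofReal_mul (Real.rpow_nonneg L0 _), ENNReal.ofReal_le_ofReal_iff zero_le_one,
    ← Real.exp_mul] at h3
  refine (integral_mono hφ hφ.pos_part fun x => le_max_left _ _).trans (not_lt.1 fun h4 => ?_)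
  have h5 := mul_lt_mul_of_pos_right (Real.rpow_lt_rpow (Real.exp_pos _).le h4 ht)
    (Real.exp_pos (n / 2 * Real.log (2 * Real.pi) * t))
  rw [← Real.exp_mul, ← Real.exp_add, show -(s * (n / 2 * Real.log (2 * Real.pi))) * (1 - t) +
    n / 2 * Real.log (2 * Real.pi) * t = 0 by
      linear_combination -(n / 2 * Real.log (2 * Real.pi)) * hs, Real.exp_zero] at h5
  exact absurd h3 (not_le.2 h5)

theorem lsi_sq {η : ℝ} (h0 : 0 < η) (h1 : η ≤ 1) (g x y : X n) :
    dot g (y - x) + η / 4 * nsq (y - x) - 1 / 2 * nsq y ≤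
      (1 + η) / 2 * nsq (g - x) - 1 / 2 * nsq x := by
  simp only [dot, nsq, Finset.mul_sum, ← Finset.sum_add_distrib, ← Finset.sum_sub_distrib,
    Pi.sub_apply]
  refine Finset.sum_le_sum fun i _ => le_of_mul_le_mul_left ?_ (show 0 < 1 + η by linarith)
  nlinarith [sq_nonneg ((1 + η) * (g i - x i) - (y i - x i)),
    mul_nonneg (mul_nonneg h0.le (sub_nonneg.2 h1)) (sq_nonneg (y i - x i))]

theorem lsi_eta {W k : X n → ℝ} {g : X n → X n} {Λ η : ℝ} (hW : lsi_P W) (hk : lsi_P k)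
    (hco : ∃ c > 0, ∃ C, ∀ z, c * nsq z - C ≤ W z)
    (ht : ∀ z e, W (z + e) ≤ W z + dot (g z) e + Λ * (1 + ‖z‖) * nsq e)
    (hZ : ∫ z, Real.exp (-W z) = 1) (h0 : 0 < η) (h1 : η ≤ 1)
    (hke : ∀ x, k x = (1 + η) / 2 * nsq (g x - x) - 1 / 2 * nsq x) :
    n / 2 * Real.log (2 * Real.pi) ≤ ∫ z, (W z + k z) * Real.exp (-W z) := by
  have hI : ∀ {f : X n → ℝ}, lsi_P f → Integrable fun x => f x * Real.exp (-W x) := fun hf =>
    integrable_mul_exp hW.1 hco hf.1 hf.2
  have hi : Integrable fun z => Real.exp (-W z) := by simpa only [one_mul] using hI (lsi_const 1)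
  set c : ℝ := n / 2 * Real.log (2 * Real.pi) with hc
  obtain ⟨a, ha0, ha⟩ : ∃ a : ℝ, 0 ≤ a ∧ η / 4 * a = |Λ| :=
    ⟨4 * |Λ| / η, by positivity, by field_simp⟩
  have hV := lsi_add hW hk
  have hR : lsi_P fun x => a * (1 + ‖x‖) * (a * (1 + ‖x‖) + |W x + k x|) :=
    lsi_mul (lsi_mul (lsi_const a) lsi_norm)
      (lsi_add (lsi_mul (lsi_const a) lsi_norm) (lsi_abs hV))
  refine lsi_lim (δ := 1 / (|c| + 1)) (J := (∫ x, a * (1 + ‖x‖) * (a * (1 + ‖x‖) + |W x + k x|) *
    Real.exp (-W x)) + c ^ 2) (by positivity) fun s hs hsδ => ?_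
  obtain ⟨t, t0, t1, hst⟩ : ∃ t : ℝ, 0 < t ∧ t < 1 ∧ s * (1 - t) = t :=
    ⟨s / (1 + s), by positivity, (div_lt_one (by positivity)).2 (by linarith), by
      field_simp
      ring⟩
  have hB : MeasurableSet {x : X n | s * (a * (1 + ‖x‖)) ≤ 1} :=
    (isClosed_le (by fun_prop) continuous_const).measurableSet
  have h2 := lsi_pl (F := indicator {x : X n | s * (a * (1 + ‖x‖)) ≤ 1}
      fun x => Real.exp (-W x - s * (W x + k x)))
    (φ := fun x => Real.exp (-W x) - s * ((W x + k x) * Real.exp (-W x)) -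
      s ^ 2 * (a * (1 + ‖x‖) * (a * (1 + ‖x‖) + |W x + k x|) * Real.exp (-W x))) t0 t1 hst hW.1 hi hZ
    ((Real.continuous_exp.comp (hW.1.neg.sub (continuous_const.mul hV.1))).measurable.indicator hB)
    (indicator_nonneg fun _ _ => (Real.exp_pos _).le)
    ((hi.sub ((hI hV).const_mul s)).sub ((hI hR).const_mul _)) (fun x => ?_) fun x y => ?_
  · have i1 : Integrable fun x => Real.exp (-W x) - s * ((W x + k x) * Real.exp (-W x)) :=
      hi.sub ((hI hV).const_mul s)
    rw [integral_sub i1 ((hI hR).const_mul _),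
      integral_sub hi ((hI hV).const_mul s), hZ, integral_const_mul, integral_const_mul, ← hc] at h2
    have h3 : |-(s * c)| ≤ 1 := by
      rw [abs_neg, abs_mul, abs_of_pos hs]
      rw [le_div_iff₀ (by positivity)] at hsδ
      linarith
    have h4 := (abs_le.1 (Real.abs_exp_sub_one_sub_id_le h3)).2
    refine le_of_mul_le_mul_left ?_ hs
    linarith
  · have e0 := Real.exp_pos (-W x)
    have u0 : 0 ≤ a * (1 + ‖x‖) := by positivity
    by_cases hx : x ∈ {x : X n | s * (a * (1 + ‖x‖)) ≤ 1}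
    · rw [indicator_of_mem hx, sub_eq_add_neg (-W x), Real.exp_add]
      have h3 := mul_le_mul_of_nonneg_left (Real.add_one_le_exp (-(s * (W x + k x)))) e0.le
      have h4 : 0 ≤ s ^ 2 * (a * (1 + ‖x‖) * (a * (1 + ‖x‖) + |W x + k x|) * Real.exp (-W x)) := by
        positivity
      linarith
    · rw [indicator_of_notMem hx]
      have h3 : 1 < s * (a * (1 + ‖x‖)) := not_le.1 hx
      generalize a * (1 + ‖x‖) = u at h3 u0
      have h4 : 1 ≤ (s * u) ^ 2 := one_le_pow₀ h3.le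
      have h5 : s * |W x + k x| ≤ s * u * (s * |W x + k x|) :=
        le_mul_of_one_le_left (by positivity) h3.le
      have h6 := mul_le_mul_of_nonneg_left (neg_le_abs (W x + k x)) hs.le
      have h7 : 1 - s * (W x + k x) - s ^ 2 * (u * (u + |W x + k x|)) ≤ 0 := by linarith
      linarith [mul_nonpos_of_nonpos_of_nonneg h7 e0.le]
  · by_cases hx : x ∈ {x : X n | s * (a * (1 + ‖x‖)) ≤ 1}
    · rw [indicator_of_mem hx, ← Real.exp_mul, ← Real.exp_mul, ← Real.exp_add, Real.exp_le_exp]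
      have e1 : (1 - t) • x + t • y = x + t • (y - x) := by
        rw [sub_smul, one_smul, smul_sub]
        abel
      have e2 : dot (g x) (t • (y - x)) = t * dot (g x) (y - x) := by
        simp only [dot, Pi.smul_apply, smul_eq_mul, Finset.mul_sum]
        exact Finset.sum_congr rfl fun i _ => by ring
      have e3 : nsq (t • (y - x)) = t ^ 2 * nsq (y - x) := by
        simp only [nsq, Pi.smul_apply, smul_eq_mul, Finset.mul_sum, mul_pow]
      have h3 := ht x (t • (y - x))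
      rw [e2, e3] at h3
      have h4 := mul_le_mul_of_nonneg_left (lsi_sq h0 h1 (g x) x y) t0.le
      have h5 : t ≤ s := by nlinarith
      have h6 : t * (a * (1 + ‖x‖)) ≤ 1 :=
        (mul_le_mul_of_nonneg_right h5 (by positivity)).trans hx
      have h7 : Λ * (1 + ‖x‖) * t ≤ η / 4 := by
        have h8 := mul_le_mul_of_nonneg_left h6 (show 0 ≤ η / 4 by positivity)
        have h9 := mul_le_mul_of_nonneg_right ((le_abs_self Λ).trans ha.ge)
          (show 0 ≤ (1 + ‖x‖) * t by positivity)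
        linarith
      have h8 := mul_le_mul_of_nonneg_right h7 (mul_nonneg t0.le (nsq_nonneg (y - x)))
      have h9 : (-W x - s * (W x + k x)) * (1 - t) = -W x - t * k x := by
        linear_combination -(W x + k x) * hst
      rw [e1, h9, hke]
      linarith
    · rw [indicator_of_notMem hx, Real.zero_rpow (sub_pos.2 t1).ne', zero_mul]
      exact (Real.exp_pos _).le

theorem lsi {W : X n → ℝ} {g : X n → X n} (hW : Continuous W) (hg : Continuous g)
    (hco : ∃ c > 0, ∃ C, ∀ z, c * nsq z - C ≤ W z)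
    (hb : ∃ C, ∀ z, |W z| ≤ C * (1 + ‖z‖) ^ 2 ∧ ‖g z‖ ≤ C * (1 + ‖z‖))
    (ht : ∃ Λ, ∀ z e, W (z + e) ≤ W z + dot (g z) e + Λ * (1 + ‖z‖) * nsq e)
    (hZ : ∫ z, Real.exp (-W z) = 1) :
    n / 2 * Real.log (2 * Real.pi)
      ≤ ∫ z, (W z + nsq (g z) / 2 - dot (g z) z) * Real.exp (-W z) := by
  obtain ⟨C, hC⟩ := hb
  obtain ⟨Λ, ht⟩ := ht
  have pW : lsi_P W := ⟨hW, C, 2, fun z => (hC z).1⟩
  have pg : ∀ i, lsi_P fun x => g x i := fun i => ⟨(continuous_apply i).comp hg, C, 1, fun z => by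
    rw [pow_one]
    exact (norm_le_pi_norm (g z) i).trans (hC z).2⟩
  have pd : lsi_P fun x => nsq (g x - x) := lsi_nsq fun i => lsi_sub (pg i) (lsi_coord i)
  have hI : ∀ {f : X n → ℝ}, lsi_P f → Integrable fun x => f x * Real.exp (-W x) := fun hf =>
    integrable_mul_exp hW hco hf.1 hf.2
  have p0 : lsi_P fun z => W z + nsq (g z) / 2 - dot (g z) z := by
    simpa only [div_eq_mul_inv] using lsi_sub (lsi_add pW (lsi_mul (lsi_nsq pg) (lsi_const 2⁻¹)))
      (lsi_dot pg lsi_coord)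
  refine lsi_lim (J := ∫ z, 1 / 2 * nsq (g z - z) * Real.exp (-W z)) one_pos fun η h0 h1 => ?_
  refine (lsi_eta pW (lsi_sub (lsi_mul (lsi_const _) pd)
    (lsi_mul (lsi_const _) (lsi_nsq lsi_coord))) hco ht hZ h0 h1 fun _ => rfl).trans (le_of_eq ?_)
  rw [← integral_const_mul, ← integral_add (hI p0)
    ((hI (lsi_mul (lsi_const (1 / 2)) pd)).const_mul η)]
  refine integral_congr_ae (ae_of_all _ fun z => ?_)
  have e : nsq (g z - z) = nsq (g z) - 2 * dot (g z) z + nsq z := by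
    simp only [dot, nsq, Finset.mul_sum, ← Finset.sum_add_distrib, ← Finset.sum_sub_distrib,
      Pi.sub_apply]
    exact Finset.sum_congr rfl fun i _ => by ring
  simp only [e]
  ring

end Vale.Agent.P254.S
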