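import Vale.Agent.P254.S.Defs

/-! # P254 S/Rot

TASK, helper names start with rot_.
All contractions are invariant under an orthogonal change of frame.  rot U Y = s1 Uᵀ (s2 Uᵀ (s3 Uᵀ Y)) (P227 BochR: s1_s1, s2_s1, ip3_s1, sw ...), tG τ Y Z = ip3 Y (s1 τ Z) up to the order of the sums,
tS τ Y = ip3 (s1 τ Y) (sw (s1 τ Y)), s1 (Uᵀ τ U) (rot U Y) = rot U (s1 τ Y).  For tB permute the slots.  For tT: it is ∑ c d, (∑ a b, N b a c * N a b d) * (∑ k l, u c k l * u d k l) = t2 P Q and both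
Gram matrices transform as P ↦ Uᵀ P U.  t2 P Q = trace (Pᵀ * Q), t3 τ G = t2 (τ * G) G.
-/

set_option linter.unusedSectionVars false
set_option linter.unusedVariables false

namespace Vale.Agent.P254.S

open Vale.Agent.P227
open scoped ContDiff
open MeasureTheory Set Filter Topology Matrix

variable {n : ℕ}

variable {U : Mat n}

theorem rot_c4 (f : Fin n → Fin n → Fin n → Fin n → ℝ) :
    ∑ a, ∑ b, ∑ c, ∑ d, f a b c d = ∑ c, ∑ d, ∑ a, ∑ b, f a b c d :=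
  (Finset.sum_congr rfl fun _ _ =>
    Finset.sum_comm.trans (Finset.sum_congr rfl fun _ _ => Finset.sum_comm)).trans
    (Finset.sum_comm.trans (Finset.sum_congr rfl fun _ _ => Finset.sum_comm))

theorem rot_eqs (U : Mat n) (Y : T3 n ℝ) : rot U Y = s1 Uᵀ (s2 Uᵀ (s3 Uᵀ Y)) := by
  funext i k l
  simp only [rot, s1, s2, s3, Finset.mul_sum, transpose_apply, mul_assoc]

theorem rot_s2_one (Y : T3 n ℝ) : s2 1 Y = Y := by
  funext k b c
  simp [s2, Matrix.one_apply]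

theorem rot_s3_one (Y : T3 n ℝ) : s3 1 Y = Y := by
  funext k b c
  simp [s3, Matrix.one_apply]

theorem rot_ip3 (hU : U * Uᵀ = 1) (Y Z : T3 n ℝ) : ip3 (rot U Y) (rot U Z) = ip3 Y Z := by
  rw [rot_eqs, rot_eqs, ip3_s1, transpose_transpose, s1_s1, hU, s1_one, ip3_s2, transpose_transpose,
    s2_s2, hU, rot_s2_one, ip3_s3, transpose_transpose, s3_s3, hU, rot_s3_one]

theorem rot_s1 (hU : U * Uᵀ = 1) (τ : Mat n) (Y : T3 n ℝ) :
    s1 (Uᵀ * τ * U) (rot U Y) = rot U (s1 τ Y) := by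
  rw [rot_eqs, rot_eqs, s1_s1, s3_s1, s2_s1, s1_s1, Matrix.mul_assoc, hU, Matrix.mul_one]

theorem rot_s3 (hU : U * Uᵀ = 1) (τ : Mat n) (Y : T3 n ℝ) :
    s3 (Uᵀ * τ * U) (rot U Y) = rot U (s3 τ Y) := by
  rw [rot_eqs, rot_eqs, s3_s1, s3_s2, s3_s3, s3_s3, Matrix.mul_assoc, hU, Matrix.mul_one]

theorem rot_sw (U : Mat n) (Y : T3 n ℝ) : sw (rot U Y) = rot U (sw Y) := by
  rw [rot_eqs, rot_eqs, sw_s1, sw_s2, sw_s3, s2_s1]

/-- Swap of the last two slots. -/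
def rot_tw (Y : T3 n ℝ) : T3 n ℝ := fun k b c => Y k c b

theorem rot_tw_rot (U : Mat n) (Y : T3 n ℝ) : rot_tw (rot U Y) = rot U (rot_tw Y) := by
  rw [rot_eqs, rot_eqs, ← s3_s2 _ _ (rot_tw Y)]
  rfl

theorem rot_mul (hU : U * Uᵀ = 1) (P Q : Mat n) :
    Uᵀ * P * U * (Uᵀ * Q * U) = Uᵀ * (P * Q) * U := by
  simp only [Matrix.mul_assoc]
  rw [← Matrix.mul_assoc U, hU, Matrix.one_mul]

theorem rot_tr (hU : U * Uᵀ = 1) (P : Mat n) : (Uᵀ * P * U).trace = P.trace := by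
  rw [trace_mul_cycle, hU, Matrix.one_mul]

theorem rot_t2_eq (P Q : Mat n) : t2 P Q = (Pᵀ * Q).trace := by
  simp only [t2, trace, diag, mul_apply, transpose_apply]
  exact Finset.sum_comm

theorem rot_t2 (hU : U * Uᵀ = 1) (P Q : Mat n) : t2 (Uᵀ * P * U) (Uᵀ * Q * U) = t2 P Q := by
  have e : (Uᵀ * P * U)ᵀ = Uᵀ * Pᵀ * U := by
    rw [transpose_mul, transpose_mul, transpose_transpose, Matrix.mul_assoc]
  rw [rot_t2_eq, rot_t2_eq, e, rot_mul hU, rot_tr hU]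

theorem rot_t3 (hU : U * Uᵀ = 1) (τ G : Mat n) : t3 (Uᵀ * τ * U) (Uᵀ * G * U) = t3 τ G := by
  have e : ∀ τ G : Mat n, t3 τ G = t2 (τ * G) G := fun τ G => by
    simp only [t3, t2, mul_apply, Finset.sum_mul]
    exact Finset.sum_congr rfl fun _ _ => Finset.sum_comm
  rw [e, e, rot_mul hU, rot_t2 hU]

theorem rot_tG (hU : U * Uᵀ = 1) (τ : Mat n) (Y Z : T3 n ℝ) :
    tG (Uᵀ * τ * U) (rot U Y) (rot U Z) = tG τ Y Z := by
  have e : ∀ (τ : Mat n) (Y Z : T3 n ℝ), tG τ Y Z = ip3 Y (s1 τ Z) := fun τ Y Z => by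
    simp only [tG, ip3, s1, Finset.mul_sum]
    refine ((Finset.sum_congr rfl fun _ _ => Finset.sum_comm).trans Finset.sum_comm).trans ?_
    exact Finset.sum_congr rfl fun _ _ => Finset.sum_congr rfl fun _ _ =>
      Finset.sum_congr rfl fun _ _ => Finset.sum_congr rfl fun _ _ => by ring
  rw [e, e, rot_s1 hU, rot_ip3 hU]

theorem rot_tS (hU : U * Uᵀ = 1) (τ : Mat n) (Y : T3 n ℝ) :
    tS (Uᵀ * τ * U) (rot U Y) = tS τ Y := by
  have e : ∀ (τ : Mat n) (Y : T3 n ℝ), tS τ Y = ip3 (s1 τ Y) (sw (s1 τ Y)) := fun _ _ => rfl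
  rw [e, e, rot_s1 hU, rot_sw, rot_ip3 hU]

theorem rot_tB (hU : U * Uᵀ = 1) (τ : Mat n) (N : T3 n ℝ) :
    tB (Uᵀ * τ * U) (rot U N) = tB τ N := by
  have e : ∀ (τ : Mat n) (N : T3 n ℝ), tB τ N = ip3 (sw N) (s1 τ (sw (rot_tw (sw N)))) := by
    intro τ N
    simp only [tB, ip3, s1, sw, rot_tw, Finset.mul_sum]
    refine Finset.sum_congr rfl fun _ _ => ?_
    refine (Finset.sum_comm.trans (Finset.sum_congr rfl fun _ _ => Finset.sum_comm)).trans ?_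
    exact Finset.sum_congr rfl fun _ _ =>
      Finset.sum_congr rfl fun _ _ => Finset.sum_congr rfl fun _ _ => by ring
  rw [e, e, rot_sw, rot_tw_rot, rot_sw, rot_s1 hU, rot_ip3 hU]

/-- The Gram matrix of the first slot. -/
def rot_Q (u : T3 n ℝ) : Mat n := Matrix.of fun c d => ∑ k, ∑ l, u c k l * u d k l

theorem rot_Q_s1 (M : Mat n) (v : T3 n ℝ) : rot_Q (s1 M v) = M * rot_Q v * Mᵀ := by
  ext c d
  rw [Matrix.mul_assoc]
  simp only [rot_Q, s1, of_apply, Finset.sum_mul_sum]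
  rw [rot_c4]
  simp only [mul_apply, of_apply, transpose_apply, Finset.mul_sum, Finset.sum_mul]
  exact Finset.sum_congr rfl fun _ _ => Finset.sum_congr rfl fun _ _ =>
    Finset.sum_congr rfl fun _ _ => Finset.sum_congr rfl fun _ _ => by ring

theorem rot_Q_rot (hU : U * Uᵀ = 1) (u : T3 n ℝ) : rot_Q (rot U u) = Uᵀ * rot_Q u * U := by
  have e : ∀ c k l, s2 Uᵀ (s3 Uᵀ u) c k l = (Uᵀ * Matrix.of (u c) * U) k l := by
    intro c k l
    rw [Matrix.mul_assoc]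
    simp only [s2, s3, mul_apply, of_apply, transpose_apply, mul_comm]
  have e2 : rot_Q (s2 Uᵀ (s3 Uᵀ u)) = rot_Q u := by
    ext c d
    simp only [rot_Q, of_apply, e]
    exact rot_t2 hU (Matrix.of (u c)) (Matrix.of (u d))
  rw [rot_eqs, rot_Q_s1, e2, transpose_transpose]

theorem rot_tT (hU : U * Uᵀ = 1) (N u : T3 n ℝ) : tT (rot U N) (rot U u) = tT N u := by
  have e : ∀ N u : T3 n ℝ, tT N u = ip3 (sw N) (s3 (rot_Q u) N) := by
    intro N u
    rw [tT, rot_c4]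
    refine Finset.sum_congr rfl fun a _ => Finset.sum_congr rfl fun b _ => ?_
    simp only [Finset.sum_mul_sum]
    rw [rot_c4]
    simp only [sw, s3, rot_Q, of_apply, Finset.mul_sum, Finset.sum_mul]
    exact Finset.sum_congr rfl fun _ _ => Finset.sum_congr rfl fun _ _ =>
      Finset.sum_congr rfl fun _ _ => Finset.sum_congr rfl fun _ _ => by ring
  rw [e, e, rot_Q_rot hU, rot_sw, rot_s3 hU, rot_ip3 hU]

theorem rot_gap (hU : U * Uᵀ = 1) (τ : Mat n) (N : T3 n ℝ) (F : Mat n) (dF : T3 n ℝ) (G : Mat n)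
    (dG : T3 n ℝ) (ℓ : ℝ) (u : T3 n ℝ) :
    gap (Uᵀ * τ * U) (rot U N) (Uᵀ * F * U) (rot U dF) (Uᵀ * G * U) (rot U dG) ℓ (rot U u)
      = gap τ N F dF G dG ℓ u := by
  have e : Uᵀ * τ * U - 1 = Uᵀ * (τ - 1) * U := by
    rw [Matrix.mul_sub, Matrix.sub_mul, Matrix.mul_one, mul_eq_one_comm.1 hU]
  simp only [gap, e, rot_t2 hU, rot_t3 hU, rot_tG hU, rot_tS hU, rot_tB hU, rot_tT hU, rot_tr hU]

theorem rot_symm1 (U : Mat n) {N : T3 n ℝ} (h : ∀ c a b, N c a b = N c b a) (i k l : Fin n) :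
    rot U N i k l = rot U N i l k := by
  have e : rot_tw N = N := by
    funext c a b
    exact h c b a
  have h1 := rot_tw_rot U N
  rw [e] at h1
  exact congrFun (congrFun (congrFun h1 i) l) k

theorem rot_symm2 (hU : U * Uᵀ = 1) {τ : Mat n} {N : T3 n ℝ}
    (h : ∀ c a b, ∑ k, τ c k * N k a b = ∑ k, τ a k * N k c b) (c a b : Fin n) :
    ∑ k, (Uᵀ * τ * U) c k * rot U N k a b = ∑ k, (Uᵀ * τ * U) a k * rot U N k c b := by
  have e : sw (s1 τ N) = s1 τ N := by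
    funext c a b
    exact h a c b
  have h1 := rot_sw U (s1 τ N)
  rw [e, ← rot_s1 hU] at h1
  exact congrFun (congrFun (congrFun h1 a) c) b

end Vale.Agent.P254.S
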