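import Vale.Agent.P254.S.Frame
import Vale.Agent.P254.S.Rot
import Vale.Agent.P254.S.Diag
import Vale.Agent.P254.S.Alg
import Vale.Agent.P254.S.Boch

/-! # P254 S/Master

TASK, helper names start with ms_.
point: rewrite with rot_gap Φ.orth backwards, Φ.diag, hF, hG (funext), then diag with rot_symm1, rot_symm2 (diagonal sums).
master: fix η, choose w k l, put H k l = L (w k l) + w k l, u = dM S (of H).  ev p (gap ..) = gap (.. mapped) by simp [gap, t2, .., map_sum]; point with exists_frame (tau_posDef S p), τ_symm, D_τ_symm; so 0 ≤ E gap.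
E (tG τ dF u) = ∑ E Γ(F k l, H k l) = - ∑ E (F * L H) (E_mul_L); boch; hden give E (second bracket) ≤ ∑ ((E F)² + η - E F²).  For f = (τ - 1) k l, E f = 0 (E_tau, hx, h1), m = E (F k l):
0 ≤ E (f - F + m)² = E f² - 2 E (f F) + E F² - m².  b_ineq, E trace (τ - 1) = 0, E_sc.  So 39/50 (E (..) - n 179/200) ≤ n² η for all η.
-/

set_option linter.unusedSectionVars false
set_option linter.unusedVariables false

namespace Vale.Agent.P254.S

open Vale.Agent.P227
open scoped ContDiff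
open MeasureTheory Set Filter Topology Matrix

variable {n : ℕ}
variable {A : Type} [CommRing A] [Algebra ℝ A] (S : Setup n A)

theorem point {τ : Mat n} (Φ : Frame τ) {N : T3 n ℝ} (h1 : ∀ c a b, N c a b = N c b a)
    (h2 : ∀ c a b, ∑ k, τ c k * N k a b = ∑ k, τ a k * N k c b) {F G : Mat n} {dF dG : T3 n ℝ}
    {lg : ℝ → ℝ → ℝ} (hlg : LgB lg) (hF : MFp Φ N F dF fF (fF2 lg)) (hG : MFp Φ N G dG gG gG2)
    (u : T3 n ℝ) : 0 ≤ gap τ N F dF G dG (∑ i, ell (Φ.lam i)) u := by
  rw [← rot_gap Φ.orth, hF.1, hG.1, show rot Φ.U dF = _ from funext₃ hF.2,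
    show rot Φ.U dG = _ from funext₃ hG.2, Φ.diag]
  refine diag Φ.pos (rot_symm1 Φ.U h1) (fun i k l => ?_) hlg _
  have := rot_symm2 Φ.orth h2 i k l
  rw [Φ.diag] at this
  simpa [diagonal_apply] using this

theorem ms_ev (φ : A →ₐ[ℝ] ℝ) (τ F G : Matrix (Fin n) (Fin n) A) (N dF dG u : T3 n A) (ℓ : A) :
    φ (gap τ N F dF G dG ℓ u) = gap (τ.map φ) (fun c a b => φ (N c a b)) (F.map φ)
      (fun c a b => φ (dF c a b)) (G.map φ) (fun c a b => φ (dG c a b)) (φ ℓ)
      fun c a b => φ (u c a b) := by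
  have h : ∀ k l, φ ((1 : Matrix (Fin n) (Fin n) A) k l) = (1 : Mat n) k l := fun k l => by
    simp only [one_apply]
    split_ifs <;> simp
  simp only [gap, t2, t3, tG, tS, tB, tT, trace, diag_apply, map_add, map_sub, map_smul, map_sum,
    map_mul, map_one, map_apply, Matrix.sub_apply, h]

theorem ms_one (hg : Cvx S) (h1 : S.E 1 = 1) {f F w H : A} {η : ℝ} (hf : S.E f = 0)
    (hH : H = S.L w + w) (h : S.E ((F - S.L H) * (F - S.L H)) ≤ S.E F ^ 2 + η) :
    2 * S.E (f * F) - S.E (f * f) + (2 * S.E (S.Γ F H) + 27 / 25 * S.E (S.Γ H H) +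
      6 / 25 * S.E (∑ a, ∑ b,
        (∑ c, S.d b (S.τ a c) * S.d c H) * ∑ c, S.d a (S.τ b c) * S.d c H)) ≤ η := by
  have h2 := boch S hg w H hH
  have h3 := S.E_mul_L F H
  have h4 := S.E_nonneg ((f - F + S.E F • 1) * (f - F + S.E F • 1)) fun p => by
    rw [map_mul]
    exact mul_self_nonneg _
  have h5 : (F - S.L H) * (F - S.L H) = F * F - F * S.L H - F * S.L H + S.L H * S.L H := by ring
  have h6 : (f - F + S.E F • 1) * (f - F + S.E F • 1) = f * f - f * F - f * F + F * F +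
      S.E F • (f + f - F - F + S.E F • (1 : A)) := by
    simp only [Algebra.smul_def]
    ring
  simp only [h5, h6, map_add, map_sub, map_smul, h1, hf, smul_eq_mul] at h h4
  linarith

theorem master (hg : Cvx S) (h1 : S.E 1 = 1)
    (hx : ∀ a b, S.E (S.x a * S.x b) = if a = b then 1 else 0)
    {F G : Matrix (Fin n) (Fin n) A} {ℓ : A} {lg : ℝ → ℝ → ℝ} (hlg : LgB lg)
    (hF : SMF S F fF (fF2 lg)) (hG : SMF S G gG gG2)
    (hℓ : ∀ (p : X n) (Φ : Frame (S.τ.map (S.ev p))), S.ev p ℓ = ∑ i, ell (Φ.lam i))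
    (hden : ∀ k l (η : ℝ), 0 < η → ∃ w : A,
      S.E ((F k l - S.L (S.L w + w)) * (F k l - S.L (S.L w + w))) ≤ S.E (F k l) ^ 2 + η) :
    S.E ℓ + 1 / 2 * S.E (∑ l, sc S G l * sc S G l) ≤ n * (179 / 200) := by
  have hf : ∀ k l, S.E ((S.τ - 1) k l) = 0 := fun k l => by
    rw [Matrix.sub_apply, map_sub, E_tau, hx, one_apply]
    split_ifs <;> simp [h1]
  have key : ∀ η : ℝ, 0 < η → 39 / 50 * (S.E ℓ + 1 / 2 * S.E (∑ l, sc S G l * sc S G l) -
      n * (179 / 200)) ≤ n * (n * η) := fun η hη => by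
    choose w hw using fun k l => hden k l η hη
    have h2 := S.E_nonneg (gap S.τ (dM S S.τ) F (dM S F) G (dM S G) ℓ
      (dM S (of fun k l => S.L (w k l) + w k l))) fun p => by
        obtain ⟨Φ⟩ := exists_frame (tau_posDef S p)
        rw [ms_ev, hℓ p Φ]
        refine point Φ (fun c a b => ?_) (fun c a b => ?_) hlg (hF p Φ) (hG p Φ) _
        · simp only [S.τ_symm a b]
        · have := congrArg (S.ev p) (S.D_τ_symm a b c)
          simpa only [Setup.D, map_sum, map_mul, map_apply] using this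
    have h3 := Finset.sum_le_sum fun k (_ : k ∈ Finset.univ) => Finset.sum_le_sum
      fun l (_ : l ∈ Finset.univ) => ms_one S hg h1 (hf k l) rfl (hw k l)
    have h4 : S.E (S.τ - 1).trace = 0 := by
      simp only [trace, diag_apply, map_sum, hf, Finset.sum_const_zero]
    have h5 := b_ineq S hg
    have e1 : ∀ P Q : Matrix (Fin n) (Fin n) A,
        S.E (t2 P Q) = ∑ k, ∑ l, S.E (P k l * Q k l) := fun P Q => by simp only [t2, map_sum]
    have e2 : ∀ P Q : Matrix (Fin n) (Fin n) A,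
        S.E (tG S.τ (dM S P) (dM S Q)) = ∑ k, ∑ l, S.E (S.Γ (P k l) (Q k l)) := fun P Q => by
      simp only [← map_sum]
      rfl
    have e3 : ∀ P : Matrix (Fin n) (Fin n) A, S.E (tT (dM S S.τ) (dM S P)) =
        ∑ k, ∑ l, S.E (∑ a, ∑ b, (∑ c, S.d b (S.τ a c) * S.d c (P k l)) *
          ∑ c, S.d a (S.τ b c) * S.d c (P k l)) := fun P => by
      simp only [← map_sum]
      rfl
    simp only [Finset.sum_add_distrib, Finset.sum_sub_distrib, ← Finset.mul_sum, Finset.sum_const,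
      Finset.card_univ, Fintype.card_fin, nsmul_eq_mul] at h3
    rw [E_sc]
    rw [gap] at h2
    generalize tB S.τ (dM S S.τ) + tG S.τ (dM S S.τ) (dM S S.τ) - t2 S.τ S.τ = b at h2 h5
    generalize t3 S.τ G + tS S.τ (dM S G) = c at h2 ⊢
    simp only [map_add S.E, map_sub S.E, map_smul, smul_eq_mul, h1, h4, e1, e2, e3, of_apply] at h2
    linarith
  refine le_of_forall_pos_le_add fun ε hε => ?_
  have h2 := key (ε / 2 / (n * n + 1)) (by positivity)
  have h3 : n * (n * (ε / 2 / (n * n + 1))) ≤ ε / 2 := by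
    rw [← mul_assoc, mul_div_assoc', div_le_iff₀ (by positivity)]
    linarith
  linarith

end Vale.Agent.P254.S
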