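import Vale.Agent.P254.S.Defs

/-! # P254 S/Pair

OWNER helper53 (generated certificate).
-/

set_option linter.unusedSectionVars false
set_option linter.unusedVariables false

namespace Vale.Agent.P254.S

open Vale.Agent.P227
open scoped ContDiff
open MeasureTheory Set Filter Topology Matrix

variable {n : ℕ}

noncomputable def prPsi (p s : ℝ) : ℝ :=
  (23 / 50) * p ^ 0 * s ^ 0
  + (-577 / 1200) * p ^ 0 * s ^ 1
  + (23 / 50) * p ^ 0 * s ^ 2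
  + (-877 / 900) * p ^ 1 * s ^ 1
  + (-877 / 900) * p ^ 1 * s ^ 2
  + (18733 / 5400) * p ^ 2 * s ^ 2
  + (1927 / 3600) * p ^ 3 * s ^ 1
  + (-373609 / 138240) * p ^ 3 * s ^ 2
  + (-373609 / 138240) * p ^ 3 * s ^ 3
  + (1927 / 3600) * p ^ 3 * s ^ 4
  + (15973 / 76800) * p ^ 4 * s ^ 2
  + (177529 / 34560) * p ^ 4 * s ^ 3
  + (15973 / 76800) * p ^ 4 * s ^ 4
  + (-112169 / 46080) * p ^ 5 * s ^ 3
  + (-112169 / 46080) * p ^ 5 * s ^ 4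
  + (-2209 / 21600) * p ^ 6 * s ^ 2
  + (131017 / 69120) * p ^ 6 * s ^ 4
  + (-2209 / 21600) * p ^ 6 * s ^ 6

theorem pr_0 {p s : ℝ} (h0 : 0 ≤ p) (h1 : p ≤ (1 / 2)) (hs : 0 ≤ s) (hs1 : s ≤ 1) : 0 ≤ prPsi p s := by
  obtain ⟨u, hu, eu⟩ : ∃ u, 0 ≤ u ∧ u = p - 0 := ⟨_, sub_nonneg.2 h0, rfl⟩
  obtain ⟨w, hw, ew⟩ : ∃ w, 0 ≤ w ∧ w = (1 / 2) - p := ⟨_, sub_nonneg.2 h1, rfl⟩
  obtain ⟨v, hv, ev⟩ : ∃ v, 0 ≤ v ∧ v = 1 - s := ⟨_, sub_nonneg.2 hs1, rfl⟩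
  have e : prPsi p s =
      u ^ 0 * w ^ 6 * ((736 / 25) * s ^ 0 * v ^ 6 + (2188 / 15) * s ^ 1 * v ^ 5 + (23788 / 75) * s ^ 2 * v ^ 4
        + (29912 / 75) * s ^ 3 * v ^ 3 + (23288 / 75) * s ^ 4 * v ^ 2 + (2108 / 15) * s ^ 5 * v ^ 1
        + (2108 / 75) * s ^ 6 * v ^ 0)
      + u ^ 1 * w ^ 5 * ((4416 / 25) * s ^ 0 * v ^ 6 + (189904 / 225) * s ^ 1 * v ^ 5 + (128696 / 75) * s ^ 2 * v ^ 4
        + (440192 / 225) * s ^ 3 * v ^ 3 + (306928 / 225) * s ^ 4 * v ^ 2 + (14064 / 25) * s ^ 5 * v ^ 1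
        + (23912 / 225) * s ^ 6 * v ^ 0)
      + u ^ 2 * w ^ 4 * ((2208 / 5) * s ^ 0 * v ^ 6 + (91444 / 45) * s ^ 1 * v ^ 5 + (2617406 / 675) * s ^ 2 * v ^ 4
        + (2714624 / 675) * s ^ 3 * v ^ 3 + (187204 / 75) * s ^ 4 * v ^ 2 + (625604 / 675) * s ^ 5 * v ^ 1
        + (111566 / 675) * s ^ 6 * v ^ 0)
      + u ^ 3 * w ^ 3 * ((2944 / 5) * s ^ 0 * v ^ 6 + (391469 / 150) * s ^ 1 * v ^ 5 + (405591347 / 86400) * s ^ 2 * v ^ 4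
        + (127694101 / 28800) * s ^ 3 * v ^ 3 + (23093939 / 9600) * s ^ 4 * v ^ 2 + (66612581 / 86400) * s ^ 5 * v ^ 1
        + (120799 / 960) * s ^ 6 * v ^ 0)
      + u ^ 4 * w ^ 2 * ((2208 / 5) * s ^ 0 * v ^ 6 + (850061 / 450) * s ^ 1 * v ^ 5 + (61822087 / 19200) * s ^ 2 * v ^ 4
        + (239936401 / 86400) * s ^ 3 * v ^ 3 + (24799601 / 19200) * s ^ 4 * v ^ 2 + (2420971 / 7200) * s ^ 5 * v ^ 1
        + (4247929 / 86400) * s ^ 6 * v ^ 0)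
      + u ^ 5 * w ^ 1 * ((4416 / 25) * s ^ 0 * v ^ 6 + (329461 / 450) * s ^ 1 * v ^ 5 + (10287031 / 8640) * s ^ 2 * v ^ 4
        + (21780227 / 23040) * s ^ 3 * v ^ 3 + (10759483 / 28800) * s ^ 4 * v ^ 2 + (25192801 / 345600) * s ^ 5 * v ^ 1
        + (546739 / 57600) * s ^ 6 * v ^ 0)
      + u ^ 6 * w ^ 0 * ((736 / 25) * s ^ 0 * v ^ 6 + (3569 / 30) * s ^ 1 * v ^ 5 + (6431791 / 34560) * s ^ 2 * v ^ 4
        + (1056857 / 7680) * s ^ 3 * v ^ 3 + (641603 / 13824) * s ^ 4 * v ^ 2 + (2148479 / 345600) * s ^ 5 * v ^ 1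
        + (254131 / 345600) * s ^ 6 * v ^ 0) := by
    rw [eu, ew, ev, prPsi]
    ring
  rw [e]
  positivity

theorem pr_1 {p s : ℝ} (h0 : (1 / 2) ≤ p) (h1 : p ≤ (3 / 4)) (hs : 0 ≤ s) (hs1 : s ≤ 1) : 0 ≤ prPsi p s := by
  obtain ⟨u, hu, eu⟩ : ∃ u, 0 ≤ u ∧ u = p - (1 / 2) := ⟨_, sub_nonneg.2 h0, rfl⟩
  obtain ⟨w, hw, ew⟩ : ∃ w, 0 ≤ w ∧ w = (3 / 4) - p := ⟨_, sub_nonneg.2 h1, rfl⟩
  obtain ⟨v, hv, ev⟩ : ∃ v, 0 ≤ v ∧ v = 1 - s := ⟨_, sub_nonneg.2 hs1, rfl⟩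
  have e : prPsi p s =
      u ^ 0 * w ^ 6 * ((47104 / 25) * s ^ 0 * v ^ 6 + (114208 / 15) * s ^ 1 * v ^ 5 + (6431791 / 540) * s ^ 2 * v ^ 4
        + (1056857 / 120) * s ^ 3 * v ^ 3 + (641603 / 216) * s ^ 4 * v ^ 2 + (2148479 / 5400) * s ^ 5 * v ^ 1
        + (254131 / 5400) * s ^ 6 * v ^ 0)
      + u ^ 1 * w ^ 5 * ((282624 / 25) * s ^ 0 * v ^ 6 + (10146704 / 225) * s ^ 1 * v ^ 5 + (37312057 / 540) * s ^ 2 * v ^ 4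
        + (35290051 / 720) * s ^ 3 * v ^ 3 + (26601259 / 1800) * s ^ 4 * v ^ 2 + (13479821 / 10800) * s ^ 5 * v ^ 1
        + (107827 / 900) * s ^ 6 * v ^ 0)
      + u ^ 2 * w ^ 4 * ((141312 / 5) * s ^ 0 * v ^ 6 + (25082968 / 225) * s ^ 1 * v ^ 5 + (75489517 / 450) * s ^ 2 * v ^ 4
        + (619900201 / 5400) * s ^ 3 * v ^ 3 + (75010667 / 2400) * s ^ 4 * v ^ 2 + (4726543 / 3600) * s ^ 5 * v ^ 1
        + (2092891 / 21600) * s ^ 6 * v ^ 0)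
      + u ^ 3 * w ^ 3 * ((188416 / 5) * s ^ 0 * v ^ 6 + (736332 / 5) * s ^ 1 * v ^ 5 + (2357391301 / 10800) * s ^ 2 * v ^ 4
        + (115980309 / 800) * s ^ 3 * v ^ 3 + (21760151 / 600) * s ^ 4 * v ^ 2 + (10427771 / 21600) * s ^ 5 * v ^ 1
        + (100193 / 1800) * s ^ 6 * v ^ 0)
      + u ^ 4 * w ^ 2 * ((141312 / 5) * s ^ 0 * v ^ 6 + (24677252 / 225) * s ^ 1 * v ^ 5 + (6938108897 / 43200) * s ^ 2 * v ^ 4
        + (8998924321 / 86400) * s ^ 3 * v ^ 3 + (234819797 / 9600) * s ^ 4 * v ^ 2 + (5758879 / 86400) * s ^ 5 * v ^ 1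
        + (6337681 / 86400) * s ^ 6 * v ^ 0)
      + u ^ 5 * w ^ 1 * ((282624 / 25) * s ^ 0 * v ^ 6 + (9826756 / 225) * s ^ 1 * v ^ 5 + (456313429 / 7200) * s ^ 2 * v ^ 4
        + (2322778423 / 57600) * s ^ 3 * v ^ 3 + (52094413 / 5760) * s ^ 4 * v ^ 2 + (865843 / 11520) * s ^ 5 * v ^ 1
        + (740683 / 14400) * s ^ 6 * v ^ 0)
      + u ^ 6 * w ^ 0 * ((47104 / 25) * s ^ 0 * v ^ 6 + (109004 / 15) * s ^ 1 * v ^ 5 + (16768893 / 1600) * s ^ 2 * v ^ 4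
        + (125899379 / 19200) * s ^ 3 * v ^ 3 + (10795177 / 7680) * s ^ 4 * v ^ 2 + (51187 / 1600) * s ^ 5 * v ^ 1
        + (433561 / 38400) * s ^ 6 * v ^ 0) := by
    rw [eu, ew, ev, prPsi]
    ring
  rw [e]
  positivity

theorem pr_2 {p s : ℝ} (h0 : (3 / 4) ≤ p) (h1 : p ≤ 1) (hs : 0 ≤ s) (hs1 : s ≤ 1) : 0 ≤ prPsi p s := by
  obtain ⟨u, hu, eu⟩ : ∃ u, 0 ≤ u ∧ u = p - (3 / 4) := ⟨_, sub_nonneg.2 h0, rfl⟩
  obtain ⟨w, hw, ew⟩ : ∃ w, 0 ≤ w ∧ w = 1 - p := ⟨_, sub_nonneg.2 h1, rfl⟩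
  obtain ⟨v, hv, ev⟩ : ∃ v, 0 ≤ v ∧ v = 1 - s := ⟨_, sub_nonneg.2 hs1, rfl⟩
  have e : prPsi p s =
      u ^ 0 * w ^ 6 * ((47104 / 25) * s ^ 0 * v ^ 6 + (109004 / 15) * s ^ 1 * v ^ 5 + (16768893 / 1600) * s ^ 2 * v ^ 4
        + (125899379 / 19200) * s ^ 3 * v ^ 3 + (10795177 / 7680) * s ^ 4 * v ^ 2 + (51187 / 1600) * s ^ 5 * v ^ 1
        + (433561 / 38400) * s ^ 6 * v ^ 0)
      + u ^ 1 * w ^ 5 * ((282624 / 25) * s ^ 0 * v ^ 6 + (9793964 / 225) * s ^ 1 * v ^ 5 + (449206793 / 7200) * s ^ 2 * v ^ 4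
        + (2209599221 / 57600) * s ^ 3 * v ^ 3 + (2253109 / 288) * s ^ 4 * v ^ 2 + (17783569 / 57600) * s ^ 5 * v ^ 1
        + (2420683 / 28800) * s ^ 6 * v ^ 0)
      + u ^ 2 * w ^ 4 * ((141312 / 5) * s ^ 0 * v ^ 6 + (24513292 / 225) * s ^ 1 * v ^ 5 + (6724909817 / 43200) * s ^ 2 * v ^ 4
        + (4075040153 / 43200) * s ^ 3 * v ^ 3 + (264326783 / 14400) * s ^ 4 * v ^ 2 + (53333267 / 43200) * s ^ 5 * v ^ 1
        + (5106859 / 21600) * s ^ 6 * v ^ 0)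
      + u ^ 3 * w ^ 3 * ((188416 / 5) * s ^ 0 * v ^ 6 + (10940812 / 75) * s ^ 1 * v ^ 5 + (750141731 / 3600) * s ^ 2 * v ^ 4
        + (1343296087 / 10800) * s ^ 3 * v ^ 3 + (16235287 / 720) * s ^ 4 * v ^ 2 + (7785947 / 3600) * s ^ 5 * v ^ 1
        + (1513139 / 5400) * s ^ 6 * v ^ 0)
      + u ^ 4 * w ^ 2 * ((141312 / 5) * s ^ 0 * v ^ 6 + (24801296 / 225) * s ^ 1 * v ^ 5 + (15778233 / 100) * s ^ 2 * v ^ 4
        + (249227039 / 2700) * s ^ 3 * v ^ 3 + (522655 / 36) * s ^ 4 * v ^ 2 + (1513139 / 900) * s ^ 5 * v ^ 1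
        + (79808 / 675) * s ^ 6 * v ^ 0)
      + u ^ 5 * w ^ 1 * ((282624 / 25) * s ^ 0 * v ^ 6 + (10028992 / 225) * s ^ 1 * v ^ 5 + (43237619 / 675) * s ^ 2 * v ^ 4
        + (907858 / 25) * s ^ 3 * v ^ 3 + (925841 / 225) * s ^ 4 * v ^ 2 + (319232 / 675) * s ^ 5 * v ^ 1)
      + u ^ 6 * w ^ 0 * ((47104 / 25) * s ^ 0 * v ^ 6 + (188416 / 25) * s ^ 1 * v ^ 5 + (7348096 / 675) * s ^ 2 * v ^ 4
        + (3956224 / 675) * s ^ 3 * v ^ 3 + (5632 / 27) * s ^ 4 * v ^ 2) := by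
    rw [eu, ew, ev, prPsi]
    ring
  rw [e]
  positivity

theorem pr_all {p s : ℝ} (h0 : 0 ≤ p) (h1 : p ≤ 1) (hs : 0 ≤ s) (hs1 : s ≤ 1) : 0 ≤ prPsi p s := by
  rcases le_total p (1 / 2) with h | h
  · exact pr_0 h0 h hs hs1
  rcases le_total p (3 / 4) with h' | h'
  · exact pr_1 h h' hs hs1
  · exact pr_2 h' h1 hs hs1

theorem qq_nonneg {a b : ℝ} (ha : 0 < a) (hb : 0 < b) : 0 ≤ qq a b := by
  have h1 : (a + 2)⁻¹ ≤ 1 / 2 := by rw [one_div]; exact inv_anti₀ (by norm_num) (by linarith)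
  have h2 : (b + 2)⁻¹ ≤ 1 / 2 := by rw [one_div]; exact inv_anti₀ (by norm_num) (by linarith)
  have h3 := mul_le_mul h1 h2 (by positivity) (by norm_num)
  unfold qq
  linarith

theorem dl_nonneg {a : ℝ} (ha : 0 < a) : 0 ≤ dl a := by
  have h1 : (a + 2)⁻¹ ≤ 1 / 2 := by rw [one_div]; exact inv_anti₀ (by norm_num) (by linarith)
  have h3 := pow_le_pow_left₀ (by positivity) h1 2
  unfold dl
  linarith

theorem qq_le {a b : ℝ} (ha : 0 < a) (hb : 0 < b) : (a + b) * qq a b ≤ kap a + kap b := by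
  have e : kap a + kap b - (a + b) * qq a b = 19 / 5 * ((a + 2)⁻¹ - (b + 2)⁻¹) ^ 2 := by
    unfold kap qq
    field_simp
    ring
  have := sq_nonneg ((a + 2)⁻¹ - (b + 2)⁻¹)
  linarith

theorem pr_le {a b : ℝ} (ha : 0 < a) (hb : 0 < b) (hab : a ≤ b) :
    (a * b * qq a b ^ 2 + kap a * dl b + kap b * dl a + (dl a ^ 2 + dl b ^ 2) / 2) / (27 / 25)
      + 975 / 1024 * (xx a ^ 2 * (xx b * (1 - xx b)) + xx b ^ 2 * (xx a * (1 - xx a)))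
      ≤ 23 / 200 * (a + b) ^ 2 := by
  have h := pr_all (p := 2 / (a + 2)) (s := (a + 2) / (b + 2)) (by positivity)
    ((div_le_one (by positivity)).2 (by linarith)) (by positivity)
    ((div_le_one (by positivity)).2 (by linarith))
  have e : 23 / 200 * (a + b) ^ 2 -
      ((a * b * qq a b ^ 2 + kap a * dl b + kap b * dl a + (dl a ^ 2 + dl b ^ 2) / 2) / (27 / 25)
      + 975 / 1024 * (xx a ^ 2 * (xx b * (1 - xx b)) + xx b ^ 2 * (xx a * (1 - xx a))))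
      = (b + 2) ^ 2 / 4 * prPsi (2 / (a + 2)) ((a + 2) / (b + 2)) := by
    unfold kap qq dl xx prPsi
    field_simp
    ring
  have h2 : 0 ≤ (b + 2) ^ 2 / 4 * prPsi (2 / (a + 2)) ((a + 2) / (b + 2)) := by positivity
  linarith

theorem pair {a b : ℝ} (ha : 0 < a) (hb : 0 < b) :
    (a * b * qq a b ^ 2 + kap a * dl b + kap b * dl a + (dl a ^ 2 + dl b ^ 2) / 2) / (27 / 25)
      + 975 / 1024 * (xx a ^ 2 * (xx b * (1 - xx b)) + xx b ^ 2 * (xx a * (1 - xx a)))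
      ≤ 23 / 200 * (a + b) ^ 2 := by
  rcases le_total a b with h | h
  · exact pr_le ha hb h
  · have := pr_le hb ha h
    have e : qq b a = qq a b := by unfold qq; ring
    rw [e] at this
    linarith

end Vale.Agent.P254.S
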