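import Vale.Agent.P254.S.Frame
import Vale.Agent.P227.Classes

/-! # P254 S/Res

TASK, helper names start with res_.
Put M x = s • τ x + t • 1, LB (s c + t) or LB (min ..); bounded by DS.inv_Qb with bs_iff.  pd_inv gives ∂ M⁻¹ = - M⁻¹ (s ∂τ) M⁻¹; Uᵀ M U = diagonal (s lam + t),
so Uᵀ M⁻¹ U = diagonal (s lam + t)⁻¹ (Matrix.inv_eq_left_inv, Frame.eq); use rot_eq and insert U * Uᵀ = 1; diagonal_mul, mul_diagonal.
-/

set_option linter.unusedSectionVars false
set_option linter.unusedVariables false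

namespace Vale.Agent.P254.S

open Vale.Agent.P227
open scoped ContDiff
open MeasureTheory Set Filter Topology Matrix

variable {n : ℕ}

theorem res_fld {τ : X n → Mat n} (h : Fld τ) {s t : ℝ} (hs : 0 ≤ s) (ht : 0 ≤ t)
    (hst : 0 < s + t) : Fld fun x => s • τ x + t • (1 : Mat n) := by
  refine ⟨fun i j => ?_, fun x => ((h.symm x).smul s).add (isSymm_one.smul t), ?_⟩
  · exact ((h.bs i j).const_mul s).add (BS.const (t * (1 : Mat n) i j))
  · obtain ⟨c, hc, hl⟩ := h.lb
    refine ⟨s * c + t, ?_, fun x ξ => ?_⟩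
    · rcases hs.eq_or_lt with e | e
      · rw [← e] at hst ⊢
        simpa using hst
      · have := mul_pos e hc
        linarith
    · have h1 := mul_le_mul_of_nonneg_left (hl x ξ) hs
      simp only [qf_eq_dot, nsq_eq_dot, add_mulVec, smul_mulVec, one_mulVec, dotProduct_add,
        dotProduct_smul, smul_eq_mul] at h1 ⊢
      linarith

theorem res_det {τ : X n → Mat n} (h : Fld τ) (x : X n) : (τ x).det ≠ 0 := by
  obtain ⟨c, hc, hl⟩ := h.lb
  exact ((hl x).det_pos hc (h.symm x)).ne'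

theorem res_conj {U : Mat n} (hU : U * Uᵀ = 1) (A B : Mat n) :
    Uᵀ * (A * B) * U = (Uᵀ * A * U) * (Uᵀ * B * U) := by
  calc Uᵀ * (A * B) * U = Uᵀ * A * (U * Uᵀ) * B * U := by
        rw [hU, Matrix.mul_one, Matrix.mul_assoc Uᵀ A B]
    _ = (Uᵀ * A * U) * (Uᵀ * B * U) := by simp only [Matrix.mul_assoc]

theorem res_rot (U : Mat n) (F : X n → Mat n) (p : X n) (i k l : Fin n) :
    rot U (fun c a b => pd c (fun y => F y a b) p) i k l =
      ∑ c, U c i * (Uᵀ * mpd c F p * U) k l := rot_eq U _ i k l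

theorem res_mpd_mul {F G : X n → Mat n} (sF : ∀ a b, Sm fun x => F x a b)
    (sG : ∀ a b, Sm fun x => G x a b) (c : Fin n) (p : X n) :
    mpd c (fun x => F x * G x) p = mpd c F p * G p + F p * mpd c G p := by
  ext a b
  simp only [mpd_apply, Matrix.mul_apply, Matrix.add_apply]
  rw [pd_sum (F := fun k y => F y a k * G y k b) _
    fun k _ => ((sF a k).diff p).mul ((sG k b).diff p), ← Finset.sum_add_distrib]
  exact Finset.sum_congr rfl fun k _ => pd_mul ((sF a k).diff p) ((sG k b).diff p) c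

theorem mf_res {τ : X n → Mat n} (h : Fld τ) {s t : ℝ} (hs : 0 ≤ s) (ht : 0 ≤ t) (hst : 0 < s + t) :
    MF τ (fun x => (s • τ x + t • (1 : Mat n))⁻¹) (fun a => (s * a + t)⁻¹)
      fun a b => -s * ((s * a + t)⁻¹ * (s * b + t)⁻¹) := by
  intro p Φ
  have hM := res_fld h hs ht hst
  have dpos : ∀ i, 0 < s * Φ.lam i + t := fun i => by
    rcases hs.eq_or_lt with e | e
    · rw [← e] at hst ⊢
      simpa using hst
    · have := mul_pos e (Φ.pos i)
      linarith
  have e1 : Φ.Uᵀ * (s • τ p + t • (1 : Mat n)) * Φ.U = diagonal fun i => s * Φ.lam i + t := by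
    rw [Matrix.mul_add, Matrix.add_mul, Matrix.mul_smul, Matrix.smul_mul, Matrix.mul_smul,
      Matrix.smul_mul, Matrix.mul_one, Φ.diag, Φ.orth']
    ext i j
    by_cases hij : i = j
    · subst hij
      simp
    · simp [hij]
  have e2 : Φ.Uᵀ * (s • τ p + t • (1 : Mat n))⁻¹ * Φ.U =
      diagonal fun i => (s * Φ.lam i + t)⁻¹ := by
    have a1 := res_conj Φ.orth (s • τ p + t • (1 : Mat n))⁻¹ (s • τ p + t • (1 : Mat n))
    rw [nonsing_inv_mul _ (IsUnit.mk0 _ (res_det hM p)), Matrix.mul_one, Φ.orth', e1] at a1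
    have a2 : (diagonal fun i => s * Φ.lam i + t) * (diagonal fun i => (s * Φ.lam i + t)⁻¹) =
        (1 : Mat n) := by
      rw [diagonal_mul_diagonal, ← diagonal_one]
      exact congrArg diagonal (funext fun i => mul_inv_cancel₀ (dpos i).ne')
    have a3 := congrArg (· * diagonal fun i => (s * Φ.lam i + t)⁻¹) a1
    simp only [Matrix.one_mul] at a3
    rw [Matrix.mul_assoc _ (diagonal _), a2, Matrix.mul_one] at a3
    exact a3.symm
  refine ⟨e2, fun i k l => ?_⟩
  rw [res_rot, res_rot, Finset.mul_sum]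
  refine Finset.sum_congr rfl fun c _ => ?_
  have d1 : mpd c (fun x => s • τ x + t • (1 : Mat n)) p = s • mpd c τ p := by
    ext a b
    have := pd_add (x := p) (((h.bs a b).const_mul s).1.diff p)
      (differentiableAt_const (t * (1 : Mat n) a b)) c
    rw [pd_const, add_zero, pd_const_mul ((h.bs a b).1.diff p)] at this
    exact this
  have d2 : mpd c (fun x => (s • τ x + t • (1 : Mat n))⁻¹) p =
      -((s • τ p + t • (1 : Mat n))⁻¹ * (s • mpd c τ p) * (s • τ p + t • (1 : Mat n))⁻¹) := by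
    ext a b
    rw [← d1]
    exact pd_inv (fun i j => (hM.bs i j).1) (res_det hM) a b c p
  rw [d2, Matrix.mul_neg, Matrix.neg_mul, res_conj Φ.orth, res_conj Φ.orth, e2, Matrix.neg_apply,
    mul_diagonal, diagonal_mul, Matrix.mul_smul, Matrix.smul_mul, Matrix.smul_apply, smul_eq_mul]
  ring

theorem bs_res {τ : X n → Mat n} (h : Fld τ) {s t : ℝ} (hs : 0 ≤ s) (ht : 0 ≤ t) (hst : 0 < s + t)
    (i j : Fin n) : BS fun x => (s • τ x + t • (1 : Mat n))⁻¹ i j := by
  have hM := res_fld h hs ht hst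
  obtain ⟨c, hc, hl⟩ := hM.lb
  exact bs_iff.2 (DS.inv_Qb (h := fun (_ : Unit) x => s • τ x + t • (1 : Mat n)) hc
    (fun i j => bs_iff.1 (hM.bs i j)) (fun _ x => hM.symm x) (fun _ x => hl x) i j)

theorem MF.mul {τ F G : X n → Mat n} {f g : ℝ → ℝ} {f2 g2 : ℝ → ℝ → ℝ} (hF : MF τ F f f2)
    (hG : MF τ G g g2) (sF : ∀ a b, Sm fun x => F x a b) (sG : ∀ a b, Sm fun x => G x a b) :
    MF τ (fun x => F x * G x) (fun a => f a * g a) fun a b => f2 a b * g b + f a * g2 a b := by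
  intro p Φ
  obtain ⟨f1, f2'⟩ := hF p Φ
  obtain ⟨g1, g2'⟩ := hG p Φ
  refine ⟨?_, fun i k l => ?_⟩
  · rw [res_conj Φ.orth, f1, g1, diagonal_mul_diagonal]
  · have a1 := f2' i k l
    have a2 := g2' i k l
    have a3 : rot Φ.U (fun c a b => pd c (fun y => (F y * G y) a b) p) i k l =
        rot Φ.U (fun c a b => pd c (fun y => F y a b) p) i k l * g (Φ.lam l) +
          f (Φ.lam k) * rot Φ.U (fun c a b => pd c (fun y => G y a b) p) i k l := by
      rw [res_rot Φ.U (fun y => F y * G y), res_rot, res_rot, Finset.sum_mul, Finset.mul_sum,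
        ← Finset.sum_add_distrib]
      refine Finset.sum_congr rfl fun c _ => ?_
      rw [res_mpd_mul sF sG, Matrix.mul_add, Matrix.add_mul, res_conj Φ.orth, res_conj Φ.orth, f1,
        g1, Matrix.add_apply, mul_diagonal, diagonal_mul]
      ring
    rw [a3, a1, a2]
    ring

theorem MF.one (τ : X n → Mat n) : MF τ (fun _ => 1) (fun _ => 1) fun _ _ => 0 := by
  intro p Φ
  refine ⟨?_, fun i k l => ?_⟩
  · rw [Matrix.mul_one, Φ.orth', diagonal_one]
  · simp [rot, pd_const]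

theorem MF.congr {τ F : X n → Mat n} {f g : ℝ → ℝ} {f2 g2 : ℝ → ℝ → ℝ} (hF : MF τ F f f2)
    (h1 : ∀ a, 0 < a → f a = g a) (h2 : ∀ a b, 0 < a → 0 < b → f2 a b = g2 a b) : MF τ F g g2 := by
  intro p Φ
  obtain ⟨f1, f2'⟩ := hF p Φ
  refine ⟨?_, fun i k l => ?_⟩
  · rw [f1]
    exact congrArg diagonal (funext fun i => h1 _ (Φ.pos i))
  · rw [f2', h2 _ _ (Φ.pos k) (Φ.pos l)]

theorem exists_G {τ : X n → Mat n} (h : Fld τ) : ∃ G : X n → Mat n, (∀ i j, BS fun x => G x i j) ∧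
    MF τ G gG gG2 ∧ ∀ x, G x = ((8 / 25 : ℝ) • τ x + (16 / 25 : ℝ) • (1 : Mat n))⁻¹ := by
  refine ⟨fun x => ((8 / 25 : ℝ) • τ x + (16 / 25 : ℝ) • (1 : Mat n))⁻¹,
    bs_res h (by norm_num) (by norm_num) (by norm_num), ?_, fun x => rfl⟩
  have e : ∀ a : ℝ, 0 < a → (8 / 25 * a + 16 / 25)⁻¹ = 25 / 8 * (a + 2)⁻¹ := fun a ha => by
    field_simp
    ring
  refine (mf_res h (by norm_num) (by norm_num) (by norm_num)).congr (fun a ha => e a ha)
    fun a b ha hb => ?_
  rw [e a ha, e b hb, gG2]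
  ring

end Vale.Agent.P254.S
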