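import Vale.Agent.P254.S.Defs

/-! # P254 S/VL

TASK, helper names start with vl_.
Step 1: 2 w ⟨t,v⟩ ≤ 2 wb ⟨t, ε v⟩ with ε = ±1, the quadratic terms do not see ε; so WLOG w = wb.
Step 2 (general symmetric matrix Σ instead of diagonal σ; right side ∑ Σ_jl² / β + ∑ k |wb k • t k - Σ t k|² / α, invariant under rotation): let Q = ∑ k, t k (t k)ᵀ, rotate so that
Q = diagonal q (spectral theorem for the PSD matrix Q): ∑ k, t k j * t k l = if j = l then q j else 0.  Put M j l = 2 Σ j l / (q j + q l) (zero when q j + q l = 0, then t k j = t k l = 0),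
y k = M t k.  2 wb ⟨t,v⟩ = 2 ⟨wb t - Q y, v⟩ + 2 ⟨Q y, v⟩ ≤ |wb t - Q y|²/α + α|v|² + ⟨Q y, y⟩/β + β ⟨Q v, v⟩.  Now ⟨t, Q M t⟩ = ⟨t, Σ t⟩ (symmetrise j,l),
∑ k |Q M t k|² = ∑ j l, 4 q_j² q_l Σ²/(q_j+q_l)² = ∑ 2 q_j q_l Σ²/(q_j+q_l) ≤ ∑ q_l Σ_jl² = ∑ k |Σ t k|², and ∑ k ⟨Q y k, y k⟩ = ∑ 4 q_j q_l Σ²/(q_j+q_l)² ≤ ∑ Σ_jl².
-/

set_option linter.unusedSectionVars false
set_option linter.unusedVariables false

namespace Vale.Agent.P254.S

open Vale.Agent.P227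
open scoped ContDiff
open MeasureTheory Set Filter Topology Matrix

variable {n : ℕ}

theorem vl_pt (a t v y q : ℝ) (hq : 0 ≤ q) {α β : ℝ} (hα : 0 < α) (hβ : 0 < β) :
    2 * a * (t * v) - α * (v * v) - β * (q * v * v) ≤ q * y * y / β + (a * t - q * y) ^ 2 / α := by
  have h1 : 0 ≤ (a * t - q * y - α * v) ^ 2 / α := by positivity
  have h2 : 0 ≤ q * (y - β * v) ^ 2 / β := by positivity
  have h3 : q * y * y / β + (a * t - q * y) ^ 2 / α -
      (2 * a * (t * v) - α * (v * v) - β * (q * v * v)) =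
      (a * t - q * y - α * v) ^ 2 / α + q * (y - β * v) ^ 2 / β := by
    field_simp
    ring
  linarith

theorem vl_frac {a b : ℝ} (ha : 0 ≤ a) (hb : 0 ≤ b) (s : ℝ) :
    a * b * (2 * s / (a + b)) ^ 2 ≤ s ^ 2 := by
  rcases (add_nonneg ha hb).eq_or_lt with h | h
  · rw [← h, div_zero]
    simpa using sq_nonneg s
  · rw [div_pow, ← mul_div_assoc, div_le_iff₀ (by positivity)]
    nlinarith [mul_nonneg (sq_nonneg s) (sq_nonneg (a - b))]

theorem vl_sym (f : Fin n → Fin n → ℝ) : 2 * ∑ j, ∑ l, f j l = ∑ j, ∑ l, (f j l + f l j) := by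
  simp only [Finset.sum_add_distrib]
  rw [Finset.sum_comm (f := fun j l => f l j), two_mul]

theorem vl_le {f g : Fin n → Fin n → ℝ} (h : ∀ j l, f j l + f l j ≤ g j l + g l j) :
    ∑ j, ∑ l, f j l ≤ ∑ j, ∑ l, g j l := by
  refine le_of_mul_le_mul_left ?_ two_pos
  rw [vl_sym, vl_sym]
  exact Finset.sum_le_sum fun j _ => Finset.sum_le_sum fun l _ => h j l

theorem vl_eq {f g : Fin n → Fin n → ℝ} (h : ∀ j l, f j l + f l j = g j l + g l j) :
    ∑ j, ∑ l, f j l = ∑ j, ∑ l, g j l :=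
  le_antisymm (vl_le fun j l => (h j l).le) (vl_le fun j l => (h j l).ge)

theorem vl_core {κ : Type} [Fintype κ] (t v : κ → Fin n → ℝ) (wb : κ → ℝ) (q : Fin n → ℝ)
    (hq : ∀ j l, ∑ k, t k j * t k l = if j = l then q j else 0) (S : Matrix (Fin n) (Fin n) ℝ)
    (hS : ∀ j l, S j l = S l j) {α β : ℝ} (hα : 0 < α) (hβ : 0 < β) :
    ∑ k, (2 * wb k * (t k ⬝ᵥ v k) - α * (v k ⬝ᵥ v k) - β * ∑ m, (t m ⬝ᵥ v k) ^ 2) ≤
      (∑ j, ∑ l, S j l ^ 2) / β +
        (∑ k, (wb k • t k - S *ᵥ t k) ⬝ᵥ (wb k • t k - S *ᵥ t k)) / α := by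
  have h0 : ∀ j, q j = ∑ k, t k j * t k j := fun j => by rw [hq, if_pos rfl]
  have hq0 : ∀ j, 0 ≤ q j := fun j => by
    rw [h0]
    exact Finset.sum_nonneg fun k _ => mul_self_nonneg _
  have HQ : ∀ a : Fin n → ℝ, ∑ k, (t k ⬝ᵥ a) ^ 2 = ∑ j, q j * a j * a j := fun a => by
    simp only [dotProduct, sq, Finset.sum_mul_sum]
    rw [Finset.sum_comm]
    refine Finset.sum_congr rfl fun j _ => ?_
    rw [Finset.sum_comm]
    have : ∀ l, ∑ k, t k j * a j * (t k l * a l) = if j = l then q j * a j * a l else 0 := fun l => by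
      have h1 : ∑ k, t k j * a j * (t k l * a l) = (∑ k, t k j * t k l) * a j * a l := by
        rw [Finset.sum_mul, Finset.sum_mul]
        exact Finset.sum_congr rfl fun k _ => by ring
      rw [h1, hq]
      split_ifs <;> simp
    simp only [this, Finset.sum_ite_eq, Finset.mem_univ, if_true]
  obtain ⟨M, hM⟩ : ∃ M : Fin n → Fin n → ℝ, ∀ j l, M j l = 2 * S j l / (q j + q l) := ⟨_, fun _ _ => rfl⟩
  have hMs : ∀ j l, M l j = M j l := fun j l => by rw [hM, hM, hS l j, add_comm]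
  have hf : ∀ j l, q j * q l * M j l ^ 2 ≤ S j l ^ 2 := fun j l => by
    rw [hM]
    exact vl_frac (hq0 j) (hq0 l) _
  have h1 : ∀ k, 2 * wb k * (t k ⬝ᵥ v k) - α * (v k ⬝ᵥ v k) - β * ∑ m, (t m ⬝ᵥ v k) ^ 2 ≤
      (∑ j, q j * (t k ⬝ᵥ M j) ^ 2) / β +
        (∑ j, (wb k * t k j - q j * (t k ⬝ᵥ M j)) ^ 2) / α := fun k => by
    rw [HQ, dotProduct, dotProduct, Finset.mul_sum, Finset.mul_sum, Finset.mul_sum, Finset.sum_div,
      Finset.sum_div, ← Finset.sum_sub_distrib, ← Finset.sum_sub_distrib, ← Finset.sum_add_distrib]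
    refine Finset.sum_le_sum fun j _ => ?_
    have := vl_pt (wb k) (t k j) (v k j) (t k ⬝ᵥ M j) (q j) (hq0 j) hα hβ
    rwa [mul_assoc (q j) (t k ⬝ᵥ M j), ← sq (t k ⬝ᵥ M j)] at this
  refine (Finset.sum_le_sum fun k _ => h1 k).trans ?_
  rw [Finset.sum_add_distrib, ← Finset.sum_div, ← Finset.sum_div]
  refine add_le_add (div_le_div_of_nonneg_right ?_ hβ.le) (div_le_div_of_nonneg_right ?_ hα.le)
  · rw [Finset.sum_comm]
    refine Finset.sum_le_sum fun j _ => ?_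
    rw [← Finset.mul_sum, HQ, Finset.mul_sum]
    exact Finset.sum_le_sum fun l _ => le_of_eq_of_le (by ring) (hf j l)
  · have h2 : ∀ k, ∑ j, t k j * (q j * (t k ⬝ᵥ M j)) = ∑ j, t k j * (t k ⬝ᵥ S j) := fun k => by
      simp only [dotProduct, Finset.mul_sum]
      refine vl_eq fun j l => ?_
      rw [hMs j l, hS l j]
      rcases (add_nonneg (hq0 j) (hq0 l)).eq_or_lt with h | h
      · have h3 : q j = 0 := by linarith [hq0 j, hq0 l]
        rw [h0] at h3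
        have h4 := (Finset.sum_eq_zero_iff_of_nonneg fun k _ => mul_self_nonneg (t k j)).1 h3 k
          (Finset.mem_univ k)
        rw [mul_self_eq_zero.1 h4]
        ring
      · rw [hM]
        field_simp
        ring
    have h3 : ∑ k, ∑ j, (q j * (t k ⬝ᵥ M j)) ^ 2 ≤ ∑ k, ∑ j, (t k ⬝ᵥ S j) ^ 2 := by
      rw [Finset.sum_comm, Finset.sum_comm (f := fun k j => (t k ⬝ᵥ S j) ^ 2)]
      simp only [mul_pow, ← Finset.mul_sum, HQ]
      simp only [Finset.mul_sum]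
      refine vl_le fun j l => ?_
      rw [hMs j l, hS l j]
      have := mul_le_mul_of_nonneg_left (hf j l) (add_nonneg (hq0 j) (hq0 l))
      linarith
    have h4 : ∀ k, ∑ j, (wb k * t k j - q j * (t k ⬝ᵥ M j)) ^ 2 = ∑ j, (wb k * t k j) ^ 2 -
        2 * wb k * ∑ j, t k j * (q j * (t k ⬝ᵥ M j)) + ∑ j, (q j * (t k ⬝ᵥ M j)) ^ 2 := fun k => by
      rw [Finset.mul_sum, ← Finset.sum_sub_distrib, ← Finset.sum_add_distrib]
      exact Finset.sum_congr rfl fun j _ => by ring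
    have h5 : ∀ k, (wb k • t k - S *ᵥ t k) ⬝ᵥ (wb k • t k - S *ᵥ t k) = ∑ j, (wb k * t k j) ^ 2 -
        2 * wb k * ∑ j, t k j * (t k ⬝ᵥ S j) + ∑ j, (t k ⬝ᵥ S j) ^ 2 := fun k => by
      rw [Finset.mul_sum, ← Finset.sum_sub_distrib, ← Finset.sum_add_distrib, dotProduct]
      refine Finset.sum_congr rfl fun j _ => ?_
      have : (wb k • t k - S *ᵥ t k) j = wb k * t k j - t k ⬝ᵥ S j := by
        rw [dotProduct_comm]
        rfl
      rw [this]
      ring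
    simp only [h4, h5, h2, Finset.sum_add_distrib]
    linarith

theorem vl_diag (Q : Matrix (Fin n) (Fin n) ℝ) (hQ : Q.IsHermitian) :
    ∃ (U : Matrix (Fin n) (Fin n) ℝ) (q : Fin n → ℝ), U * Uᵀ = 1 ∧ Uᵀ * Q * U = diagonal q := by
  refine ⟨hQ.eigenvectorUnitary, hQ.eigenvalues, ?_, ?_⟩
  · have := hQ.eigenvectorUnitary.2.2
    rwa [star_eq_conjTranspose, conjTranspose_eq_transpose_of_trivial] at this
  · have := hQ.conjStarAlgAut_star_eigenvectorUnitary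
    rw [Unitary.conjStarAlgAut_star_apply, star_eq_conjTranspose,
      conjTranspose_eq_transpose_of_trivial] at this
    exact this

theorem vl_two {κ : Type} [Fintype κ] (t v : κ → Fin n → ℝ) (wb : κ → ℝ)
    (σ : Fin n → ℝ) {α β : ℝ} (hα : 0 < α) (hβ : 0 < β) :
    ∑ k, (2 * wb k * (t k ⬝ᵥ v k) - α * (v k ⬝ᵥ v k) - β * ∑ m, (t m ⬝ᵥ v k) ^ 2)
      ≤ (∑ i, σ i ^ 2) / β + (∑ k, ∑ i, (wb k - σ i) ^ 2 * t k i ^ 2) / α := by
  obtain ⟨U, q, h1, h2⟩ := vl_diag ((Matrix.of t)ᵀ * Matrix.of t) (by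
    have := isHermitian_conjTranspose_mul_self (Matrix.of t)
    rwa [conjTranspose_eq_transpose_of_trivial] at this)
  have h3 : ∀ a b : Fin n → ℝ, (Uᵀ *ᵥ a) ⬝ᵥ (Uᵀ *ᵥ b) = a ⬝ᵥ b := fun a b => by
    rw [dotProduct_mulVec, vecMul_transpose, mulVec_mulVec, h1, one_mulVec]
  have h4 := vl_core (fun k => Uᵀ *ᵥ t k) (fun k => Uᵀ *ᵥ v k) wb q (fun j l => by
    have e : Uᵀ * ((Matrix.of t)ᵀ * Matrix.of t) * U = (Matrix.of t * U)ᵀ * (Matrix.of t * U) := by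
      rw [transpose_mul]
      simp only [Matrix.mul_assoc]
    rw [← diagonal_apply, ← h2, e]
    simp only [mulVec_transpose]
    rfl) (Uᵀ * diagonal σ * U) (fun j l => by
      have e : (Uᵀ * diagonal σ * U)ᵀ = Uᵀ * diagonal σ * U := by
        rw [transpose_mul, transpose_mul, transpose_transpose, diagonal_transpose, Matrix.mul_assoc]
      rw [← e, transpose_apply, e]) hα hβ
  have h5 : ∑ j, ∑ l, (Uᵀ * diagonal σ * U) j l ^ 2 = ∑ i, σ i ^ 2 := by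
    have e : ∀ S : Matrix (Fin n) (Fin n) ℝ, ∑ j, ∑ l, S j l ^ 2 = (S * Sᵀ).trace := fun S => by
      simp only [trace, diag_apply, mul_apply, transpose_apply, sq]
    rw [e, transpose_mul, transpose_mul, transpose_transpose, diagonal_transpose, Matrix.mul_assoc,
      ← Matrix.mul_assoc U, h1, Matrix.one_mul, ← Matrix.mul_assoc, trace_mul_comm,
      ← Matrix.mul_assoc, ← Matrix.mul_assoc, h1, Matrix.one_mul, diagonal_mul_diagonal,
      trace_diagonal]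
    simp only [sq]
  have h6 : ∀ k, (wb k • Uᵀ *ᵥ t k - (Uᵀ * diagonal σ * U) *ᵥ (Uᵀ *ᵥ t k)) ⬝ᵥ
      (wb k • Uᵀ *ᵥ t k - (Uᵀ * diagonal σ * U) *ᵥ (Uᵀ *ᵥ t k)) =
      ∑ i, (wb k - σ i) ^ 2 * t k i ^ 2 := fun k => by
    rw [mulVec_mulVec, Matrix.mul_assoc, h1, Matrix.mul_one, ← mulVec_mulVec, ← mulVec_smul,
      ← mulVec_sub, h3, dotProduct]
    refine Finset.sum_congr rfl fun i _ => ?_
    rw [Pi.sub_apply, mulVec_diagonal, Pi.smul_apply, smul_eq_mul]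
    ring
  simp only [h3, h5, h6] at h4
  exact h4

theorem vl {κ : Type} [Fintype κ] (t v : κ → Fin n → ℝ) (w wb : κ → ℝ) (hw : ∀ k, |w k| ≤ wb k)
    (σ : Fin n → ℝ) {α β : ℝ} (hα : 0 < α) (hβ : 0 < β) :
    ∑ k, (2 * w k * ∑ i, t k i * v k i - α * ∑ i, v k i ^ 2 - β * ∑ m, (∑ i, t m i * v k i) ^ 2)
      ≤ (∑ i, σ i ^ 2) / β + (∑ k, ∑ i, (wb k - σ i) ^ 2 * t k i ^ 2) / α := by
  refine le_trans (Finset.sum_le_sum fun k _ => ?_)
    (vl_two t (fun k => if 0 ≤ t k ⬝ᵥ v k then v k else -v k) wb σ hα hβ)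
  have h1 : ∑ i, v k i ^ 2 = v k ⬝ᵥ v k := Finset.sum_congr rfl fun i _ => sq _
  have h2 := abs_le.1 (hw k)
  rw [h1]
  change 2 * w k * (t k ⬝ᵥ v k) - _ - β * ∑ m, (t m ⬝ᵥ v k) ^ 2 ≤ _
  split_ifs with h
  · nlinarith [mul_le_mul_of_nonneg_right h2.2 h]
  · simp only [dotProduct_neg, neg_dotProduct, neg_neg, neg_sq]
    nlinarith [mul_le_mul_of_nonpos_right h2.1 (not_le.1 h).le]

end Vale.Agent.P254.S
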